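import Vale.Agent.P224.R2.H662.G1
import Vale.Agent.P224.R2.H728.T0o

/-!
The eigenvalues of the least squares matrix.
-/

namespace Vale.Agent.P224.R2.H662

open MeasureTheory Function Set Vale.Agent.P224.R2.H728

set_option linter.unusedSectionVars false

section

variable {ι Ω : Type*} [Fintype ι] [DecidableEq ι] [MeasurableSpace Ω] {μ : Measure Ω}
  {m : ℝ} {x N : ι → Ω → ℝ} {j : ι → ℝ}

/-- the eigenvalues of the least squares matrix -/
theorem j_sq_le (h : T0Data μ m x N) (hm : 0 ≤ m) (hL : LSq μ (Matrix.diagonal j) x N) {ν : ℝ}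
    (a : ι) (hν : m2 μ N N a a ≤ ν) (hG : 0 < m2 μ x x a a) :
    j a ^ 2 * (1 - ν) ≤ (m + 1) * ν := by
  have := h.prob
  have h1 := h.GP a a
  rw [if_pos rfl] at h1
  have h2 := h.C_eq hL a
  have h3 := cs_one (μ := μ) (h.bN a) (h.bx a)
  have e1 : ∫ ω, N a ω ^ 2 ∂μ = m2 μ N N a a :=
    integral_congr_ae (Filter.Eventually.of_forall fun ω => sq _)
  have e2 : ∫ ω, x a ω ^ 2 ∂μ = m2 μ x x a a :=
    integral_congr_ae (Filter.Eventually.of_forall fun ω => sq _)
  have e3 : ∫ ω, N a ω * x a ω ∂μ = m2 μ N x a a := rfl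
  rw [e1, e2, e3, h2] at h3
  set G := m2 μ x x a a
  set P := m2 μ N N a a
  have h4 : j a ^ 2 * G ≤ P := by
    have : (j a ^ 2 * G) * G ≤ P * G := by nlinarith
    exact le_of_mul_le_mul_right this hG
  have h5 : (m + 1) * G = 1 - P := by linarith
  have h6 : (m + 1) * (j a ^ 2 * G) ≤ (m + 1) * P := mul_le_mul_of_nonneg_left h4 (by linarith)
  have h7 : (m + 1) * (j a ^ 2 * G) = j a ^ 2 * (1 - P) := by rw [← h5]; ring
  rw [h7] at h6
  nlinarith [sq_nonneg (j a)]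

/-- `E |J x|² = 1 - h` -/
theorem E_q (h : T0Data μ m x N) (hL : LSq μ (Matrix.diagonal j) x N) :
    ∑ a, j a ^ 2 * m2 μ x x a a = 1 - hh μ (Matrix.diagonal j) x N := by
  rw [← h.sum_ss j]
  have e1 : ∀ a, ss μ j x N a = m2 μ N N a a - j a ^ 2 * m2 μ x x a a := fun a => by
    have := h.P_ss hL a
    linarith
  simp_rw [e1]
  rw [Finset.sum_sub_distrib, h.trP]
  ring

/-- the sum of the squares of the eigenvalues -/
theorem j_sum_sq (h : T0Data μ m x N) (hL : LSq μ (Matrix.diagonal j) x N) {ν : ℝ}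
    (hν : ∀ a, m2 μ N N a a ≤ ν) :
    (∑ a, j a ^ 2) * (1 - ν) ≤ (m + 1) * (1 - hh μ (Matrix.diagonal j) x N) := by
  rw [← E_q h hL, Finset.sum_mul, Finset.mul_sum]
  refine Finset.sum_le_sum fun a _ => ?_
  have h1 := h.GP a a
  rw [if_pos rfl] at h1
  have h2 : (m + 1) * (j a ^ 2 * m2 μ x x a a) = j a ^ 2 * (1 - m2 μ N N a a) := by
    linear_combination j a ^ 2 * h1
  rw [h2]
  exact mul_le_mul_of_nonneg_left (by linarith [hν a]) (sq_nonneg _)

end

end Vale.Agent.P224.R2.H662
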