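import Vale.Agent.P224.R2.H662.RG1
import Vale.Agent.P224.R2.H662.RG2
import Vale.Agent.P224.R2.H662.RG3
import Vale.Agent.P224.R2.H662.RG4
import Vale.Agent.P224.R2.H662.RG5
import Vale.Agent.P224.R2.H662.RG6
import Vale.Agent.P224.R2.H662.RG7

/-!
The rare part: the list of the instances with three radii.
-/

namespace Vale.Agent.P224.R2.H662

open MeasureTheory Module Function Set Vale.Agent.P224.R2.H470 Vale.Agent.P224.R2.H728
open scoped RealInnerProductSpace Topology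

set_option linter.unusedSectionVars false

/-- the list of the instances -/
def rjs : List RJ :=
  (rg1 ++ (rg2 ++ (rg3 ++ (rg4 ++ (rg5 ++ (rg6 ++ rg7)))))).map RG.toRJ

lemma mem_rjs {r : RJ} (hr : r ∈ rjs) : ∃ s : RG, s.ok = true ∧ s.toRJ = r := by
  unfold rjs at hr
  rw [List.mem_map] at hr
  obtain ⟨s, hs, rfl⟩ := hr
  refine ⟨s, ?_, rfl⟩
  simp only [List.mem_append] at hs
  rcases hs with hs | hs | hs | hs | hs | hs | hs
  · exact List.all_eq_true.1 rg1_ok s hs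
  · exact List.all_eq_true.1 rg2_ok s hs
  · exact List.all_eq_true.1 rg3_ok s hs
  · exact List.all_eq_true.1 rg4_ok s hs
  · exact List.all_eq_true.1 rg5_ok s hs
  · exact List.all_eq_true.1 rg6_ok s hs
  · exact List.all_eq_true.1 rg7_ok s hs

section

variable {X : Type*} {E : Type*} [NormedAddCommGroup E] [InnerProductSpace ℝ E]
  [FiniteDimensional ℝ E] [TopologicalSpace X] [MeasurableSpace X] [CompactSpace X] [BorelSpace X]
  {μ : Measure X} {m : ℕ} {p n : X → E} {ι : Type*} [Fintype ι] [DecidableEq ι]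

/-- **all instances** -/
theorem rare_all2 {r : RJ} (hr : r ∈ rjs) (h : OneP μ m p n) (b : OrthonormalBasis ι ℝ E)
    {j : ι → ℝ} (hT : T0Data μ m (cob b p) (cob b n))
    (hL : LSq μ (Matrix.diagonal j) (cob b p) (cob b n)) {ν : ℝ} (hν0 : 0 < ν)
    (hν : ∀ a, m2 μ (cob b n) (cob b n) a a ≤ ν) (h1 : ν ≤ r.nu)
    (hc : ν ^ 3 ≤ r.cf * hh μ (Matrix.diagonal j) (cob b p) (cob b n)) :
    ∫ x, max (ad b j p n x - (r.A0 : ℝ)) 0 ^ 2 ∂μ
      ≤ ((r.e : ℝ) * hh μ (Matrix.diagonal j) (cob b p) (cob b n)) ^ 2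
    ∧ ∫ x, ad b j p n x ^ 2 ∂μ
      ≤ (r.A : ℝ) * hh μ (Matrix.diagonal j) (cob b p) (cob b n)
    ∧ ∫ x, qd b j p x * ad b j p n x ∂μ
      ≤ (r.Q : ℝ) * hh μ (Matrix.diagonal j) (cob b p) (cob b n) := by
  obtain ⟨s, hs, rfl⟩ := mem_rjs hr
  exact RG.sound hs h b hT hL hν0 hν h1 hc

end

end Vale.Agent.P224.R2.H662
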