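import Vale.Agent.P224.R2.H662.RareC

/-!
The rare part: absolute numeric instances.
-/

namespace Vale.Agent.P224.R2.H662

open MeasureTheory Module Function Set Vale.Agent.P224.R2.H470 Vale.Agent.P224.R2.H728
open scoped RealInnerProductSpace Topology

set_option linter.unusedSectionVars false

lemma exp_neg_le_pow {x : ℝ} (n : ℕ) (h : n ≤ x) : Real.exp (-x) ≤ (500 / 1359) ^ n := by
  have h1 : Real.exp (-x) ≤ Real.exp (-(n : ℝ)) := Real.exp_le_exp.2 (by linarith)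
  refine h1.trans ?_
  have h2 : Real.exp (-(n : ℝ)) = (Real.exp 1 ^ n)⁻¹ := by
    rw [← Real.exp_nat_mul, ← Real.exp_neg, mul_one]
  rw [h2]
  have h3 : (500 / 1359 : ℝ) ^ n = ((1359 / 500) ^ n)⁻¹ := by
    rw [← inv_pow]
    norm_num
  rw [h3]
  have h4 := Real.exp_one_gt_d9
  exact inv_anti₀ (by positivity) (pow_le_pow_left₀ (by norm_num) (by linarith) n)

section

variable {X : Type*} {E : Type*} [NormedAddCommGroup E] [InnerProductSpace ℝ E]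
  [FiniteDimensional ℝ E] [TopologicalSpace X] [MeasurableSpace X] [CompactSpace X] [BorelSpace X]
  {μ : Measure X} {m : ℕ} {p n : X → E} {ι : Type*} [Fintype ι] [DecidableEq ι]

/-- numeric form of the three tails -/
theorem rare_num (h : OneP μ m p n) (b : OrthonormalBasis ι ℝ E) {j : ι → ℝ}
    (hT : T0Data μ m (cob b p) (cob b n))
    (hL : LSq μ (Matrix.diagonal j) (cob b p) (cob b n)) {ν l R δ : ℝ} (k : ℕ) {A B : ℝ}
    (hν0 : 0 ≤ ν)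
    (hν : ∀ a, m2 μ (cob b n) (cob b n) a a ≤ ν) (hl : 1 ≤ l) (hlν : (2 * l + 1) * ν < 1)
    (hR : 0 < R) (hδ : 0 < δ) (hs : 1 / (1 - (2 * l + 1) * ν) + δ ≤ R ^ 2)
    (hk : (k : ℝ) ≤ l * δ + 2)
    (hA : (1 + 4 * (1 + R) ^ 2) / (δ * R ^ 2 * l ^ 2) / l * (500 / 1359) ^ (k + 1) ≤ A)
    (hB : (1 + (1 + R) ^ 2) * (1 + R) / (δ * R * l) / l * (500 / 1359) ^ k ≤ B) :
    ∫ x, max (ad b j p n x - (1 + R) ^ 2) 0 ^ 2 ∂μ ≤ A
    ∧ ∫ x, ad b j p n x ^ 2 ∂μ ≤ (1 + R) ^ 2 * hh μ (Matrix.diagonal j) (cob b p) (cob b n) + B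
    ∧ ∫ x, qd b j p x * ad b j p n x ∂μ
      ≤ R ^ 2 * hh μ (Matrix.diagonal j) (cob b p) (cob b n) + B := by
  obtain ⟨r1, r2, r3⟩ := rareR_le h b hT hL hν0 hν hl hlν hR hδ hs
  have l0 : 0 < l := by linarith
  have e1 : Real.exp (-(l * δ) - 3) ≤ (500 / 1359) ^ (k + 1) := by
    have : -(l * δ) - 3 = -(l * δ + 3) := by ring
    rw [this]
    exact exp_neg_le_pow (k + 1) (by push_cast; linarith)
  have e2 : Real.exp (-(l * δ) - 2) ≤ (500 / 1359) ^ k := by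
    have : -(l * δ) - 2 = -(l * δ + 2) := by ring
    rw [this]
    exact exp_neg_le_pow k hk
  have f1 : (1 + 4 * (1 + R) ^ 2) / (δ * R ^ 2 * l ^ 2) / l * Real.exp (-(l * δ) - 3) ≤ A :=
    (mul_le_mul_of_nonneg_left e1 (by positivity)).trans hA
  have f2 : (1 + (1 + R) ^ 2) * (1 + R) / (δ * R * l) / l * Real.exp (-(l * δ) - 2) ≤ B :=
    (mul_le_mul_of_nonneg_left e2 (by positivity)).trans hB
  exact ⟨r1.trans f1, by linarith, by linarith⟩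

/-- `ν ≤ 13/200`, `R = 3`: `A0 = 16`, `R² = 9` -/
theorem rare_13_200_R3 (h : OneP μ m p n) (b : OrthonormalBasis ι ℝ E) {j : ι → ℝ}
    (hT : T0Data μ m (cob b p) (cob b n))
    (hL : LSq μ (Matrix.diagonal j) (cob b p) (cob b n))
    (hν : ∀ a, m2 μ (cob b n) (cob b n) a a ≤ 13 / 200) :
    ∫ x, max (ad b j p n x - 16) 0 ^ 2 ∂μ ≤ 99 / 10 ^ 17
    ∧ ∫ x, ad b j p n x ^ 2 ∂μ
      ≤ 16 * hh μ (Matrix.diagonal j) (cob b p) (cob b n) + 43 / 10 ^ 15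
    ∧ ∫ x, qd b j p x * ad b j p n x ∂μ
      ≤ 9 * hh μ (Matrix.diagonal j) (cob b p) (cob b n) + 43 / 10 ^ 15 := by
  have r := rare_num h b hT hL (ν := 13 / 200) (l := 5) (R := 3) (δ := 5491 / 1000)
    29 (A := 99 / 10 ^ 17) (B := 43 / 10 ^ 15) (by norm_num) hν (by norm_num) (by norm_num)
    (by norm_num) (by norm_num) (by norm_num) (by norm_num) (by norm_num) (by norm_num)
  norm_num at r ⊢
  exact r

/-- `ν ≤ 9/100`, `R = 3`: `A0 = 16`, `R² = 9` -/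
theorem rare_9_100_R3 (h : OneP μ m p n) (b : OrthonormalBasis ι ℝ E) {j : ι → ℝ}
    (hT : T0Data μ m (cob b p) (cob b n))
    (hL : LSq μ (Matrix.diagonal j) (cob b p) (cob b n))
    (hν : ∀ a, m2 μ (cob b n) (cob b n) a a ≤ 9 / 100) :
    ∫ x, max (ad b j p n x - 16) 0 ^ 2 ∂μ ≤ 24 / 10 ^ 12
    ∧ ∫ x, ad b j p n x ^ 2 ∂μ
      ≤ 16 * hh μ (Matrix.diagonal j) (cob b p) (cob b n) + 71 / 10 ^ 11
    ∧ ∫ x, qd b j p x * ad b j p n x ∂μ
      ≤ 9 * hh μ (Matrix.diagonal j) (cob b p) (cob b n) + 71 / 10 ^ 11 := by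
  have r := rare_num h b hT hL (ν := 9 / 100) (l := 7 / 2) (R := 3) (δ := 1357 / 250)
    20 (A := 24 / 10 ^ 12) (B := 71 / 10 ^ 11) (by norm_num) hν (by norm_num) (by norm_num)
    (by norm_num) (by norm_num) (by norm_num) (by norm_num) (by norm_num) (by norm_num)
  norm_num at r ⊢
  exact r

/-- `ν ≤ 3/25`, `R = 3`: `A0 = 16`, `R² = 9` -/
theorem rare_3_25_R3 (h : OneP μ m p n) (b : OrthonormalBasis ι ℝ E) {j : ι → ℝ}
    (hT : T0Data μ m (cob b p) (cob b n))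
    (hL : LSq μ (Matrix.diagonal j) (cob b p) (cob b n))
    (hν : ∀ a, m2 μ (cob b n) (cob b n) a a ≤ 3 / 25) :
    ∫ x, max (ad b j p n x - 16) 0 ^ 2 ∂μ ≤ 91 / 10 ^ 10
    ∧ ∫ x, ad b j p n x ^ 2 ∂μ
      ≤ 16 * hh μ (Matrix.diagonal j) (cob b p) (cob b n) + 21 / 10 ^ 8
    ∧ ∫ x, qd b j p x * ad b j p n x ∂μ
      ≤ 9 * hh μ (Matrix.diagonal j) (cob b p) (cob b n) + 21 / 10 ^ 8 := by
  have r := rare_num h b hT hL (ν := 3 / 25) (l := 13 / 5) (R := 3) (δ := 5093 / 1000)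
    15 (A := 91 / 10 ^ 10) (B := 21 / 10 ^ 8) (by norm_num) hν (by norm_num) (by norm_num)
    (by norm_num) (by norm_num) (by norm_num) (by norm_num) (by norm_num) (by norm_num)
  norm_num at r ⊢
  exact r

/-- `ν ≤ 13/200`, `R = 5/2`: `A0 = 49/4`, `R² = 25/4` -/
theorem rare_13_200_R5_2 (h : OneP μ m p n) (b : OrthonormalBasis ι ℝ E) {j : ι → ℝ}
    (hT : T0Data μ m (cob b p) (cob b n))
    (hL : LSq μ (Matrix.diagonal j) (cob b p) (cob b n))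
    (hν : ∀ a, m2 μ (cob b n) (cob b n) a a ≤ 13 / 200) :
    ∫ x, max (ad b j p n x - 49 / 4) 0 ^ 2 ∂μ ≤ 39 / 10 ^ 11
    ∧ ∫ x, ad b j p n x ^ 2 ∂μ
      ≤ (49 / 4) * hh μ (Matrix.diagonal j) (cob b p) (cob b n) + 12 / 10 ^ 9
    ∧ ∫ x, qd b j p x * ad b j p n x ∂μ
      ≤ (25 / 4) * hh μ (Matrix.diagonal j) (cob b p) (cob b n) + 12 / 10 ^ 9 := by
  have r := rare_num h b hT hL (ν := 13 / 200) (l := 23 / 5) (R := 5 / 2) (δ := 1641 / 500)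
    17 (A := 39 / 10 ^ 11) (B := 12 / 10 ^ 9) (by norm_num) hν (by norm_num) (by norm_num)
    (by norm_num) (by norm_num) (by norm_num) (by norm_num) (by norm_num) (by norm_num)
  norm_num at r ⊢
  exact r

/-- `ν ≤ 1/20`, `R = 5/2`: `A0 = 49/4`, `R² = 25/4` -/
theorem rare_1_20_R5_2 (h : OneP μ m p n) (b : OrthonormalBasis ι ℝ E) {j : ι → ℝ}
    (hT : T0Data μ m (cob b p) (cob b n))
    (hL : LSq μ (Matrix.diagonal j) (cob b p) (cob b n))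
    (hν : ∀ a, m2 μ (cob b n) (cob b n) a a ≤ 1 / 20) :
    ∫ x, max (ad b j p n x - 49 / 4) 0 ^ 2 ∂μ ≤ 11 / 10 ^ 13
    ∧ ∫ x, ad b j p n x ^ 2 ∂μ
      ≤ (49 / 4) * hh μ (Matrix.diagonal j) (cob b p) (cob b n) + 43 / 10 ^ 12
    ∧ ∫ x, qd b j p x * ad b j p n x ∂μ
      ≤ (25 / 4) * hh μ (Matrix.diagonal j) (cob b p) (cob b n) + 43 / 10 ^ 12 := by
  have r := rare_num h b hT hL (ν := 1 / 20) (l := 123 / 20) (R := 5 / 2) (δ := 408 / 125)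
    22 (A := 11 / 10 ^ 13) (B := 43 / 10 ^ 12) (by norm_num) hν (by norm_num) (by norm_num)
    (by norm_num) (by norm_num) (by norm_num) (by norm_num) (by norm_num) (by norm_num)
  norm_num at r ⊢
  exact r

/-- `ν ≤ 1/20`, `R = 11/5`: `A0 = 256/25`, `R² = 121/25` -/
theorem rare_1_20_R11_5 (h : OneP μ m p n) (b : OrthonormalBasis ι ℝ E) {j : ι → ℝ}
    (hT : T0Data μ m (cob b p) (cob b n))
    (hL : LSq μ (Matrix.diagonal j) (cob b p) (cob b n))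
    (hν : ∀ a, m2 μ (cob b n) (cob b n) a a ≤ 1 / 20) :
    ∫ x, max (ad b j p n x - 256 / 25) 0 ^ 2 ∂μ ≤ 27 / 10 ^ 10
    ∧ ∫ x, ad b j p n x ^ 2 ∂μ
      ≤ (256 / 25) * hh μ (Matrix.diagonal j) (cob b p) (cob b n) + 73 / 10 ^ 9
    ∧ ∫ x, qd b j p x * ad b j p n x ∂μ
      ≤ (121 / 25) * hh μ (Matrix.diagonal j) (cob b p) (cob b n) + 73 / 10 ^ 9 := by
  have r := rare_num h b hT hL (ν := 1 / 20) (l := 107 / 20) (R := 11 / 5) (δ := 243 / 100)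
    15 (A := 27 / 10 ^ 10) (B := 73 / 10 ^ 9) (by norm_num) hν (by norm_num) (by norm_num)
    (by norm_num) (by norm_num) (by norm_num) (by norm_num) (by norm_num) (by norm_num)
  norm_num at r ⊢
  exact r

/-- `ν ≤ 1/25`, `R = 11/5`: `A0 = 256/25`, `R² = 121/25` -/
theorem rare_1_25_R11_5 (h : OneP μ m p n) (b : OrthonormalBasis ι ℝ E) {j : ι → ℝ}
    (hT : T0Data μ m (cob b p) (cob b n))
    (hL : LSq μ (Matrix.diagonal j) (cob b p) (cob b n))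
    (hν : ∀ a, m2 μ (cob b n) (cob b n) a a ≤ 1 / 25) :
    ∫ x, max (ad b j p n x - 256 / 25) 0 ^ 2 ∂μ ≤ 58 / 10 ^ 12
    ∧ ∫ x, ad b j p n x ^ 2 ∂μ
      ≤ (256 / 25) * hh μ (Matrix.diagonal j) (cob b p) (cob b n) + 22 / 10 ^ 10
    ∧ ∫ x, qd b j p x * ad b j p n x ∂μ
      ≤ (121 / 25) * hh μ (Matrix.diagonal j) (cob b p) (cob b n) + 22 / 10 ^ 10 := by
  have r := rare_num h b hT hL (ν := 1 / 25) (l := 29 / 4) (R := 11 / 5) (δ := 276 / 125)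
    18 (A := 58 / 10 ^ 12) (B := 22 / 10 ^ 10) (by norm_num) hν (by norm_num) (by norm_num)
    (by norm_num) (by norm_num) (by norm_num) (by norm_num) (by norm_num) (by norm_num)
  norm_num at r ⊢
  exact r

/-- `ν ≤ 7/200`, `R = 11/5`: `A0 = 256/25`, `R² = 121/25` -/
theorem rare_7_200_R11_5 (h : OneP μ m p n) (b : OrthonormalBasis ι ℝ E) {j : ι → ℝ}
    (hT : T0Data μ m (cob b p) (cob b n))
    (hL : LSq μ (Matrix.diagonal j) (cob b p) (cob b n))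
    (hν : ∀ a, m2 μ (cob b n) (cob b n) a a ≤ 7 / 200) :
    ∫ x, max (ad b j p n x - 256 / 25) 0 ^ 2 ∂μ ≤ 21 / 10 ^ 13
    ∧ ∫ x, ad b j p n x ^ 2 ∂μ
      ≤ (256 / 25) * hh μ (Matrix.diagonal j) (cob b p) (cob b n) + 83 / 10 ^ 12
    ∧ ∫ x, qd b j p x * ad b j p n x ∂μ
      ≤ (121 / 25) * hh μ (Matrix.diagonal j) (cob b p) (cob b n) + 83 / 10 ^ 12 := by
  have r := rare_num h b hT hL (ν := 7 / 200) (l := 79 / 10) (R := 11 / 5) (δ := 603 / 250)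
    21 (A := 21 / 10 ^ 13) (B := 83 / 10 ^ 12) (by norm_num) hν (by norm_num) (by norm_num)
    (by norm_num) (by norm_num) (by norm_num) (by norm_num) (by norm_num) (by norm_num)
  norm_num at r ⊢
  exact r

/-- `ν ≤ 3/100`, `R = 2`: `A0 = 9`, `R² = 4` -/
theorem rare_3_100_R2 (h : OneP μ m p n) (b : OrthonormalBasis ι ℝ E) {j : ι → ℝ}
    (hT : T0Data μ m (cob b p) (cob b n))
    (hL : LSq μ (Matrix.diagonal j) (cob b p) (cob b n))
    (hν : ∀ a, m2 μ (cob b n) (cob b n) a a ≤ 3 / 100) :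
    ∫ x, max (ad b j p n x - 9) 0 ^ 2 ∂μ ≤ 12 / 10 ^ 11
    ∧ ∫ x, ad b j p n x ^ 2 ∂μ
      ≤ 9 * hh μ (Matrix.diagonal j) (cob b p) (cob b n) + 46 / 10 ^ 10
    ∧ ∫ x, qd b j p x * ad b j p n x ∂μ
      ≤ 4 * hh μ (Matrix.diagonal j) (cob b p) (cob b n) + 46 / 10 ^ 10 := by
  have r := rare_num h b hT hL (ν := 3 / 100) (l := 9) (R := 2) (δ := 837 / 500)
    17 (A := 12 / 10 ^ 11) (B := 46 / 10 ^ 10) (by norm_num) hν (by norm_num) (by norm_num)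
    (by norm_num) (by norm_num) (by norm_num) (by norm_num) (by norm_num) (by norm_num)
  norm_num at r ⊢
  exact r

/-- `ν ≤ 1/50`, `R = 2`: `A0 = 9`, `R² = 4` -/
theorem rare_1_50_R2 (h : OneP μ m p n) (b : OrthonormalBasis ι ℝ E) {j : ι → ℝ}
    (hT : T0Data μ m (cob b p) (cob b n))
    (hL : LSq μ (Matrix.diagonal j) (cob b p) (cob b n))
    (hν : ∀ a, m2 μ (cob b n) (cob b n) a a ≤ 1 / 50) :
    ∫ x, max (ad b j p n x - 9) 0 ^ 2 ∂μ ≤ 14 / 10 ^ 15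
    ∧ ∫ x, ad b j p n x ^ 2 ∂μ
      ≤ 9 * hh μ (Matrix.diagonal j) (cob b p) (cob b n) + 72 / 10 ^ 14
    ∧ ∫ x, qd b j p x * ad b j p n x ∂μ
      ≤ 4 * hh μ (Matrix.diagonal j) (cob b p) (cob b n) + 72 / 10 ^ 14 := by
  have r := rare_num h b hT hL (ν := 1 / 50) (l := 49 / 4) (R := 2) (δ := 1959 / 1000)
    25 (A := 14 / 10 ^ 15) (B := 72 / 10 ^ 14) (by norm_num) hν (by norm_num) (by norm_num)
    (by norm_num) (by norm_num) (by norm_num) (by norm_num) (by norm_num) (by norm_num)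
  norm_num at r ⊢
  exact r

/-- `ν ≤ 1/100`, `R = 17/10`: `A0 = 729/100`, `R² = 289/100` -/
theorem rare_1_100_R17_10 (h : OneP μ m p n) (b : OrthonormalBasis ι ℝ E) {j : ι → ℝ}
    (hT : T0Data μ m (cob b p) (cob b n))
    (hL : LSq μ (Matrix.diagonal j) (cob b p) (cob b n))
    (hν : ∀ a, m2 μ (cob b n) (cob b n) a a ≤ 1 / 100) :
    ∫ x, max (ad b j p n x - 729 / 100) 0 ^ 2 ∂μ ≤ 44 / 10 ^ 16
    ∧ ∫ x, ad b j p n x ^ 2 ∂μ
      ≤ (729 / 100) * hh μ (Matrix.diagonal j) (cob b p) (cob b n) + 35 / 10 ^ 14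
    ∧ ∫ x, qd b j p x * ad b j p n x ∂μ
      ≤ (289 / 100) * hh μ (Matrix.diagonal j) (cob b p) (cob b n) + 35 / 10 ^ 14 := by
  have r := rare_num h b hT hL (ν := 1 / 100) (l := 23) (R := 17 / 10) (δ := 1003 / 1000)
    25 (A := 44 / 10 ^ 16) (B := 35 / 10 ^ 14) (by norm_num) hν (by norm_num) (by norm_num)
    (by norm_num) (by norm_num) (by norm_num) (by norm_num) (by norm_num) (by norm_num)
  norm_num at r ⊢
  exact r

/-- `ν ≤ 1/100`, `R = 2`: `A0 = 9`, `R² = 4` -/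
theorem rare_1_100_R2 (h : OneP μ m p n) (b : OrthonormalBasis ι ℝ E) {j : ι → ℝ}
    (hT : T0Data μ m (cob b p) (cob b n))
    (hL : LSq μ (Matrix.diagonal j) (cob b p) (cob b n))
    (hν : ∀ a, m2 μ (cob b n) (cob b n) a a ≤ 1 / 100) :
    ∫ x, max (ad b j p n x - 9) 0 ^ 2 ∂μ ≤ 83 / 10 ^ 28
    ∧ ∫ x, ad b j p n x ^ 2 ∂μ
      ≤ 9 * hh μ (Matrix.diagonal j) (cob b p) (cob b n) + 90 / 10 ^ 26
    ∧ ∫ x, qd b j p x * ad b j p n x ∂μ
      ≤ 4 * hh μ (Matrix.diagonal j) (cob b p) (cob b n) + 90 / 10 ^ 26 := by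
  have r := rare_num h b hT hL (ν := 1 / 100) (l := 49 / 2) (R := 2) (δ := 2)
    51 (A := 83 / 10 ^ 28) (B := 90 / 10 ^ 26) (by norm_num) hν (by norm_num) (by norm_num)
    (by norm_num) (by norm_num) (by norm_num) (by norm_num) (by norm_num) (by norm_num)
  norm_num at r ⊢
  exact r

end

end Vale.Agent.P224.R2.H662
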