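import Vale.Agent.P224.R2.H662.RareD
import Vale.Agent.P224.R2.H662.RareE

/-!
The rare part: closed scale-free instances.
-/

namespace Vale.Agent.P224.R2.H662

open MeasureTheory Module Function Set Vale.Agent.P224.R2.H470 Vale.Agent.P224.R2.H728
open scoped RealInnerProductSpace Topology

set_option linter.unusedSectionVars false

lemma exp_neg_le_pow2 {x f : ℝ} (n : ℕ) (hf : 0 ≤ f) (h : n + f ≤ x) :
    Real.exp (-x) ≤ (500 / 1359) ^ n / (1 + f + f ^ 2 / 2) := by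
  have h1 := exp_neg_le_pow (x := x - f) n (by linarith)
  have h2 := Real.quadratic_le_exp_of_nonneg hf
  rw [le_div_iff₀ (by positivity)]
  calc Real.exp (-x) * (1 + f + f ^ 2 / 2) ≤ Real.exp (-x) * Real.exp f :=
        mul_le_mul_of_nonneg_left h2 (Real.exp_pos _).le
    _ = Real.exp (-(x - f)) := by rw [← Real.exp_add]; congr 1; ring
    _ ≤ _ := h1

/-- numeric bound of a product with an exponential -/
lemma exp_fac_le {C x f B : ℝ} (n : ℕ) (hf : 0 ≤ f) (hx : x ≤ -(n + f)) (hC : 0 ≤ C)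
    (h : C * ((500 / 1359) ^ n / (1 + f + f ^ 2 / 2)) ≤ B) : C * Real.exp x ≤ B := by
  have h1 := exp_neg_le_pow2 (x := -x) n hf (by linarith)
  rw [neg_neg] at h1
  exact (mul_le_mul_of_nonneg_left h1 hC).trans h

section

variable {X : Type*} {E : Type*} [NormedAddCommGroup E] [InnerProductSpace ℝ E]
  [FiniteDimensional ℝ E] [TopologicalSpace X] [MeasurableSpace X] [CompactSpace X] [BorelSpace X]
  {μ : Measure X} {m : ℕ} {p n : X → E} {ι : Type*} [Fintype ι] [DecidableEq ι]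

/-- `ν ≤ 1/100`, `ν³ ≤ 8 h`: `R = 19/10`, `A0 = 841/100`, `R² = 361/100` -/
theorem rare_c8_nu1_100 (h : OneP μ m p n) (b : OrthonormalBasis ι ℝ E) {j : ι → ℝ}
    (hT : T0Data μ m (cob b p) (cob b n))
    (hL : LSq μ (Matrix.diagonal j) (cob b p) (cob b n)) {ν : ℝ} (hν0 : 0 < ν)
    (hν : ∀ a, m2 μ (cob b n) (cob b n) a a ≤ ν) (h1 : ν ≤ 1 / 100)
    (hc : ν ^ 3 ≤ 8 * hh μ (Matrix.diagonal j) (cob b p) (cob b n)) :
    ∫ x, max (ad b j p n x - 841 / 100) 0 ^ 2 ∂μ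
      ≤ (1 / 1000 * hh μ (Matrix.diagonal j) (cob b p) (cob b n)) ^ 2
    ∧ ∫ x, ad b j p n x ^ 2 ∂μ
      ≤ (841 / 100 + 1 / 100) * hh μ (Matrix.diagonal j) (cob b p) (cob b n)
    ∧ ∫ x, qd b j p x * ad b j p n x ∂μ
      ≤ (361 / 100 + 1 / 100) * hh μ (Matrix.diagonal j) (cob b p) (cob b n) := by
  have r := rare_closed h b hT hL (ν1 := 1 / 100) (R := 19 / 10) (c := 8) (θ := 1 / 1000)
    hν0 hν (by norm_num) h1 (by norm_num) (by norm_num) (by norm_num) (by norm_num) hc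
    ?_ ?_
  · have e1 : (1 + (19 / 10) : ℝ) ^ 2 = 841 / 100 := by norm_num
    have e2 : (19 / 10 : ℝ) ^ 2 = 361 / 100 := by norm_num
    simp only [e1, e2] at r
    exact r
  · refine exp_fac_le 42 (f := 16 / 25) (by norm_num) (by norm_num) (by norm_num) ?_
    norm_num
  · refine exp_fac_le 41 (f := 16 / 25) (by norm_num) (by norm_num) (by norm_num) ?_
    norm_num

/-- `ν ≤ 1/50`, `ν³ ≤ 8 h`: `R = 11/5`, `A0 = 256/25`, `R² = 121/25` -/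
theorem rare_c8_nu1_50 (h : OneP μ m p n) (b : OrthonormalBasis ι ℝ E) {j : ι → ℝ}
    (hT : T0Data μ m (cob b p) (cob b n))
    (hL : LSq μ (Matrix.diagonal j) (cob b p) (cob b n)) {ν : ℝ} (hν0 : 0 < ν)
    (hν : ∀ a, m2 μ (cob b n) (cob b n) a a ≤ ν) (h1 : ν ≤ 1 / 50)
    (hc : ν ^ 3 ≤ 8 * hh μ (Matrix.diagonal j) (cob b p) (cob b n)) :
    ∫ x, max (ad b j p n x - 256 / 25) 0 ^ 2 ∂μ
      ≤ (1 / 1000 * hh μ (Matrix.diagonal j) (cob b p) (cob b n)) ^ 2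
    ∧ ∫ x, ad b j p n x ^ 2 ∂μ
      ≤ (256 / 25 + 1 / 100) * hh μ (Matrix.diagonal j) (cob b p) (cob b n)
    ∧ ∫ x, qd b j p x * ad b j p n x ∂μ
      ≤ (121 / 25 + 1 / 100) * hh μ (Matrix.diagonal j) (cob b p) (cob b n) := by
  have r := rare_closed h b hT hL (ν1 := 1 / 50) (R := 11 / 5) (c := 8) (θ := 1 / 1000)
    hν0 hν (by norm_num) h1 (by norm_num) (by norm_num) (by norm_num) (by norm_num) hc
    ?_ ?_
  · have e1 : (1 + (11 / 5) : ℝ) ^ 2 = 256 / 25 := by norm_num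
    have e2 : (11 / 5 : ℝ) ^ 2 = 121 / 25 := by norm_num
    simp only [e1, e2] at r
    exact r
  · refine exp_fac_le 37 (f := 17 / 25) (by norm_num) (by norm_num) (by norm_num) ?_
    norm_num
  · refine exp_fac_le 36 (f := 17 / 25) (by norm_num) (by norm_num) (by norm_num) ?_
    norm_num

/-- `ν ≤ 3/100`, `ν³ ≤ 8 h`: `R = 12/5`, `A0 = 289/25`, `R² = 144/25` -/
theorem rare_c8_nu3_100 (h : OneP μ m p n) (b : OrthonormalBasis ι ℝ E) {j : ι → ℝ}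
    (hT : T0Data μ m (cob b p) (cob b n))
    (hL : LSq μ (Matrix.diagonal j) (cob b p) (cob b n)) {ν : ℝ} (hν0 : 0 < ν)
    (hν : ∀ a, m2 μ (cob b n) (cob b n) a a ≤ ν) (h1 : ν ≤ 3 / 100)
    (hc : ν ^ 3 ≤ 8 * hh μ (Matrix.diagonal j) (cob b p) (cob b n)) :
    ∫ x, max (ad b j p n x - 289 / 25) 0 ^ 2 ∂μ
      ≤ (1 / 1000 * hh μ (Matrix.diagonal j) (cob b p) (cob b n)) ^ 2
    ∧ ∫ x, ad b j p n x ^ 2 ∂μ
      ≤ (289 / 25 + 1 / 100) * hh μ (Matrix.diagonal j) (cob b p) (cob b n)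
    ∧ ∫ x, qd b j p x * ad b j p n x ∂μ
      ≤ (144 / 25 + 1 / 100) * hh μ (Matrix.diagonal j) (cob b p) (cob b n) := by
  have r := rare_closed h b hT hL (ν1 := 3 / 100) (R := 12 / 5) (c := 8) (θ := 1 / 1000)
    hν0 hν (by norm_num) h1 (by norm_num) (by norm_num) (by norm_num) (by norm_num) hc
    ?_ ?_
  · have e1 : (1 + (12 / 5) : ℝ) ^ 2 = 289 / 25 := by norm_num
    have e2 : (12 / 5 : ℝ) ^ 2 = 144 / 25 := by norm_num
    simp only [e1, e2] at r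
    exact r
  · refine exp_fac_le 33 (f := 49 / 50) (by norm_num) (by norm_num) (by norm_num) ?_
    norm_num
  · refine exp_fac_le 32 (f := 49 / 50) (by norm_num) (by norm_num) (by norm_num) ?_
    norm_num

/-- `ν ≤ 1/20`, `ν³ ≤ 8 h`: `R = 14/5`, `A0 = 361/25`, `R² = 196/25` -/
theorem rare_c8_nu1_20 (h : OneP μ m p n) (b : OrthonormalBasis ι ℝ E) {j : ι → ℝ}
    (hT : T0Data μ m (cob b p) (cob b n))
    (hL : LSq μ (Matrix.diagonal j) (cob b p) (cob b n)) {ν : ℝ} (hν0 : 0 < ν)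
    (hν : ∀ a, m2 μ (cob b n) (cob b n) a a ≤ ν) (h1 : ν ≤ 1 / 20)
    (hc : ν ^ 3 ≤ 8 * hh μ (Matrix.diagonal j) (cob b p) (cob b n)) :
    ∫ x, max (ad b j p n x - 361 / 25) 0 ^ 2 ∂μ
      ≤ (1 / 1000 * hh μ (Matrix.diagonal j) (cob b p) (cob b n)) ^ 2
    ∧ ∫ x, ad b j p n x ^ 2 ∂μ
      ≤ (361 / 25 + 1 / 100) * hh μ (Matrix.diagonal j) (cob b p) (cob b n)
    ∧ ∫ x, qd b j p x * ad b j p n x ∂μ
      ≤ (196 / 25 + 1 / 100) * hh μ (Matrix.diagonal j) (cob b p) (cob b n) := by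
  have r := rare_closed h b hT hL (ν1 := 1 / 20) (R := 14 / 5) (c := 8) (θ := 1 / 1000)
    hν0 hν (by norm_num) h1 (by norm_num) (by norm_num) (by norm_num) (by norm_num) hc
    ?_ ?_
  · have e1 : (1 + (14 / 5) : ℝ) ^ 2 = 361 / 25 := by norm_num
    have e2 : (14 / 5 : ℝ) ^ 2 = 196 / 25 := by norm_num
    simp only [e1, e2] at r
    exact r
  · refine exp_fac_le 32 (f := 22 / 25) (by norm_num) (by norm_num) (by norm_num) ?_
    norm_num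
  · refine exp_fac_le 31 (f := 22 / 25) (by norm_num) (by norm_num) (by norm_num) ?_
    norm_num

/-- `ν ≤ 13/200`, `ν³ ≤ 8 h`: `R = 3`, `A0 = 16`, `R² = 9` -/
theorem rare_c8_nu13_200 (h : OneP μ m p n) (b : OrthonormalBasis ι ℝ E) {j : ι → ℝ}
    (hT : T0Data μ m (cob b p) (cob b n))
    (hL : LSq μ (Matrix.diagonal j) (cob b p) (cob b n)) {ν : ℝ} (hν0 : 0 < ν)
    (hν : ∀ a, m2 μ (cob b n) (cob b n) a a ≤ ν) (h1 : ν ≤ 13 / 200)
    (hc : ν ^ 3 ≤ 8 * hh μ (Matrix.diagonal j) (cob b p) (cob b n)) :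
    ∫ x, max (ad b j p n x - 16) 0 ^ 2 ∂μ
      ≤ (1 / 1000 * hh μ (Matrix.diagonal j) (cob b p) (cob b n)) ^ 2
    ∧ ∫ x, ad b j p n x ^ 2 ∂μ
      ≤ (16 + 1 / 100) * hh μ (Matrix.diagonal j) (cob b p) (cob b n)
    ∧ ∫ x, qd b j p x * ad b j p n x ∂μ
      ≤ (9 + 1 / 100) * hh μ (Matrix.diagonal j) (cob b p) (cob b n) := by
  have r := rare_closed h b hT hL (ν1 := 13 / 200) (R := 3) (c := 8) (θ := 1 / 1000)
    hν0 hν (by norm_num) h1 (by norm_num) (by norm_num) (by norm_num) (by norm_num) hc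
    ?_ ?_
  · have e1 : (1 + 3 : ℝ) ^ 2 = 16 := by norm_num
    have e2 : (3 : ℝ) ^ 2 = 9 := by norm_num
    simp only [e1, e2] at r
    exact r
  · refine exp_fac_le 30 (f := 19 / 25) (by norm_num) (by norm_num) (by norm_num) ?_
    norm_num
  · refine exp_fac_le 29 (f := 19 / 25) (by norm_num) (by norm_num) (by norm_num) ?_
    norm_num

/-- `ν ≤ 9/100`, `ν³ ≤ 8 h`: `R = 10/3`, `A0 = 169/9`, `R² = 100/9` -/
theorem rare_c8_nu9_100 (h : OneP μ m p n) (b : OrthonormalBasis ι ℝ E) {j : ι → ℝ}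
    (hT : T0Data μ m (cob b p) (cob b n))
    (hL : LSq μ (Matrix.diagonal j) (cob b p) (cob b n)) {ν : ℝ} (hν0 : 0 < ν)
    (hν : ∀ a, m2 μ (cob b n) (cob b n) a a ≤ ν) (h1 : ν ≤ 9 / 100)
    (hc : ν ^ 3 ≤ 8 * hh μ (Matrix.diagonal j) (cob b p) (cob b n)) :
    ∫ x, max (ad b j p n x - 169 / 9) 0 ^ 2 ∂μ
      ≤ (1 / 1000 * hh μ (Matrix.diagonal j) (cob b p) (cob b n)) ^ 2
    ∧ ∫ x, ad b j p n x ^ 2 ∂μ
      ≤ (169 / 9 + 1 / 100) * hh μ (Matrix.diagonal j) (cob b p) (cob b n)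
    ∧ ∫ x, qd b j p x * ad b j p n x ∂μ
      ≤ (100 / 9 + 1 / 100) * hh μ (Matrix.diagonal j) (cob b p) (cob b n) := by
  have r := rare_closed h b hT hL (ν1 := 9 / 100) (R := 10 / 3) (c := 8) (θ := 1 / 1000)
    hν0 hν (by norm_num) h1 (by norm_num) (by norm_num) (by norm_num) (by norm_num) hc
    ?_ ?_
  · have e1 : (1 + (10 / 3) : ℝ) ^ 2 = 169 / 9 := by norm_num
    have e2 : (10 / 3 : ℝ) ^ 2 = 100 / 9 := by norm_num
    simp only [e1, e2] at r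
    exact r
  · refine exp_fac_le 29 (f := 7 / 20) (by norm_num) (by norm_num) (by norm_num) ?_
    norm_num
  · refine exp_fac_le 28 (f := 7 / 20) (by norm_num) (by norm_num) (by norm_num) ?_
    norm_num

/-- `ν ≤ 1/100`, `ν³ ≤ 1/4 h`: `R = 9/5`, `A0 = 196/25`, `R² = 81/25` -/
theorem rare_c1_4_nu1_100 (h : OneP μ m p n) (b : OrthonormalBasis ι ℝ E) {j : ι → ℝ}
    (hT : T0Data μ m (cob b p) (cob b n))
    (hL : LSq μ (Matrix.diagonal j) (cob b p) (cob b n)) {ν : ℝ} (hν0 : 0 < ν)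
    (hν : ∀ a, m2 μ (cob b n) (cob b n) a a ≤ ν) (h1 : ν ≤ 1 / 100)
    (hc : ν ^ 3 ≤ 1 / 4 * hh μ (Matrix.diagonal j) (cob b p) (cob b n)) :
    ∫ x, max (ad b j p n x - 196 / 25) 0 ^ 2 ∂μ
      ≤ (1 / 1000 * hh μ (Matrix.diagonal j) (cob b p) (cob b n)) ^ 2
    ∧ ∫ x, ad b j p n x ^ 2 ∂μ
      ≤ (196 / 25 + 1 / 100) * hh μ (Matrix.diagonal j) (cob b p) (cob b n)
    ∧ ∫ x, qd b j p x * ad b j p n x ∂μ
      ≤ (81 / 25 + 1 / 100) * hh μ (Matrix.diagonal j) (cob b p) (cob b n) := by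
  have r := rare_closed h b hT hL (ν1 := 1 / 100) (R := 9 / 5) (c := 1 / 4) (θ := 1 / 1000)
    hν0 hν (by norm_num) h1 (by norm_num) (by norm_num) (by norm_num) (by norm_num) hc
    ?_ ?_
  · have e1 : (1 + (9 / 5) : ℝ) ^ 2 = 196 / 25 := by norm_num
    have e2 : (9 / 5 : ℝ) ^ 2 = 81 / 25 := by norm_num
    simp only [e1, e2] at r
    exact r
  · refine exp_fac_le 34 (f := 7 / 25) (by norm_num) (by norm_num) (by norm_num) ?_
    norm_num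
  · refine exp_fac_le 33 (f := 7 / 25) (by norm_num) (by norm_num) (by norm_num) ?_
    norm_num

/-- `ν ≤ 1/50`, `ν³ ≤ 1/4 h`: `R = 21/10`, `A0 = 961/100`, `R² = 441/100` -/
theorem rare_c1_4_nu1_50 (h : OneP μ m p n) (b : OrthonormalBasis ι ℝ E) {j : ι → ℝ}
    (hT : T0Data μ m (cob b p) (cob b n))
    (hL : LSq μ (Matrix.diagonal j) (cob b p) (cob b n)) {ν : ℝ} (hν0 : 0 < ν)
    (hν : ∀ a, m2 μ (cob b n) (cob b n) a a ≤ ν) (h1 : ν ≤ 1 / 50)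
    (hc : ν ^ 3 ≤ 1 / 4 * hh μ (Matrix.diagonal j) (cob b p) (cob b n)) :
    ∫ x, max (ad b j p n x - 961 / 100) 0 ^ 2 ∂μ
      ≤ (1 / 1000 * hh μ (Matrix.diagonal j) (cob b p) (cob b n)) ^ 2
    ∧ ∫ x, ad b j p n x ^ 2 ∂μ
      ≤ (961 / 100 + 1 / 100) * hh μ (Matrix.diagonal j) (cob b p) (cob b n)
    ∧ ∫ x, qd b j p x * ad b j p n x ∂μ
      ≤ (441 / 100 + 1 / 100) * hh μ (Matrix.diagonal j) (cob b p) (cob b n) := by
  have r := rare_closed h b hT hL (ν1 := 1 / 50) (R := 21 / 10) (c := 1 / 4) (θ := 1 / 1000)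
    hν0 hν (by norm_num) h1 (by norm_num) (by norm_num) (by norm_num) (by norm_num) hc
    ?_ ?_
  · have e1 : (1 + (21 / 10) : ℝ) ^ 2 = 961 / 100 := by norm_num
    have e2 : (21 / 10 : ℝ) ^ 2 = 441 / 100 := by norm_num
    simp only [e1, e2] at r
    exact r
  · refine exp_fac_le 32 (f := 9 / 100) (by norm_num) (by norm_num) (by norm_num) ?_
    norm_num
  · refine exp_fac_le 31 (f := 9 / 100) (by norm_num) (by norm_num) (by norm_num) ?_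
    norm_num

/-- `ν ≤ 3/100`, `ν³ ≤ 1/4 h`: `R = 9/4`, `A0 = 169/16`, `R² = 81/16` -/
theorem rare_c1_4_nu3_100 (h : OneP μ m p n) (b : OrthonormalBasis ι ℝ E) {j : ι → ℝ}
    (hT : T0Data μ m (cob b p) (cob b n))
    (hL : LSq μ (Matrix.diagonal j) (cob b p) (cob b n)) {ν : ℝ} (hν0 : 0 < ν)
    (hν : ∀ a, m2 μ (cob b n) (cob b n) a a ≤ ν) (h1 : ν ≤ 3 / 100)
    (hc : ν ^ 3 ≤ 1 / 4 * hh μ (Matrix.diagonal j) (cob b p) (cob b n)) :
    ∫ x, max (ad b j p n x - 169 / 16) 0 ^ 2 ∂μ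
      ≤ (1 / 1000 * hh μ (Matrix.diagonal j) (cob b p) (cob b n)) ^ 2
    ∧ ∫ x, ad b j p n x ^ 2 ∂μ
      ≤ (169 / 16 + 1 / 100) * hh μ (Matrix.diagonal j) (cob b p) (cob b n)
    ∧ ∫ x, qd b j p x * ad b j p n x ∂μ
      ≤ (81 / 16 + 1 / 100) * hh μ (Matrix.diagonal j) (cob b p) (cob b n) := by
  have r := rare_closed h b hT hL (ν1 := 3 / 100) (R := 9 / 4) (c := 1 / 4) (θ := 1 / 1000)
    hν0 hν (by norm_num) h1 (by norm_num) (by norm_num) (by norm_num) (by norm_num) hc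
    ?_ ?_
  · have e1 : (1 + (9 / 4) : ℝ) ^ 2 = 169 / 16 := by norm_num
    have e2 : (9 / 4 : ℝ) ^ 2 = 81 / 16 := by norm_num
    simp only [e1, e2] at r
    exact r
  · refine exp_fac_le 27 (f := 63 / 100) (by norm_num) (by norm_num) (by norm_num) ?_
    norm_num
  · refine exp_fac_le 26 (f := 63 / 100) (by norm_num) (by norm_num) (by norm_num) ?_
    norm_num

/-- `ν ≤ 1/20`, `ν³ ≤ 1/4 h`: `R = 13/5`, `A0 = 324/25`, `R² = 169/25` -/
theorem rare_c1_4_nu1_20 (h : OneP μ m p n) (b : OrthonormalBasis ι ℝ E) {j : ι → ℝ}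
    (hT : T0Data μ m (cob b p) (cob b n))
    (hL : LSq μ (Matrix.diagonal j) (cob b p) (cob b n)) {ν : ℝ} (hν0 : 0 < ν)
    (hν : ∀ a, m2 μ (cob b n) (cob b n) a a ≤ ν) (h1 : ν ≤ 1 / 20)
    (hc : ν ^ 3 ≤ 1 / 4 * hh μ (Matrix.diagonal j) (cob b p) (cob b n)) :
    ∫ x, max (ad b j p n x - 324 / 25) 0 ^ 2 ∂μ
      ≤ (1 / 1000 * hh μ (Matrix.diagonal j) (cob b p) (cob b n)) ^ 2
    ∧ ∫ x, ad b j p n x ^ 2 ∂μ
      ≤ (324 / 25 + 1 / 100) * hh μ (Matrix.diagonal j) (cob b p) (cob b n)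
    ∧ ∫ x, qd b j p x * ad b j p n x ∂μ
      ≤ (169 / 25 + 1 / 100) * hh μ (Matrix.diagonal j) (cob b p) (cob b n) := by
  have r := rare_closed h b hT hL (ν1 := 1 / 20) (R := 13 / 5) (c := 1 / 4) (θ := 1 / 1000)
    hν0 hν (by norm_num) h1 (by norm_num) (by norm_num) (by norm_num) (by norm_num) hc
    ?_ ?_
  · have e1 : (1 + (13 / 5) : ℝ) ^ 2 = 324 / 25 := by norm_num
    have e2 : (13 / 5 : ℝ) ^ 2 = 169 / 25 := by norm_num
    simp only [e1, e2] at r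
    exact r
  · refine exp_fac_le 26 (f := 13 / 25) (by norm_num) (by norm_num) (by norm_num) ?_
    norm_num
  · refine exp_fac_le 25 (f := 13 / 25) (by norm_num) (by norm_num) (by norm_num) ?_
    norm_num

/-- `ν ≤ 13/200`, `ν³ ≤ 1/4 h`: `R = 11/4`, `A0 = 225/16`, `R² = 121/16` -/
theorem rare_c1_4_nu13_200 (h : OneP μ m p n) (b : OrthonormalBasis ι ℝ E) {j : ι → ℝ}
    (hT : T0Data μ m (cob b p) (cob b n))
    (hL : LSq μ (Matrix.diagonal j) (cob b p) (cob b n)) {ν : ℝ} (hν0 : 0 < ν)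
    (hν : ∀ a, m2 μ (cob b n) (cob b n) a a ≤ ν) (h1 : ν ≤ 13 / 200)
    (hc : ν ^ 3 ≤ 1 / 4 * hh μ (Matrix.diagonal j) (cob b p) (cob b n)) :
    ∫ x, max (ad b j p n x - 225 / 16) 0 ^ 2 ∂μ
      ≤ (1 / 1000 * hh μ (Matrix.diagonal j) (cob b p) (cob b n)) ^ 2
    ∧ ∫ x, ad b j p n x ^ 2 ∂μ
      ≤ (225 / 16 + 1 / 100) * hh μ (Matrix.diagonal j) (cob b p) (cob b n)
    ∧ ∫ x, qd b j p x * ad b j p n x ∂μ
      ≤ (121 / 16 + 1 / 100) * hh μ (Matrix.diagonal j) (cob b p) (cob b n) := by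
  have r := rare_closed h b hT hL (ν1 := 13 / 200) (R := 11 / 4) (c := 1 / 4) (θ := 1 / 1000)
    hν0 hν (by norm_num) h1 (by norm_num) (by norm_num) (by norm_num) (by norm_num) hc
    ?_ ?_
  · have e1 : (1 + (11 / 4) : ℝ) ^ 2 = 225 / 16 := by norm_num
    have e2 : (11 / 4 : ℝ) ^ 2 = 121 / 16 := by norm_num
    simp only [e1, e2] at r
    exact r
  · refine exp_fac_le 24 (f := 3 / 20) (by norm_num) (by norm_num) (by norm_num) ?_
    norm_num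
  · refine exp_fac_le 23 (f := 3 / 20) (by norm_num) (by norm_num) (by norm_num) ?_
    norm_num

/-- `ν ≤ 9/100`, `ν³ ≤ 1/4 h`: `R = 3`, `A0 = 16`, `R² = 9` -/
theorem rare_c1_4_nu9_100 (h : OneP μ m p n) (b : OrthonormalBasis ι ℝ E) {j : ι → ℝ}
    (hT : T0Data μ m (cob b p) (cob b n))
    (hL : LSq μ (Matrix.diagonal j) (cob b p) (cob b n)) {ν : ℝ} (hν0 : 0 < ν)
    (hν : ∀ a, m2 μ (cob b n) (cob b n) a a ≤ ν) (h1 : ν ≤ 9 / 100)
    (hc : ν ^ 3 ≤ 1 / 4 * hh μ (Matrix.diagonal j) (cob b p) (cob b n)) :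
    ∫ x, max (ad b j p n x - 16) 0 ^ 2 ∂μ
      ≤ (1 / 1000 * hh μ (Matrix.diagonal j) (cob b p) (cob b n)) ^ 2
    ∧ ∫ x, ad b j p n x ^ 2 ∂μ
      ≤ (16 + 1 / 100) * hh μ (Matrix.diagonal j) (cob b p) (cob b n)
    ∧ ∫ x, qd b j p x * ad b j p n x ∂μ
      ≤ (9 + 1 / 100) * hh μ (Matrix.diagonal j) (cob b p) (cob b n) := by
  have r := rare_closed h b hT hL (ν1 := 9 / 100) (R := 3) (c := 1 / 4) (θ := 1 / 1000)
    hν0 hν (by norm_num) h1 (by norm_num) (by norm_num) (by norm_num) (by norm_num) hc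
    ?_ ?_
  · have e1 : (1 + 3 : ℝ) ^ 2 = 16 := by norm_num
    have e2 : (3 : ℝ) ^ 2 = 9 := by norm_num
    simp only [e1, e2] at r
    exact r
  · refine exp_fac_le 22 (f := 11 / 50) (by norm_num) (by norm_num) (by norm_num) ?_
    norm_num
  · refine exp_fac_le 21 (f := 11 / 50) (by norm_num) (by norm_num) (by norm_num) ?_
    norm_num

end

end Vale.Agent.P224.R2.H662
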