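import Vale.Agent.P224.R2.H662.SCr3
import Vale.Agent.P224.R2.H470.CrC
import Vale.Agent.P224.R2.H460.Box
import Vale.Agent.P224.R2.H728.T0q

/-!
The analytic facts of a box from the one point data in the eigenbasis.
-/

namespace Vale.Agent.P224.R2.H662

open MeasureTheory Module Function Set Filter Vale.Agent.P224.R2.H470 Vale.Agent.P224.R2.H460
open Vale.Agent.P224.R2.H728 (BM T0Data LSq hh m2 m1 uu zd ze_diag)
open scoped RealInnerProductSpace Topology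

set_option linter.unusedSectionVars false

section

variable {X : Type*} {E : Type*} [NormedAddCommGroup E] [InnerProductSpace ℝ E]
  [FiniteDimensional ℝ E] [MeasurableSpace E] [BorelSpace E]
variable [TopologicalSpace X] [MeasurableSpace X] [SecondCountableTopology X]
variable [CompactSpace X] [BorelSpace X] {μ : Measure X} [IsProbabilityMeasure μ] {m : ℕ}
  {p n : X → E} {z : X → E} {T T1 : ℝ} {ι : Type*} [Fintype ι]

/-- the first moments of the defect are antisymmetric -/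
lemma anti_of_LSq [DecidableEq ι] (b : OrthonormalBasis ι ℝ E) {j : ι → ℝ}
    (hL : LSq μ (Matrix.diagonal j) (cob b p) (cob b n)) (hzJ : ∀ x, z x = n x - dop b j (p x))
    (i k : ι) : m1f μ p b (fun x => ⟪z x, b i⟫) k = -m1f μ p b (fun x => ⟪z x, b k⟫) i := by
  have e : ∀ a c, m1f μ p b (fun x => ⟪z x, b a⟫) c
      = m2 μ (H728.ze (Matrix.diagonal j) (cob b p) (cob b n)) (cob b p) a c := by
    intro a c
    rw [ze_diag]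
    unfold m1f m2 zd cob
    refine integral_congr_ae (Eventually.of_forall fun x => ?_)
    simp only
    rw [hzJ, inner_sub_left, dop_coord]
  rw [e, e]
  exact hL i k

/-- the operator `E n ⊗ n` is at most `ν + h` -/
theorem P_op_le (h : OneP μ m p n) (hm : 1 ≤ m) (b : OrthonormalBasis ι ℝ E) {j : ι → ℝ}
    (hz : Continuous z) (hzJ : ∀ x, z x = n x - dop b j (p x))
    (ha : ∀ i k, m1f μ p b (fun x => ⟪z x, b i⟫) k = -m1f μ p b (fun x => ⟪z x, b k⟫) i)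
    {ν : ℝ} (hν : ∀ a, ∫ x, ⟪n x, b a⟫ ^ 2 ∂μ ≤ ν) (v : E) :
    ∫ x, ⟪n x, v⟫ ^ 2 ∂μ ≤ (ν + ∫ x, ‖z x‖ ^ 2 ∂μ) * ‖v‖ ^ 2 := by
  classical
  have hp := h.cp
  have hn := h.cn
  set H := ∫ x, ‖z x‖ ^ 2 ∂μ with hH
  have nH : 0 ≤ H := integral_nonneg fun x => sq_nonneg _
  set Z : ι → ι → ℝ := fun i k => ∫ x, ⟪z x, b i⟫ * ⟪z x, b k⟫ ∂μ with hZ
  -- the off-diagonal entries
  have hoff : ∀ i k, i ≠ k → |∫ x, ⟪n x, b i⟫ * ⟪n x, b k⟫ ∂μ| ≤ |Z i k| := by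
    intro i k hik
    have h2 := h.mom2 (b i) (b k)
    rw [b.inner_eq_zero hik, zero_mul] at h2
    obtain ⟨-, h4⟩ := mixed h hm b hz hzJ ha i k
    have h5 := h4 hik
    set g := ∫ x, ⟪p x, b i⟫ * ⟪p x, b k⟫ ∂μ
    have h6 : ∫ x, ⟪n x, b i⟫ * ⟪n x, b k⟫ ∂μ = -((m + 1) * g) := by linarith
    rw [hZ]
    simp only
    rw [h6, h5, abs_neg, abs_neg, abs_mul, abs_mul]
    refine mul_le_mul_of_nonneg_right ?_ (abs_nonneg g)
    rw [abs_of_nonneg (by positivity), abs_of_nonneg (by positivity)]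
    nlinarith [sq_nonneg (j i), sq_nonneg (j k)]
  have hZs : ∑ i, ∑ k, Z i k ^ 2 ≤ H ^ 2 := by
    have h1 : ∀ i k, Z i k ^ 2 ≤ (∫ x, ⟪z x, b i⟫ ^ 2 ∂μ) * ∫ x, ⟪z x, b k⟫ ^ 2 ∂μ := fun i k =>
      cs_int (μ := μ) (f := fun x => ⟪z x, b i⟫) (g := fun x => ⟪z x, b k⟫)
        (by fun_prop) (by fun_prop)
    refine (Finset.sum_le_sum fun i _ => Finset.sum_le_sum fun k _ => h1 i k).trans (le_of_eq ?_)
    rw [hH, ← sum_int_sq hz b, sq, Finset.sum_mul_sum]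
  -- the expansion
  have e1 : ∫ x, ⟪n x, v⟫ ^ 2 ∂μ
      = ∑ i, ∑ k, ⟪v, b i⟫ * ⟪v, b k⟫ * ∫ x, ⟪n x, b i⟫ * ⟪n x, b k⟫ ∂μ := by
    have e2 : (fun x => ⟪n x, v⟫ ^ 2)
        = fun x => ∑ i, ∑ k, ⟪v, b i⟫ * ⟪v, b k⟫ * (⟪n x, b i⟫ * ⟪n x, b k⟫) := by
      funext x
      rw [inner_sum_basis b, sq, Finset.sum_mul_sum]
      exact Finset.sum_congr rfl fun i _ => Finset.sum_congr rfl fun k _ => by ring
    have hi : ∀ i k, Integrable (fun x => ⟪v, b i⟫ * ⟪v, b k⟫ * (⟪n x, b i⟫ * ⟪n x, b k⟫)) μ :=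
      fun i k => int_of_cont (by fun_prop)
    rw [e2, integral_finsetSum _ fun i _ => integrable_finsetSum _ fun k _ => hi i k]
    refine Finset.sum_congr rfl fun i _ => ?_
    rw [integral_finsetSum _ fun k _ => hi i k]
    exact Finset.sum_congr rfl fun k _ => integral_const_mul _ _
  have hpt : ∀ i k, ⟪v, b i⟫ * ⟪v, b k⟫ * (∫ x, ⟪n x, b i⟫ * ⟪n x, b k⟫ ∂μ)
      ≤ (if i = k then ν * ⟪v, b i⟫ ^ 2 else 0) + |⟪v, b i⟫ * ⟪v, b k⟫| * |Z i k| := by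
    intro i k
    by_cases hik : i = k
    · subst hik
      rw [if_pos rfl]
      have e3 : ∫ x, ⟪n x, b i⟫ * ⟪n x, b i⟫ ∂μ = ∫ x, ⟪n x, b i⟫ ^ 2 ∂μ :=
        integral_congr_ae (Eventually.of_forall fun x => (sq _).symm)
      rw [e3]
      have h3 := mul_le_mul_of_nonneg_left (hν i) (mul_self_nonneg ⟪v, b i⟫)
      have h4 : 0 ≤ |⟪v, b i⟫ * ⟪v, b i⟫| * |Z i i| := by positivity
      nlinarith
    · rw [if_neg hik, zero_add]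
      have h3 := hoff i k hik
      calc ⟪v, b i⟫ * ⟪v, b k⟫ * (∫ x, ⟪n x, b i⟫ * ⟪n x, b k⟫ ∂μ)
          ≤ |⟪v, b i⟫ * ⟪v, b k⟫ * (∫ x, ⟪n x, b i⟫ * ⟪n x, b k⟫ ∂μ)| := le_abs_self _
        _ = |⟪v, b i⟫ * ⟪v, b k⟫| * |∫ x, ⟪n x, b i⟫ * ⟪n x, b k⟫ ∂μ| := abs_mul _ _
        _ ≤ _ := mul_le_mul_of_nonneg_left h3 (abs_nonneg _)
  have hv2 : ∑ i, ⟪v, b i⟫ ^ 2 = ‖v‖ ^ 2 := norm_sq_sum b v
  have hcs : ∑ i, ∑ k, |⟪v, b i⟫ * ⟪v, b k⟫| * |Z i k| ≤ ‖v‖ ^ 2 * H := by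
    have h1 := Finset.sum_mul_sq_le_sq_mul_sq (Finset.univ : Finset (ι × ι))
      (fun k => |⟪v, b k.1⟫ * ⟪v, b k.2⟫|) (fun k => |Z k.1 k.2|)
    simp only [sq_abs, Fintype.sum_prod_type] at h1
    have h2 : ∑ i, ∑ k, (⟪v, b i⟫ * ⟪v, b k⟫) ^ 2 = (‖v‖ ^ 2) ^ 2 := by
      rw [← hv2, sq (∑ i, _), Finset.sum_mul_sum]
      exact Finset.sum_congr rfl fun i _ => Finset.sum_congr rfl fun k _ => by ring
    rw [h2] at h1
    have h3 : (∑ i, ∑ k, |⟪v, b i⟫ * ⟪v, b k⟫| * |Z i k|) ^ 2 ≤ (‖v‖ ^ 2 * H) ^ 2 := by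
      rw [mul_pow]
      exact h1.trans (mul_le_mul_of_nonneg_left hZs (sq_nonneg _))
    exact abs_le_of_sq_le_sq' h3 (by positivity) |>.2
  rw [e1]
  calc ∑ i, ∑ k, ⟪v, b i⟫ * ⟪v, b k⟫ * ∫ x, ⟪n x, b i⟫ * ⟪n x, b k⟫ ∂μ
      ≤ ∑ i, ∑ k, ((if i = k then ν * ⟪v, b i⟫ ^ 2 else 0)
        + |⟪v, b i⟫ * ⟪v, b k⟫| * |Z i k|) :=
        Finset.sum_le_sum fun i _ => Finset.sum_le_sum fun k _ => hpt i k
    _ = ν * ‖v‖ ^ 2 + ∑ i, ∑ k, |⟪v, b i⟫ * ⟪v, b k⟫| * |Z i k| := by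
        simp only [Finset.sum_add_distrib, Finset.sum_ite_eq, Finset.mem_univ, if_true]
        rw [← Finset.mul_sum, hv2]
    _ ≤ ν * ‖v‖ ^ 2 + ‖v‖ ^ 2 * H := by linarith
    _ = _ := by ring

/-- the rational parameters of the data of a box -/
structure Dt where
  ν : ℚ
  hb : ℚ
  ep : ℚ
  s : ℚ
  Q : ℚ
  A : ℚ
  yy : ℚ
  rn : ℚ
  re : ℚ
  q6 : ℚ

/-- the rational conditions: the fields of the box majorise the analytic constants -/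
def Dt.ok (D : Dt) (B : Bx) : Bool :=
  let κ := D.ν / (1 - D.ν)
  decide (0 < D.ν) && decide (D.ν < 1) && decide (0 ≤ D.hb) && decide (0 ≤ D.ep) &&
  decide (0 < D.s) && decide (0 ≤ D.yy) && decide (0 ≤ D.rn) && decide (0 ≤ D.re) &&
  decide (0 ≤ D.q6) && decide (400 ≤ B.m0) && decide (0 ≤ D.Q) && decide (0 ≤ D.A) &&
  decide (κ * (B.m0 + 1) ≤ B.κ * B.m0) && decide (D.Q ≤ B.c) &&
  decide (3 * (D.A * D.hb) ≤ D.yy ^ 2) && decide (D.hb ≤ B.x0) && decide (D.yy ≤ B.x1) &&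
  decide (8 / 7 * D.A + 51 / 100 * D.hb ≤ B.x2) && decide (269 / 50 * D.A ≤ B.x3) &&
  decide (0 ≤ B.y0) && decide (D.yy ≤ B.y1) &&
  decide (8 / 7 * D.A + 51 / 100 * D.hb ≤ B.y2) && decide (269 / 50 * D.A ≤ B.y3) &&
  decide ((1 + D.s) * (16 / 7 * κ) + (1 + 1 / D.s) * (1 / (1 - D.ν) * D.ep) ≤ B.f1) &&
  decide (8 / 7 * D.Q + 5 / 6 * κ ^ 2 * D.hb ≤ B.f2) && decide (269 / 50 * D.Q ≤ B.f3) &&
  decide (D.ν + D.hb ≤ D.rn ^ 2) && decide (D.ep ≤ D.re ^ 2) &&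
  decide (36 ≤ D.q6 ^ 2 * (B.m0 + 1)) &&
  decide (16 / 7 + (7 / 2 + 4 / (B.m0 + 2)) * D.ep + (D.q6 + 4 * D.rn) * D.re ≤ B.g1) &&
  decide (103 / 5 ≤ B.g2) && decide (0 ≤ B.g3) && decide (0 ≤ B.κ) && decide (B.Ts ≤ 1 / 4)

/-- the real content -/
structure Dt.Ok (D : Dt) (B : Bx) : Prop where
  ν0 : (0 : ℝ) < D.ν
  ν1 : (D.ν : ℝ) < 1
  hb : (0 : ℝ) ≤ D.hb
  ep : (0 : ℝ) ≤ D.ep
  s : (0 : ℝ) < D.s
  yy : (0 : ℝ) ≤ D.yy
  rn : (0 : ℝ) ≤ D.rn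
  re : (0 : ℝ) ≤ D.re
  q6 : (0 : ℝ) ≤ D.q6
  m0 : (400 : ℝ) ≤ B.m0
  Q0 : (0 : ℝ) ≤ D.Q
  A0 : (0 : ℝ) ≤ D.A
  κ : (D.ν : ℝ) / (1 - D.ν) * (B.m0 + 1) ≤ B.κ * B.m0
  Q : (D.Q : ℝ) ≤ B.c
  y : 3 * ((D.A : ℝ) * D.hb) ≤ D.yy ^ 2
  x0 : (D.hb : ℝ) ≤ B.x0
  x1 : (D.yy : ℝ) ≤ B.x1
  x2 : 8 / 7 * (D.A : ℝ) + 51 / 100 * D.hb ≤ B.x2
  x3 : 269 / 50 * (D.A : ℝ) ≤ B.x3
  y0 : (0 : ℝ) ≤ B.y0
  y1 : (D.yy : ℝ) ≤ B.y1
  y2 : 8 / 7 * (D.A : ℝ) + 51 / 100 * D.hb ≤ B.y2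
  y3 : 269 / 50 * (D.A : ℝ) ≤ B.y3
  f1 : (1 + (D.s : ℝ)) * (16 / 7 * (D.ν / (1 - D.ν))) + (1 + 1 / (D.s : ℝ)) * (1 / (1 - D.ν) * D.ep)
    ≤ B.f1
  f2 : 8 / 7 * (D.Q : ℝ) + 5 / 6 * (D.ν / (1 - D.ν)) ^ 2 * D.hb ≤ B.f2
  f3 : 269 / 50 * (D.Q : ℝ) ≤ B.f3
  nn : (D.ν : ℝ) + D.hb ≤ D.rn ^ 2
  ee : (D.ep : ℝ) ≤ D.re ^ 2
  qq : (36 : ℝ) ≤ D.q6 ^ 2 * (B.m0 + 1)
  g1 : (16 : ℝ) / 7 + (7 / 2 + 4 / ((B.m0 : ℝ) + 2)) * D.ep + (D.q6 + 4 * D.rn) * D.re ≤ B.g1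
  g2 : (103 : ℝ) / 5 ≤ B.g2
  g3 : (0 : ℝ) ≤ B.g3
  κ0 : (0 : ℝ) ≤ B.κ
  Ts : (B.Ts : ℝ) ≤ 1 / 4

theorem Dt.ok_real {D : Dt} {B : Bx} (h : D.ok B = true) : D.Ok B := by
  unfold Dt.ok at h
  simp only [Bool.and_eq_true, decide_eq_true_eq] at h
  obtain ⟨⟨⟨⟨⟨⟨⟨⟨⟨⟨⟨⟨⟨⟨⟨⟨⟨⟨⟨⟨⟨⟨⟨⟨⟨⟨⟨⟨⟨⟨⟨⟨⟨h1, h2⟩, h3⟩, h4⟩, h5⟩, h6⟩, h7⟩, h8⟩, h9⟩, h10⟩,
    h11⟩, h12⟩, h13⟩, h14⟩, h15⟩, h16⟩, h17⟩, h18⟩, h19⟩, h20⟩, h21⟩, h22⟩, h23⟩, h24⟩, h25⟩,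
    h26⟩, h27⟩, h28⟩, h29⟩, h30⟩, h31⟩, h32⟩, h33⟩, h34⟩ := h
  refine ⟨by exact_mod_cast h1, by exact_mod_cast h2, by exact_mod_cast h3, by exact_mod_cast h4,
    by exact_mod_cast h5, by exact_mod_cast h6, by exact_mod_cast h7, by exact_mod_cast h8,
    by exact_mod_cast h9, by exact_mod_cast h10, by exact_mod_cast h11, by exact_mod_cast h12,
    by exact_mod_cast h13, by exact_mod_cast h14, by exact_mod_cast h15, by exact_mod_cast h16,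
    by exact_mod_cast h17, ?_, ?_, by exact_mod_cast h20, by exact_mod_cast h21, ?_, ?_, ?_, ?_,
    ?_, by exact_mod_cast h27, by exact_mod_cast h28, by exact_mod_cast h29, ?_, ?_,
    by exact_mod_cast h32, by exact_mod_cast h33, ?_⟩
  · have := (Rat.cast_le (K := ℝ)).2 h18
    push_cast at this
    exact this
  · have := (Rat.cast_le (K := ℝ)).2 h19
    push_cast at this
    exact this
  · have := (Rat.cast_le (K := ℝ)).2 h22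
    push_cast at this
    exact this
  · have := (Rat.cast_le (K := ℝ)).2 h23
    push_cast at this
    exact this
  · have := (Rat.cast_le (K := ℝ)).2 h24
    push_cast at this
    exact this
  · have := (Rat.cast_le (K := ℝ)).2 h25
    push_cast at this
    exact this
  · have := (Rat.cast_le (K := ℝ)).2 h26
    push_cast at this
    exact this
  · have := (Rat.cast_le (K := ℝ)).2 h30
    push_cast at this
    exact this
  · have := (Rat.cast_le (K := ℝ)).2 h31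
    push_cast at this
    exact this
  · have := (Rat.cast_le (K := ℝ)).2 h34
    push_cast at this
    exact this

/-- the scalar comparison of the normal part -/
theorem Dt.Ok.normal {D : Dt} {B : Bx} (O : D.Ok B) {H T : ℝ} (hH : 0 < H) (hb : H ≤ D.hb)
    (hT : 0 < T) :
    H + ((D.yy : ℝ) * T + (8 / 7 * D.A + 51 / 100 * H) * T ^ 2 + 269 / 50 * D.A * T ^ 3)
      + 2 * √((T * ((1 + (D.s : ℝ)) * (16 / 7 * (D.ν / (1 - D.ν)))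
          + (1 + 1 / (D.s : ℝ)) * (1 / (1 - D.ν) * D.ep)) + 8 / 7 * D.Q * T ^ 2
        + 269 / 50 * D.Q * T ^ 3 + 5 / 6 * (D.ν / (1 - D.ν)) ^ 2 * T ^ 2 * H)
        * ((D.yy : ℝ) * T + (8 / 7 * D.A + 51 / 100 * H) * T ^ 2 + 269 / 50 * D.A * T ^ 3))
      ≤ B.chR T + 2 * √(B.ffR T * B.yyR T) := by
  have t2 : 0 ≤ T ^ 2 := sq_nonneg T
  have t3 : 0 ≤ T ^ 3 := by positivity
  have t0 := hT.le
  have n1 := O.yy
  have n2 := O.A0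
  have n3 := O.s
  have n4 := O.ep
  have n5 := O.Q0
  have h1ν : (0 : ℝ) < 1 - D.ν := by linarith [O.ν1]
  set k : ℝ := (D.ν : ℝ) / (1 - D.ν) with hk
  have nk : 0 ≤ k := div_nonneg O.ν0.le h1ν.le
  set L : ℝ := 1 / (1 - (D.ν : ℝ)) with hL
  have nL : 0 ≤ L := by positivity
  have hY : (D.yy : ℝ) * T + (8 / 7 * D.A + 51 / 100 * H) * T ^ 2 + 269 / 50 * D.A * T ^ 3
      ≤ B.yyR T := by
    have e : B.yyR T = B.y0 + B.y1 * T + B.y2 * T ^ 2 + B.y3 * T ^ 3 := by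
      unfold Bx.yyR
      ring
    have a1 := mul_le_mul_of_nonneg_right O.y1 t0
    have a2 : (8 / 7 * (D.A : ℝ) + 51 / 100 * H) * T ^ 2 ≤ B.y2 * T ^ 2 :=
      mul_le_mul_of_nonneg_right (by linarith [O.y2]) t2
    have a3 := mul_le_mul_of_nonneg_right O.y3 t3
    have a0 := O.y0
    rw [e]
    linarith
  have hX : H + ((D.yy : ℝ) * T + (8 / 7 * D.A + 51 / 100 * H) * T ^ 2
      + 269 / 50 * D.A * T ^ 3) ≤ B.chR T := by
    have e : B.chR T = B.x0 + B.x1 * T + B.x2 * T ^ 2 + B.x3 * T ^ 3 := by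
      unfold Bx.chR
      ring
    have a1 := mul_le_mul_of_nonneg_right O.x1 t0
    have a2 : (8 / 7 * (D.A : ℝ) + 51 / 100 * H) * T ^ 2 ≤ B.x2 * T ^ 2 :=
      mul_le_mul_of_nonneg_right (by linarith [O.x2]) t2
    have a3 := mul_le_mul_of_nonneg_right O.x3 t3
    have a0 := O.x0
    rw [e]
    linarith
  have hF : T * ((1 + (D.s : ℝ)) * (16 / 7 * k) + (1 + 1 / (D.s : ℝ)) * (L * D.ep))
      + 8 / 7 * D.Q * T ^ 2 + 269 / 50 * D.Q * T ^ 3 + 5 / 6 * k ^ 2 * T ^ 2 * H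
      ≤ B.ffR T := by
    have e : B.ffR T = T * B.f1 + B.f2 * T ^ 2 + B.f3 * T ^ 3 := by
      unfold Bx.ffR
      ring
    have a1 := mul_le_mul_of_nonneg_left O.f1 t0
    have a2 : (8 / 7 * (D.Q : ℝ) + 5 / 6 * k ^ 2 * H) * T ^ 2 ≤ B.f2 * T ^ 2 := by
      refine mul_le_mul_of_nonneg_right (le_trans ?_ O.f2) t2
      have := mul_le_mul_of_nonneg_left hb (by positivity : (0 : ℝ) ≤ 5 / 6 * k ^ 2)
      linarith
    have a3 := mul_le_mul_of_nonneg_right O.f3 t3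
    rw [e]
    linarith
  have nY : 0 ≤ (D.yy : ℝ) * T + (8 / 7 * D.A + 51 / 100 * H) * T ^ 2
      + 269 / 50 * D.A * T ^ 3 := by positivity
  have nF : 0 ≤ T * ((1 + (D.s : ℝ)) * (16 / 7 * k) + (1 + 1 / (D.s : ℝ)) * (L * D.ep))
      + 8 / 7 * D.Q * T ^ 2 + 269 / 50 * D.Q * T ^ 3 + 5 / 6 * k ^ 2 * T ^ 2 * H := by
    positivity
  have hsq := Real.sqrt_le_sqrt (mul_le_mul hF hY nY (nF.trans hF))
  linarith

/-- the scalar comparison of the cross term -/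
theorem Dt.Ok.cross {D : Dt} {B : Bx} (O : D.Ok B) {H T e mm : ℝ} (hH : 0 < H) (hb : H ≤ D.hb)
    (hT : 0 < T) (hm0 : (B.m0 : ℝ) ≤ mm) (he0 : 0 ≤ e) (he : e ^ 2 ≤ D.ep * H) :
    (16 / 7 * T + 103 / 5 * T ^ 2) * H + T * ((7 / 2 + 4 / (mm + 2)) * e ^ 2
      + (6 / √(mm + 1) + 4 * √((D.ν : ℝ) + H)) * (e * √H)) ≤ B.ggR T * H := by
  have hmm : (400 : ℝ) ≤ mm := O.m0.trans hm0
  have t0 := hT.le
  have hsH := Real.sq_sqrt hH.le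
  have nsH := Real.sqrt_nonneg H
  have nre := O.re
  have nrn := O.rn
  have nq6 := O.q6
  have hB2 : (0 : ℝ) < B.m0 + 2 := by linarith [O.m0]
  have hev : e ≤ D.re * √H := by
    refine abs_le_of_sq_le_sq' ?_ (mul_nonneg nre nsH) |>.2
    rw [mul_pow, hsH]
    exact he.trans (mul_le_mul_of_nonneg_right O.ee hH.le)
  have hevH : e * √H ≤ D.re * H := by
    calc e * √H ≤ D.re * √H * √H := mul_le_mul_of_nonneg_right hev nsH
      _ = D.re * (√H ^ 2) := by ring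
      _ = _ := by rw [hsH]
  have hq6 : 6 / √(mm + 1) ≤ D.q6 := by
    have hs1 : 0 < √(mm + 1) := Real.sqrt_pos.2 (by linarith)
    rw [div_le_iff₀ hs1]
    have h36 : (36 : ℝ) ≤ D.q6 ^ 2 * (mm + 1) := O.qq.trans
      (mul_le_mul_of_nonneg_left (by linarith) (sq_nonneg _))
    have : (6 : ℝ) ^ 2 ≤ (D.q6 * √(mm + 1)) ^ 2 := by
      rw [mul_pow, Real.sq_sqrt (by linarith)]
      linarith
    exact abs_le_of_sq_le_sq' this (mul_nonneg nq6 hs1.le) |>.2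
  have hrn : √((D.ν : ℝ) + H) ≤ D.rn := by
    rw [Real.sqrt_le_left nrn]
    linarith [O.nn]
  have h4m : (4 : ℝ) / (mm + 2) ≤ 4 / (B.m0 + 2) :=
    div_le_div_of_nonneg_left (by norm_num) hB2 (by linarith)
  have c1 : (7 / 2 + 4 / (mm + 2)) * e ^ 2 ≤ (7 / 2 + 4 / ((B.m0 : ℝ) + 2)) * D.ep * H := by
    calc (7 / 2 + 4 / (mm + 2)) * e ^ 2
        ≤ (7 / 2 + 4 / ((B.m0 : ℝ) + 2)) * (D.ep * H) :=
          mul_le_mul (by linarith) he (sq_nonneg _) (by positivity)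
      _ = _ := by ring
  have c2 : (6 / √(mm + 1) + 4 * √((D.ν : ℝ) + H)) * (e * √H)
      ≤ (D.q6 + 4 * D.rn) * D.re * H := by
    calc (6 / √(mm + 1) + 4 * √((D.ν : ℝ) + H)) * (e * √H)
        ≤ (D.q6 + 4 * D.rn) * (D.re * H) :=
          mul_le_mul (by linarith) hevH (mul_nonneg he0 nsH) (by positivity)
      _ = _ := by ring
  have c3 := mul_le_mul_of_nonneg_left (add_le_add c1 c2) t0
  have c4 := mul_le_mul_of_nonneg_right O.g1 (mul_nonneg t0 hH.le)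
  have c5 := mul_le_mul_of_nonneg_right O.g2 (mul_nonneg (sq_nonneg T) hH.le)
  have c6 : 0 ≤ (B.g3 : ℝ) * (T ^ 3 * H) := mul_nonneg O.g3 (by positivity)
  have eg : B.ggR T * H = B.g1 * (T * H) + B.g2 * (T ^ 2 * H) + B.g3 * (T ^ 3 * H) := by
    unfold Bx.ggR
    ring
  rw [eg]
  linarith

/-- the size of the operator -/
theorem Dt.Ok.opn {D : Dt} {B : Bx} (O : D.Ok B) {mm : ℝ} (hm0 : (B.m0 : ℝ) ≤ mm) :
    (D.ν : ℝ) / (1 - D.ν) * (mm + 1) ≤ B.κ * mm := by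
  have h1ν : (0 : ℝ) < 1 - D.ν := by linarith [O.ν1]
  have κ0 : (0 : ℝ) ≤ D.ν / (1 - D.ν) := div_nonneg O.ν0.le h1ν.le
  have hm0' : (0 : ℝ) < B.m0 := by linarith [O.m0]
  have h3 : (D.ν : ℝ) / (1 - D.ν) ≤ B.κ := by
    by_contra hc
    rw [not_le] at hc
    have := mul_lt_mul_of_pos_right hc hm0'
    linarith [O.κ]
  have h4 : 0 ≤ (B.κ - (D.ν : ℝ) / (1 - D.ν)) * (mm - B.m0) :=
    mul_nonneg (by linarith) (by linarith)
  linarith [O.κ]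

/-- the mean of the defect is the mean normal -/
lemma int_z_eq (h : OneP μ m p n) (hm : 1 ≤ m) (b : OrthonormalBasis ι ℝ E) {j : ι → ℝ}
    (hzJ : ∀ x, z x = n x - dop b j (p x)) : ∫ x, z x ∂μ = ∫ x, n x ∂μ := by
  have hp := h.cp
  have hn := h.cn
  have e1 : ∫ x, dop b j (p x) ∂μ = dop b j (∫ x, p x ∂μ) :=
    (dop b j).integral_comp_comm (int_of_cont hp)
  have e2 : ∫ x, p x ∂μ = 0 := by
    refine ext_inner_right ℝ fun v => ?_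
    rw [← inner_int hp, h.mean hm, inner_zero_left]
  have e3 : z = fun x => n x - dop b j (p x) := funext hzJ
  rw [e3, integral_sub (int_of_cont hn) (int_of_cont (by fun_prop)), e1, e2, map_zero, sub_zero]

/-- the tails in the norm form -/
lemma rare_z (b : OrthonormalBasis ι ℝ E) {j : ι → ℝ} (hp : Continuous p) (hz : Continuous z)
    (hzJ : ∀ x, z x = n x - dop b j (p x)) {A0 b1 b2 b3 : ℝ}
    (hr : ∫ x, max (ad b j p n x - A0) 0 ^ 2 ∂μ ≤ b1 ∧ ∫ x, ad b j p n x ^ 2 ∂μ ≤ b2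
      ∧ ∫ x, qd b j p x * ad b j p n x ∂μ ≤ b3) :
    ∫ x, (max (‖z x‖ ^ 2 - A0) 0) ^ 2 ∂μ ≤ b1 ∧ ∫ x, ‖z x‖ ^ 4 ∂μ ≤ b2
    ∧ ∫ x, ‖dop b j (p x)‖ ^ 2 * ‖z x‖ ^ 2 ∂μ ≤ b3
    ∧ ∫ x, ⟪dop b j (p x), z x⟫ ^ 2 ∂μ ≤ b3 := by
  obtain ⟨r1, r2, r3⟩ := hr
  have q3 : ∫ x, ‖dop b j (p x)‖ ^ 2 * ‖z x‖ ^ 2 ∂μ ≤ b3 := by
    simpa only [ad_norm, qd_norm, hzJ] using r3
  refine ⟨by simpa only [ad_norm, hzJ] using r1, ?_, q3, ?_⟩
  · simp only [ad_norm, ← hzJ, ← pow_mul] at r2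
    exact r2
  · refine le_trans (integral_mono (int_of_cont (by fun_prop)) (int_of_cont (by fun_prop))
      fun x => ?_) q3
    simp only
    rw [← mul_pow, ← sq_abs]
    exact pow_le_pow_left₀ (abs_nonneg _) (abs_real_inner_le_norm _ _) 2

/-- **the analytic facts of a box** -/
theorem bxData_of [DecidableEq ι] [Nontrivial E] (h : OneP μ m p n) (hd : finrank ℝ E = m + 2)
    (b : OrthonormalBasis ι ℝ E) {j : ι → ℝ} (hT0 : T0Data μ m (cob b p) (cob b n))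
    (hL : LSq μ (Matrix.diagonal j) (cob b p) (cob b n))
    (hz : Continuous z) (hzJ : ∀ x, z x = n x - dop b j (p x)) {D : Dt} {B : Bx}
    (hD : D.ok B = true)
    (hm0 : (B.m0 : ℝ) ≤ m) (hν : ∀ a, m2 μ (cob b n) (cob b n) a a ≤ D.ν)
    (hh0 : 0 < hh μ (Matrix.diagonal j) (cob b p) (cob b n))
    (hhb : hh μ (Matrix.diagonal j) (cob b p) (cob b n) ≤ D.hb)
    (he : ‖∫ x, n x ∂μ‖ ^ 2 ≤ D.ep * hh μ (Matrix.diagonal j) (cob b p) (cob b n))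
    (hr : ∫ x, max (ad b j p n x - B.A0) 0 ^ 2 ∂μ
        ≤ (B.ε * hh μ (Matrix.diagonal j) (cob b p) (cob b n)) ^ 2
      ∧ ∫ x, ad b j p n x ^ 2 ∂μ ≤ D.A * hh μ (Matrix.diagonal j) (cob b p) (cob b n)
      ∧ ∫ x, qd b j p x * ad b j p n x ∂μ
        ≤ D.Q * hh μ (Matrix.diagonal j) (cob b p) (cob b n)) :
    BxData μ m p n z B (dop b j) := by
  have O := Dt.ok_real hD
  have eH : hh μ (Matrix.diagonal j) (cob b p) (cob b n) = ∫ x, ‖z x‖ ^ 2 ∂μ := by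
    rw [hh_norm b j]
    simp only [hzJ]
  rw [eH] at hh0 hhb he hr
  have hmR : (400 : ℝ) ≤ m := O.m0.trans hm0
  have hm : 400 ≤ m := by exact_mod_cast hmR
  have h1ν : (0 : ℝ) < 1 - D.ν := by linarith [O.ν1]
  have ha := anti_of_LSq b hL hzJ
  obtain ⟨hj, hS⟩ := jj_bounds b hT0 hL O.ν1 hν
  have κ0 : (0 : ℝ) ≤ D.ν / (1 - D.ν) := div_nonneg O.ν0.le h1ν.le
  rw [← int_z_eq h (by omega) b hzJ] at he
  obtain ⟨q1, q2, q3, q4⟩ := rare_z b h.cp hz hzJ hr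
  have hν2 : ∀ a, ∫ x, ⟪n x, b a⟫ ^ 2 ∂μ ≤ D.ν := fun a => by
    refine le_trans (le_of_eq ?_) (hν a)
    unfold m2 cob
    exact integral_congr_ae (Eventually.of_forall fun x => sq _)
  exact
    { one := h
      hm := hm0
      hz := hz
      hJ := fun u v => dop_symm b j u v
      hzJ := hzJ
      hH := hh0
      hκ := fun v => (dop_norm_le b hj v).trans
        (mul_le_mul_of_nonneg_right (O.opn hm0) (sq_nonneg _))
      hε := q1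
      hc := q4.trans (mul_le_mul_of_nonneg_right O.Q hh0.le)
      hX := fun T hT => by
        have r := SS_num2 h (by omega) hd b hT0 hz hzJ ha κ0 hj (s := D.s)
          (L := 1 / (1 - D.ν)) (Q := D.Q) (A := D.A) (y1 := D.yy) (ε := D.ep)
          (H := ∫ x, ‖z x‖ ^ 2 ∂μ) O.s hS le_rfl q3 he q2 O.yy
          (le_trans (by
            have := mul_le_mul_of_nonneg_left hhb O.A0
            linarith) O.y) hT.1 (by linarith [hT.2, O.Ts])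
        refine r.trans ?_
        have hS1 : S1 μ m p z (dop b j) T
          = PI μ p T m (fun u => ⟪dop b j (p u.2), z u.1⟫ ^ 2) := rfl
        rw [hS1]
        have := mul_le_mul_of_nonneg_right (O.normal hh0 hhb hT.1) hh0.le
        linarith
      hC := fun T hT => by
        have nνh : (0 : ℝ) ≤ D.ν + ∫ x, ‖z x‖ ^ 2 ∂μ := by linarith [O.ν0]
        have r := Cr_le2 (n := n) h hm hd b (qb_of_T0 b (by positivity) hT0) hz ha hT.1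
          (by linarith [hT.2, O.Ts]) (ν := D.ν + ∫ x, ‖z x‖ ^ 2 ∂μ) nνh
          (P_op_le h (by omega) b hz hzJ ha hν2 (∫ y, z y ∂μ))
        exact r.trans (O.cross hh0 hhb hT.1 hm0 (norm_nonneg _) he) }

end

end Vale.Agent.P224.R2.H662
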