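import Vale.Agent.P224.R2.H470.Brg

/-!
A crude bound of the normal part at level `T`: constant term exact, remainder of first order.
-/

namespace Vale.Agent.P224.R2.H662

open MeasureTheory Module Function Set Filter Vale.Agent.P224.R2.H470 Vale.Agent.P224.R2.H460
open Vale.Agent.P224.R2.H728 (BM)
open scoped RealInnerProductSpace Topology

set_option linter.unusedSectionVars false

section

variable {X : Type*} {E : Type*} [NormedAddCommGroup E] [InnerProductSpace ℝ E]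
  [FiniteDimensional ℝ E] [MeasurableSpace E] [BorelSpace E]
variable [TopologicalSpace X] [MeasurableSpace X] [SecondCountableTopology X]
variable [CompactSpace X] [BorelSpace X] {μ : Measure X} [IsProbabilityMeasure μ] {m : ℕ}
  {p n : X → E} {z : X → E} {T T1 : ℝ}

/-- the remainder of first order is at most `T/T1` times the Schur bound -/
lemma rk1_le [Nontrivial E] (h : OneP μ m p n) (hm : 1 ≤ m) (hd : finrank ℝ E = m + 2)
    (h1 : 0 < T) (h2 : T ≤ T1) (h3 : T1 < 1) {F : X → ℝ} (hF : Continuous F) :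
    KF (rk m m 1 T) μ p F F ≤ (T / T1) * (1 / (1 - T1 ^ 2) * ∫ x, F x ^ 2 ∂μ) := by
  have hT1 : 0 < T1 := h1.trans_le h2
  have hp := h.cp.measurable
  have hB := BM_cont hF
  have r := (PT_rk (μ := μ) hp h.np hB hm hd (by norm_num : 1 ≤ 3) h1 h2 h3).2
  rw [pow_one] at r
  refine r.trans (mul_le_mul_of_nonneg_left ?_ (by positivity))
  have e3 := KF_rk (μ := μ) hp h.np m m 1 hT1.le h3 hB hB
  have e4 : PT m m μ p F F T1 = KF (sk m m T1) μ p F F := rfl
  rw [e3, e4, Finset.sum_range_one, KF_a0, pow_zero, mul_one]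
  have h10 : KF (sk m m T1) μ p F F ≤ 1 / (1 - T1 ^ 2) * ∫ x, F x ^ 2 ∂μ := by
    refine KF_schur hp h.np (BK_sk m m hT1.le h3) (fun s hs => ?_)
      (fun x => sk_m_le h hm hT1.le h3 x) hB
    have hv : 0 ≤ 1 - T1 * s := by
      have := mul_le_mul_of_nonneg_left hs.2 hT1.le
      linarith
    have hk : 0 < 1 - T1 ^ 2 := by nlinarith
    unfold sk
    exact mul_nonneg (Real.rpow_nonneg hk.le _) (inv_nonneg.2 (pow_nonneg hv _))
  nlinarith [mul_self_nonneg (∫ x, F x ∂μ)]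

/-- the normal part: `cw SS ≤ (1 - T²) (ν h + T/(T1 (1 - T1²)) √(E |z|⁴))` -/
theorem SS_crude [Nontrivial E] (h : OneP μ m p n) (hm : 1 ≤ m) (hd : finrank ℝ E = m + 2)
    {ν : ℝ} (hP : ∀ b : E, ∫ y, ⟪n y, b⟫ ^ 2 ∂μ ≤ ν * ‖b‖ ^ 2)
    (h1 : 0 < T) (h2 : T ≤ T1) (h3 : T1 < 1) (hz : Continuous z) :
    cw m T * SS μ m p n z T ≤ (1 - T ^ 2) * (ν * ∫ x, ‖z x‖ ^ 2 ∂μ
      + T / T1 * (1 / (1 - T1 ^ 2)) * √(∫ x, ‖z x‖ ^ 4 ∂μ)) := by
  have hT1 : 0 < T1 := h1.trans_le h2
  have hT : T < 1 := h2.trans_lt h3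
  have hk : 0 < 1 - T ^ 2 := by nlinarith
  have hk1 : 0 < 1 - T1 ^ 2 := by nlinarith
  have hp := h.cp
  have hn := h.cn
  have hpm := hp.measurable
  set e := stdOrthonormalBasis ℝ E with he
  set ι := Fin (finrank ℝ E) × Fin (finrank ℝ E) with hι
  let F : ι → X → ℝ := fun k x => ⟪z x, e k.1⟫ * ⟪z x, e k.2⟫
  let G : ι → X → ℝ := fun k x => ⟪n x, e k.1⟫ * ⟪n x, e k.2⟫
  have cF : ∀ k, Continuous (F k) := fun k => by fun_prop
  have cG : ∀ k, Continuous (G k) := fun k => by fun_prop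
  have bF : ∀ k, BM (F k) := fun k => BM_cont (cF k)
  have bG : ∀ k, BM (G k) := fun k => BM_cont (cG k)
  -- pointwise expansions
  have hsq : ∀ a b : E, ⟪a, b⟫ ^ 2
      = ∑ k : ι, (⟪b, e k.1⟫ * ⟪b, e k.2⟫) * (⟪a, e k.1⟫ * ⟪a, e k.2⟫) := by
    intro a b
    rw [Fintype.sum_prod_type, inner_sum_basis e a b, sq, Finset.sum_mul_sum]
    exact Finset.sum_congr rfl fun i _ => Finset.sum_congr rfl fun j _ => by ring
  have hfour : ∀ a : E, ∑ k : ι, (⟪a, e k.1⟫ * ⟪a, e k.2⟫) ^ 2 = ‖a‖ ^ 4 := by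
    intro a
    have := hsq a a
    rw [real_inner_self_eq_norm_sq] at this
    rw [show ‖a‖ ^ 4 = (‖a‖ ^ 2) ^ 2 by ring, this]
    exact Finset.sum_congr rfl fun k _ => by ring
  have e1 : cw m T * SS μ m p n z T = (1 - T ^ 2) * ∑ k : ι, KF (sk m m T) μ p (F k) (G k) := by
    unfold SS
    have e2 : (fun u : X × X => ⟪n u.2, z u.1⟫ ^ 2) = fun u => ∑ k : ι, F k u.1 * G k u.2 := by
      funext u
      exact hsq _ _
    have e3 : PI μ p T m (fun u => ∑ k : ι, F k u.1 * G k u.2)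
        = ∑ k : ι, PI μ p T m (fun u => F k u.1 * G k u.2) := by
      unfold PI
      rw [← integral_finsetSum _ fun k _ => ?_]
      · refine integral_congr_ae (Eventually.of_forall fun u => ?_)
        simp only
        rw [Finset.mul_sum]
      · exact int_PI h1.le hT m hp h.np (G := fun u => F k u.1 * G k u.2)
          (((cF k).comp continuous_fst).mul ((cG k).comp continuous_snd))
    rw [e2, e3, Finset.mul_sum, Finset.mul_sum]
    exact Finset.sum_congr rfl fun k _ => cwPI_m h1.le hT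
  rw [e1]
  refine mul_le_mul_of_nonneg_left ?_ hk.le
  -- the split
  have e5 : ∀ k, KF (sk m m T) μ p (F k) (G k)
      = KF (rk m m 1 T) μ p (F k) (G k) + (∫ x, F k x ∂μ) * ∫ x, G k x ∂μ := by
    intro k
    have := KF_rk (μ := μ) hpm h.np m m 1 h1.le hT (bF k) (bG k)
    have e4 : PT m m μ p (F k) (G k) T = KF (sk m m T) μ p (F k) (G k) := rfl
    rw [e4, Finset.sum_range_one, KF_a0, pow_zero, mul_one] at this
    linarith
  simp_rw [e5]
  rw [Finset.sum_add_distrib]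
  -- the mean part
  have hmean : ∑ k : ι, (∫ x, F k x ∂μ) * ∫ x, G k x ∂μ ≤ ν * ∫ x, ‖z x‖ ^ 2 ∂μ := by
    have e6 : ∑ k : ι, (∫ x, F k x ∂μ) * ∫ x, G k x ∂μ
        = ∫ x, ∫ y, ⟪n y, z x⟫ ^ 2 ∂μ ∂μ := by
      have e7 : ∀ x, ∫ y, ⟪n y, z x⟫ ^ 2 ∂μ = ∑ k : ι, F k x * ∫ y, G k y ∂μ := by
        intro x
        have : (fun y => ⟪n y, z x⟫ ^ 2) = fun y => ∑ k : ι, F k x * G k y := by
          funext y
          exact hsq _ _
        rw [this, integral_finsetSum _ fun k _ => ((bG k).int).const_mul _]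
        exact Finset.sum_congr rfl fun k _ => integral_const_mul _ _
      simp_rw [e7]
      rw [integral_finsetSum _ fun k _ => ((bF k).int).mul_const _]
      exact Finset.sum_congr rfl fun k _ => (integral_mul_const _ _).symm
    rw [e6, ← integral_const_mul]
    refine integral_mono ?_ (int_of_cont (by fun_prop)) fun x => hP (z x)
    have e7 : (fun x => ∫ y, ⟪n y, z x⟫ ^ 2 ∂μ) = fun x => ∑ k : ι, F k x * ∫ y, G k y ∂μ := by
      funext x
      have : (fun y => ⟪n y, z x⟫ ^ 2) = fun y => ∑ k : ι, F k x * G k y := by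
        funext y
        exact hsq _ _
      rw [this, integral_finsetSum _ fun k _ => ((bG k).int).const_mul _]
      exact Finset.sum_congr rfl fun k _ => integral_const_mul _ _
    rw [e7]
    exact integrable_finsetSum _ fun k _ => ((bF k).int).mul_const _
  -- the remainder
  have hrem : ∑ k : ι, KF (rk m m 1 T) μ p (F k) (G k)
      ≤ T / T1 * (1 / (1 - T1 ^ 2)) * √(∫ x, ‖z x‖ ^ 4 ∂μ) := by
    have hPD := PD_rk (μ := μ) hpm h.np hm hd (by norm_num : 1 ≤ 3) h1 hT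
    have cs := hPD.cs hpm h.np (BK_rk m m 1 h1.le hT) (Finset.univ : Finset ι) bF bG
    have sF : ∑ k : ι, KF (rk m m 1 T) μ p (F k) (F k)
        ≤ T / T1 * (1 / (1 - T1 ^ 2) * ∫ x, ‖z x‖ ^ 4 ∂μ) := by
      refine (Finset.sum_le_sum fun k _ => rk1_le h hm hd h1 h2 h3 (cF k)).trans (le_of_eq ?_)
      rw [← Finset.mul_sum, ← Finset.mul_sum, ← integral_finsetSum _ fun k _ =>
        ((bF k).pow 2).int]
      congr 2
      refine integral_congr_ae (Eventually.of_forall fun x => ?_)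
      exact hfour (z x)
    have sG : ∑ k : ι, KF (rk m m 1 T) μ p (G k) (G k) ≤ T / T1 * (1 / (1 - T1 ^ 2)) := by
      refine (Finset.sum_le_sum fun k _ => rk1_le h hm hd h1 h2 h3 (cG k)).trans (le_of_eq ?_)
      rw [← Finset.mul_sum, ← Finset.mul_sum, ← integral_finsetSum _ fun k _ =>
        ((bG k).pow 2).int]
      have : ∫ x, ∑ k : ι, G k x ^ 2 ∂μ = 1 := by
        have e8 : ∀ x, ∑ k : ι, G k x ^ 2 = 1 := by
          intro x
          have := hfour (n x)
          rw [h.nn, one_pow] at this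
          exact this
        simp_rw [e8]
        simp
      rw [this, mul_one]
    have nF : 0 ≤ ∑ k : ι, KF (rk m m 1 T) μ p (F k) (F k) :=
      Finset.sum_nonneg fun k _ => hPD _ (bF k)
    have nG : 0 ≤ ∑ k : ι, KF (rk m m 1 T) μ p (G k) (G k) :=
      Finset.sum_nonneg fun k _ => hPD _ (bG k)
    have n4 : 0 ≤ ∫ x, ‖z x‖ ^ 4 ∂μ := integral_nonneg fun x => by positivity
    set c := T / T1 * (1 / (1 - T1 ^ 2)) with hc
    have hc0 : 0 ≤ c := by positivity
    have h5 : (∑ k : ι, KF (rk m m 1 T) μ p (F k) (G k)) ^ 2 ≤ (c * √(∫ x, ‖z x‖ ^ 4 ∂μ)) ^ 2 := by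
      refine cs.trans ?_
      rw [mul_pow, Real.sq_sqrt n4]
      calc _ ≤ (c * ∫ x, ‖z x‖ ^ 4 ∂μ) * c := by
            refine mul_le_mul (sF.trans (le_of_eq (by rw [hc]; ring))) sG nG (by positivity)
        _ = c ^ 2 * ∫ x, ‖z x‖ ^ 4 ∂μ := by ring
    exact abs_le_of_sq_le_sq' h5 (by positivity) |>.2
  linarith

end

end Vale.Agent.P224.R2.H662
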