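import Vale.Agent.P224.R2.H662.RareF

/-!
The tails in terms of norms: `z = n - J p` with `J = dop b j`.
-/

namespace Vale.Agent.P224.R2.H662

open MeasureTheory Module Function Set Vale.Agent.P224.R2.H470 Vale.Agent.P224.R2.H728
open scoped RealInnerProductSpace Topology

set_option linter.unusedSectionVars false

section

variable {X : Type*} {E : Type*} [NormedAddCommGroup E] [InnerProductSpace ℝ E]
  [FiniteDimensional ℝ E] [TopologicalSpace X] [MeasurableSpace X] [CompactSpace X] [BorelSpace X]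
  {μ : Measure X} {m : ℕ} {p n : X → E} {ι : Type*} [Fintype ι]

lemma dop_coord (b : OrthonormalBasis ι ℝ E) (j : ι → ℝ) (v : E) (a : ι) :
    ⟪dop b j v, b a⟫ = j a * ⟪v, b a⟫ := by
  classical
  rw [dop_inner, Finset.sum_eq_single a]
  · rw [b.inner_eq_one]
    ring
  · intro c _ hc
    rw [b.inner_eq_zero hc.symm]
    ring
  · exact fun h => absurd (Finset.mem_univ a) h

lemma ad_norm (b : OrthonormalBasis ι ℝ E) (j : ι → ℝ) (x : X) :
    ad b j p n x = ‖n x - dop b j (p x)‖ ^ 2 := by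
  rw [← b.sum_sq_norm_inner_left (n x - dop b j (p x))]
  refine Finset.sum_congr rfl fun a _ => ?_
  rw [inner_sub_left, dop_coord, Real.norm_eq_abs, sq_abs]

lemma qd_norm (b : OrthonormalBasis ι ℝ E) (j : ι → ℝ) (x : X) :
    qd b j p x = ‖dop b j (p x)‖ ^ 2 := by rw [norm_dop_sq]; rfl

lemma dop_norm_le (b : OrthonormalBasis ι ℝ E) {j : ι → ℝ} {K : ℝ} (hj : ∀ a, j a ^ 2 ≤ K)
    (v : E) : ‖dop b j v‖ ^ 2 ≤ K * ‖v‖ ^ 2 := by
  rw [norm_dop_sq, ← b.sum_sq_norm_inner_left v, Finset.mul_sum]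
  refine Finset.sum_le_sum fun a _ => ?_
  rw [Real.norm_eq_abs, sq_abs]
  exact mul_le_mul_of_nonneg_right (hj a) (sq_nonneg _)

variable [DecidableEq ι]

lemma hh_norm (b : OrthonormalBasis ι ℝ E) (j : ι → ℝ) :
    hh μ (Matrix.diagonal j) (cob b p) (cob b n) = ∫ x, ‖n x - dop b j (p x)‖ ^ 2 ∂μ := by
  simp only [← ad_norm, ad_eq]
  rfl

/-- the radial contraction is below the product of the squares -/
lemma int_Jz_le [IsFiniteMeasure μ] (h : OneP μ m p n) (b : OrthonormalBasis ι ℝ E) (j : ι → ℝ) :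
    ∫ x, ⟪dop b j (p x), n x - dop b j (p x)⟫ ^ 2 ∂μ ≤ ∫ x, qd b j p x * ad b j p n x ∂μ := by
  have hp := h.cp
  have hn := h.cn
  have cq : Continuous fun x => qd b j p x := by
    unfold qd
    fun_prop
  have ca : Continuous fun x => ad b j p n x := by
    unfold ad
    fun_prop
  refine integral_mono (int_of_cont (by fun_prop)) (int_of_cont (by fun_prop)) fun x => ?_
  simp only
  rw [ad_norm, qd_norm, ← mul_pow, ← sq_abs]
  exact pow_le_pow_left₀ (abs_nonneg _) (abs_real_inner_le_norm _ _) 2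

/-- the defect `n - J p`: all three tails, given the
`ad`-form -/
lemma rare_norm [IsFiniteMeasure μ] (h : OneP μ m p n) (b : OrthonormalBasis ι ℝ E) {j : ι → ℝ}
    {A0 B1 B2 B3 : ℝ}
    (r : ∫ x, max (ad b j p n x - A0) 0 ^ 2 ∂μ ≤ B1 ∧ ∫ x, ad b j p n x ^ 2 ∂μ ≤ B2
      ∧ ∫ x, qd b j p x * ad b j p n x ∂μ ≤ B3) :
    ∫ x, (max (‖n x - dop b j (p x)‖ ^ 2 - A0) 0) ^ 2 ∂μ ≤ B1
    ∧ ∫ x, (‖n x - dop b j (p x)‖ ^ 2) ^ 2 ∂μ ≤ B2
    ∧ ∫ x, ‖n x - dop b j (p x)‖ ^ 4 ∂μ ≤ B2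
    ∧ ∫ x, ⟪dop b j (p x), n x - dop b j (p x)⟫ ^ 2 ∂μ ≤ B3 := by
  obtain ⟨r1, r2, r3⟩ := r
  refine ⟨?_, ?_, ?_, (int_Jz_le h b j).trans r3⟩
  · simpa only [ad_norm] using r1
  · simpa only [ad_norm] using r2
  · simp only [ad_norm, ← pow_mul] at r2
    exact r2

end

end Vale.Agent.P224.R2.H662
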