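import Vale.Agent.P224.R2.H662.RareF
import Vale.Agent.P224.R2.H662.Nrm

/-!
The case of small maximal second moment: the pointwise bounds.
-/

namespace Vale.Agent.P224.R2.H662

open MeasureTheory Module Function Set Vale.Agent.P224.R2.H470 Vale.Agent.P224.R2.H728
open scoped RealInnerProductSpace Topology

set_option linter.unusedSectionVars false

section

variable {X : Type*} {E : Type*} [NormedAddCommGroup E] [InnerProductSpace ℝ E]
  [FiniteDimensional ℝ E] [TopologicalSpace X] [MeasurableSpace X] [CompactSpace X] [BorelSpace X]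
  {μ : Measure X} {m : ℕ} {p n : X → E} {ι : Type*} [Fintype ι] [DecidableEq ι]

/-- the pointwise bound of the radius -/
lemma qd_le (h : OneP μ m p n) (b : OrthonormalBasis ι ℝ E) {j : ι → ℝ} {q : ℝ}
    (hj : ∀ a, j a ^ 2 ≤ q) (x : X) : qd b j p x ≤ q := by
  have h1 : ∑ a, ⟪p x, b a⟫ ^ 2 = 1 := by
    have h2 := b.sum_sq_inner_left (p x)
    rw [h.np, one_pow] at h2
    exact h2
  calc qd b j p x = ∑ a, j a ^ 2 * ⟪p x, b a⟫ ^ 2 := rfl
    _ ≤ ∑ a, q * ⟪p x, b a⟫ ^ 2 :=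
      Finset.sum_le_sum fun a _ => mul_le_mul_of_nonneg_right (hj a) (sq_nonneg _)
    _ = q := by rw [← Finset.mul_sum, h1, mul_one]

/-- the rare part is empty when all entries are small -/
theorem rare_pt [IsProbabilityMeasure μ] (h : OneP μ m p n) (b : OrthonormalBasis ι ℝ E) {j : ι → ℝ}
    {q A0 ε : ℝ} (hj : ∀ a, j a ^ 2 ≤ q) (hA : (1 + √q) ^ 2 ≤ A0) (hε : 0 ≤ ε) :
    ∫ x, max (ad b j p n x - A0) 0 ^ 2 ∂μ
      ≤ (ε * ∫ x, ad b j p n x ∂μ) ^ 2
    ∧ ∫ x, ad b j p n x ^ 2 ∂μ ≤ (A0 + ε) * ∫ x, ad b j p n x ∂μ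
    ∧ ∫ x, qd b j p x * ad b j p n x ∂μ ≤ (q + ε) * ∫ x, ad b j p n x ∂μ := by
  have cp := h.cp
  have cn := h.cn
  have cq : Continuous fun x => qd b j p x := by
    unfold qd
    fun_prop
  have ca : Continuous fun x => ad b j p n x := by
    unfold ad
    fun_prop
  have ha0 : ∀ x, 0 ≤ ad b j p n x := fun x => ad_nonneg b j x
  have hI : 0 ≤ ∫ x, ad b j p n x ∂μ := integral_nonneg ha0
  have hA1 : ∀ x, ad b j p n x ≤ A0 := by
    intro x
    refine (ad_le h b j x).trans (le_trans ?_ hA)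
    refine pow_le_pow_left₀ (by positivity) ?_ 2
    have := Real.sqrt_le_sqrt (qd_le h b hj x)
    linarith
  refine ⟨?_, ?_, ?_⟩
  · have e : ∀ x, max (ad b j p n x - A0) 0 ^ 2 = 0 := by
      intro x
      rw [max_eq_right (by linarith [hA1 x])]
      norm_num
    simp only [e, integral_zero]
    positivity
  · have h1 : ∫ x, ad b j p n x ^ 2 ∂μ ≤ ∫ x, A0 * ad b j p n x ∂μ := by
      refine integral_mono (int_of_cont (by fun_prop)) (int_of_cont (by fun_prop)) fun x => ?_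
      simp only
      rw [sq]
      exact mul_le_mul_of_nonneg_right (hA1 x) (ha0 x)
    rw [integral_const_mul] at h1
    nlinarith [mul_nonneg hε hI]
  · have h1 : ∫ x, qd b j p x * ad b j p n x ∂μ ≤ ∫ x, q * ad b j p n x ∂μ := by
      refine integral_mono (int_of_cont (by fun_prop)) (int_of_cont (by fun_prop)) fun x => ?_
      exact mul_le_mul_of_nonneg_right (qd_le h b hj x) (ha0 x)
    rw [integral_const_mul] at h1
    nlinarith [mul_nonneg hε hI]

/-- the case `ν ≤ 5/m`, `m ≥ 400`: `A0 = 53/5`, `R2 = 51/10`, any `ε ≥ 0` -/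
theorem rare_caseA (h : OneP μ m p n) (b : OrthonormalBasis ι ℝ E) {j : ι → ℝ}
    (hT : T0Data μ m (cob b p) (cob b n))
    (hL : LSq μ (Matrix.diagonal j) (cob b p) (cob b n)) {ν ε : ℝ} (hε : 0 ≤ ε) (hm : 400 ≤ m)
    (hν : ∀ a, m2 μ (cob b n) (cob b n) a a ≤ ν) (h1 : ν ≤ 5 / m) :
    ∫ x, max (ad b j p n x - 53 / 5) 0 ^ 2 ∂μ
      ≤ (ε * hh μ (Matrix.diagonal j) (cob b p) (cob b n)) ^ 2
    ∧ ∫ x, ad b j p n x ^ 2 ∂μ
      ≤ (53 / 5 + ε) * hh μ (Matrix.diagonal j) (cob b p) (cob b n)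
    ∧ ∫ x, qd b j p x * ad b j p n x ∂μ
      ≤ (51 / 10 + ε) * hh μ (Matrix.diagonal j) (cob b p) (cob b n) := by
  have := hT.prob
  have hmR : (400 : ℝ) ≤ m := by exact_mod_cast hm
  have hν1 : ν < 1 := lt_of_le_of_lt h1 (by rw [div_lt_one (by linarith)]; linarith)
  have hj : ∀ a, j a ^ 2 ≤ 508 / 100 := by
    intro a
    have h2 := (jj_bounds b hT hL hν1 hν).1 a
    refine h2.trans ?_
    rw [div_mul_eq_mul_div, div_le_iff₀ (by linarith)]
    have h3 : ν * m ≤ 5 := by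
      rw [le_div_iff₀ (by linarith)] at h1
      exact h1
    have h4 : ν ≤ 5 / 400 := h1.trans (div_le_div_of_nonneg_left (by norm_num) (by norm_num) hmR)
    nlinarith
  have hs : √(508 / 100 : ℝ) ≤ 2254 / 1000 := by
    rw [Real.sqrt_le_left (by norm_num)]
    norm_num
  have hs0 : 0 ≤ √(508 / 100 : ℝ) := Real.sqrt_nonneg _
  have hA : (1 + √(508 / 100 : ℝ)) ^ 2 ≤ 53 / 5 := by nlinarith
  have e2 : ∫ x, ad b j p n x ∂μ = hh μ (Matrix.diagonal j) (cob b p) (cob b n) := by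
    rw [hh_norm b j]
    exact integral_congr_ae (Filter.Eventually.of_forall fun x => ad_norm b j x)
  obtain ⟨r1, r2, r3⟩ := rare_pt h b hj hA hε
  rw [e2] at r1 r2 r3
  have hh0 : 0 ≤ hh μ (Matrix.diagonal j) (cob b p) (cob b n) := hT.hh_nonneg _
  refine ⟨r1, r2, r3.trans (mul_le_mul_of_nonneg_right (by linarith) hh0)⟩

end

end Vale.Agent.P224.R2.H662
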