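import Vale.Agent.P224.R2.H662.C4c
import Vale.Agent.P224.R2.H662.JJ

/-!
The fourth moment of the defect of the least squares matrix (final form).
-/

namespace Vale.Agent.P224.R2.H662

open MeasureTheory Module Function Set Vale.Agent.P224.R2.H470 Vale.Agent.P224.R2.H728
open scoped RealInnerProductSpace Topology

set_option linter.unusedSectionVars false

section

variable {X : Type*} {E : Type*} [NormedAddCommGroup E] [InnerProductSpace ℝ E]
  [FiniteDimensional ℝ E] [TopologicalSpace X] [MeasurableSpace X] [CompactSpace X] [BorelSpace X]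
  {μ : Measure X} {m : ℕ} {p n : X → E} {ι : Type*} [Fintype ι] [DecidableEq ι]

/-- coordinates of a map -/
noncomputable def cob (b : OrthonormalBasis ι ℝ E) (p : X → E) (a : ι) (x : X) : ℝ := ⟪p x, b a⟫

lemma ad_eq (b : OrthonormalBasis ι ℝ E) (j : ι → ℝ) (x : X) :
    ad b j p n x = et (Matrix.diagonal j) (cob b p) (cob b n) x
      ⬝ᵥ et (Matrix.diagonal j) (cob b p) (cob b n) x := by
  unfold ad
  simp only [dotProduct]
  refine Finset.sum_congr rfl fun a _ => ?_
  have h1 : et (Matrix.diagonal j) (cob b p) (cob b n) x a = ⟪n x, b a⟫ - j a * ⟪p x, b a⟫ := by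
    have h2 := congrFun (congrFun (ze_diag (x := cob b p) (N := cob b n) j) a) x
    exact h2
  rw [h1, sq]

/-- `E |z|⁴ ≤ 16 E |z|² + 3e-5` and `E |z|² (|z|^(1/2) - 2)₊ ≤ 1e-6` when `|E N ⊗ N| ≤ 1/6` -/
theorem four_le (h : OneP μ m p n) (b : OrthonormalBasis ι ℝ E) {j : ι → ℝ}
    (hT : T0Data μ m (cob b p) (cob b n))
    (hL : LSq μ (Matrix.diagonal j) (cob b p) (cob b n))
    (hν : ∀ a, m2 μ (cob b n) (cob b n) a a ≤ 1 / 6) :
    ∫ x, (et (Matrix.diagonal j) (cob b p) (cob b n) x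
        ⬝ᵥ et (Matrix.diagonal j) (cob b p) (cob b n) x) ^ 2 ∂μ
      ≤ 16 * hh μ (Matrix.diagonal j) (cob b p) (cob b n) + 3 / 100000
    ∧ ∫ x, (et (Matrix.diagonal j) (cob b p) (cob b n) x
        ⬝ᵥ et (Matrix.diagonal j) (cob b p) (cob b n) x)
        * max (√√(et (Matrix.diagonal j) (cob b p) (cob b n) x
        ⬝ᵥ et (Matrix.diagonal j) (cob b p) (cob b n) x) - 2) 0 ∂μ ≤ 1 / 1000000 := by
  have := hT.prob
  have hm : (0 : ℝ) ≤ m := Nat.cast_nonneg m
  have hh0 : 0 ≤ hh μ (Matrix.diagonal j) (cob b p) (cob b n) := hT.hh_nonneg _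
  have hj : ∀ a, j a ^ 2 ≤ 1 / 5 * (m + 1) := by
    intro a
    have h1 := hT.GP a a
    rw [if_pos rfl] at h1
    have hG : 0 < m2 μ (cob b p) (cob b p) a a := by
      by_contra hc
      push Not at hc
      have := hν a
      nlinarith
    have h2 := j_sq_le hT hm hL a (hν a) hG
    linarith
  have hS : ∑ a, j a ^ 2 ≤ 5 / 4 * (m + 1) := by
    have h1 := j_sum_sq hT hL hν
    have h2 : (m + 1 : ℝ) * (1 - hh μ (Matrix.diagonal j) (cob b p) (cob b n)) ≤ m + 1 := by
      nlinarith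
    have h3 : (0 : ℝ) ≤ m + 1 := by linarith
    linarith
  have h1 := four_num h b hj hS
  have h2 := e54_num h b hj hS
  simp only [ad_eq] at h1 h2
  exact ⟨h1, h2⟩

end

end Vale.Agent.P224.R2.H662
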