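import Vale.Agent.P224.R2.H662.C4d

/-!
The rare part with a free radius `R` and a free exponent `l`:
`a = |N - Jx|² ≤ (1 + |Jx|)²`, good set `|Jx| ≤ R`, `a ≤ (1+R)²`.
-/

namespace Vale.Agent.P224.R2.H662

open MeasureTheory Module Function Set Vale.Agent.P224.R2.H470 Vale.Agent.P224.R2.H728
open scoped RealInnerProductSpace Topology

set_option linter.unusedSectionVars false

/-- `(R l d)² ≤ e⁻² e^(2 R l d)` -/
lemma sq_le_expR {u : ℝ} (hu : 0 ≤ u) : u ^ 2 ≤ Real.exp (-2) * Real.exp (2 * u) := by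
  have h1 := Real.add_one_le_exp (u - 1)
  have h2 : u ≤ Real.exp (u - 1) := by linarith
  calc u ^ 2 ≤ Real.exp (u - 1) ^ 2 := pow_le_pow_left₀ hu h2 2
    _ = Real.exp (-2) * Real.exp (2 * u) := by
      rw [← Real.exp_nat_mul, ← Real.exp_add]; congr 1; push_cast; ring

lemma lin_le_expR (u : ℝ) : 2 * u ≤ Real.exp (-1) * Real.exp (2 * u) := by
  have h1 := Real.add_one_le_exp (2 * u - 1)
  have h2 : Real.exp (-1) * Real.exp (2 * u) = Real.exp (2 * u - 1) := by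
    rw [← Real.exp_add]; congr 1; ring
  rw [h2]
  linarith

/-- the exponential weight beyond `R²` -/
lemma exp_beyondR {l d R : ℝ} (hl : 1 ≤ l) :
    Real.exp (2 * (l * R * d)) * (1 + d ^ 2)
      ≤ Real.exp (-(l * R ^ 2)) * Real.exp (l * (R + d) ^ 2) := by
  rw [← Real.exp_add]
  have e : -(l * R ^ 2) + l * (R + d) ^ 2 = 2 * (l * R * d) + l * d ^ 2 := by ring
  rw [e, Real.exp_add]
  refine mul_le_mul_of_nonneg_left ?_ (Real.exp_pos _).le
  have h1 := Real.add_one_le_exp (l * d ^ 2)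
  nlinarith [sq_nonneg d, mul_nonneg (sub_nonneg.2 hl) (sq_nonneg d)]

/-- scalar inequality for `((a - (1+R)²)₊)²` -/
lemma numAR {l s0 R δ : ℝ} (hl : 1 ≤ l) (hR : 0 < R) (hδ : 0 < δ) (hs : s0 + δ ≤ R ^ 2)
    (t : ℝ) (ht : R ≤ t) :
    ((1 + t) ^ 2 - (1 + R) ^ 2) ^ 2
      ≤ ((1 + 4 * (1 + R) ^ 2) / (δ * R ^ 2 * l ^ 2) * Real.exp (-2) * Real.exp (-(l * R ^ 2)))
        * (Real.exp (l * t ^ 2) * (t ^ 2 - s0)) := by
  obtain ⟨d, hd, rfl⟩ : ∃ d : ℝ, 0 ≤ d ∧ t = R + d := ⟨t - R, by linarith, by ring⟩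
  have l0 : 0 < l := by linarith
  have h1 := exp_beyondR (R := R) (d := d) hl
  have h2 := sq_le_expR (mul_nonneg (mul_nonneg l0.le hR.le) hd)
  have h3 : δ ≤ (R + d) ^ 2 - s0 := by nlinarith [mul_nonneg hR.le hd]
  set C := (1 + 4 * (1 + R) ^ 2) / (δ * R ^ 2 * l ^ 2) with hC
  have hC0 : 0 ≤ C := by positivity
  have e1 : (C * Real.exp (-2) * Real.exp (-(l * R ^ 2)))
        * (Real.exp (l * (R + d) ^ 2) * ((R + d) ^ 2 - s0))
      = (C * Real.exp (-2)) * ((Real.exp (-(l * R ^ 2)) * Real.exp (l * (R + d) ^ 2))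
        * ((R + d) ^ 2 - s0)) := by ring
  rw [e1]
  have h4 : (Real.exp (2 * (l * R * d)) * (1 + d ^ 2)) * δ
      ≤ (Real.exp (-(l * R ^ 2)) * Real.exp (l * (R + d) ^ 2)) * ((R + d) ^ 2 - s0) :=
    mul_le_mul h1 h3 hδ.le (by positivity)
  refine le_trans ?_ (mul_le_mul_of_nonneg_left h4 (by positivity))
  have e2 : (C * Real.exp (-2)) * ((Real.exp (2 * (l * R * d)) * (1 + d ^ 2)) * δ)
      = (Real.exp (-2) * Real.exp (2 * (l * R * d))) * (C * δ * (1 + d ^ 2)) := by ring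
  rw [e2]
  refine le_trans ?_ (mul_le_mul_of_nonneg_right h2 (by positivity))
  have e3 : (l * R * d) ^ 2 * (C * δ * (1 + d ^ 2))
      = d ^ 2 * ((1 + 4 * (1 + R) ^ 2) * (1 + d ^ 2)) := by
    rw [hC]
    field_simp
  rw [e3]
  have e4 : ((1 + (R + d)) ^ 2 - (1 + R) ^ 2) ^ 2 = d ^ 2 * (2 * (1 + R) + d) ^ 2 := by ring
  rw [e4]
  refine mul_le_mul_of_nonneg_left ?_ (sq_nonneg d)
  nlinarith [sq_nonneg (2 * (1 + R) * d - 1)]

/-- scalar inequality for `a (a - (1+R)²)₊` -/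
lemma numBR {l s0 R δ : ℝ} (hl : 1 ≤ l) (hR : 0 < R) (hδ : 0 < δ) (hs : s0 + δ ≤ R ^ 2)
    (hs0 : 0 ≤ s0) (t : ℝ) (ht : R ≤ t) :
    (1 + t) ^ 2 * ((1 + t) ^ 2 - (1 + R) ^ 2)
      ≤ (((1 + (1 + R) ^ 2) * (1 + R)) / (δ * R * l) * Real.exp (-1) * Real.exp (-(l * R ^ 2)))
        * (Real.exp (l * t ^ 2) * (t ^ 2 - s0)) := by
  obtain ⟨d, hd, rfl⟩ : ∃ d : ℝ, 0 ≤ d ∧ t = R + d := ⟨t - R, by linarith, by ring⟩
  have l0 : 0 < l := by linarith
  have h1 := exp_beyondR (R := R) (d := d) hl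
  have h2 := lin_le_expR (l * R * d)
  have h3 : δ + 2 * R * d ≤ (R + d) ^ 2 - s0 := by nlinarith [sq_nonneg d]
  have hRd : 0 ≤ R * d := mul_nonneg hR.le hd
  set C := ((1 + (1 + R) ^ 2) * (1 + R)) / (δ * R * l) with hC
  have hC0 : 0 ≤ C := by positivity
  have e1 : (C * Real.exp (-1) * Real.exp (-(l * R ^ 2)))
        * (Real.exp (l * (R + d) ^ 2) * ((R + d) ^ 2 - s0))
      = (C * Real.exp (-1)) * ((Real.exp (-(l * R ^ 2)) * Real.exp (l * (R + d) ^ 2))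
        * ((R + d) ^ 2 - s0)) := by ring
  rw [e1]
  have h4 : (Real.exp (2 * (l * R * d)) * (1 + d ^ 2)) * (δ + 2 * R * d)
      ≤ (Real.exp (-(l * R ^ 2)) * Real.exp (l * (R + d) ^ 2)) * ((R + d) ^ 2 - s0) :=
    mul_le_mul h1 h3 (by nlinarith) (by positivity)
  refine le_trans ?_ (mul_le_mul_of_nonneg_left h4 (by positivity))
  have e2 : (C * Real.exp (-1)) * ((Real.exp (2 * (l * R * d)) * (1 + d ^ 2)) * (δ + 2 * R * d))
      = (Real.exp (-1) * Real.exp (2 * (l * R * d))) * (C * (δ + 2 * R * d) * (1 + d ^ 2)) := by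
    ring
  rw [e2]
  have h5 : 0 ≤ C * (δ + 2 * R * d) * (1 + d ^ 2) :=
    mul_nonneg (mul_nonneg hC0 (by nlinarith)) (by positivity)
  refine le_trans ?_ (mul_le_mul_of_nonneg_right h2 h5)
  have e3 : 2 * (l * R * d) * (C * (δ + 2 * R * d) * (1 + d ^ 2))
      = d * ((1 + (1 + R) ^ 2) * (1 + d ^ 2) * (2 * (1 + R) * (1 + 2 * R * d / δ))) := by
    rw [hC]
    field_simp
  rw [e3]
  have e4 : (1 + (R + d)) ^ 2 * ((1 + (R + d)) ^ 2 - (1 + R) ^ 2)
      = d * ((1 + R + d) ^ 2 * (2 * (1 + R) + d)) := by ring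
  rw [e4]
  refine mul_le_mul_of_nonneg_left ?_ hd
  have k1 : (1 + R + d) ^ 2 ≤ (1 + (1 + R) ^ 2) * (1 + d ^ 2) := by
    nlinarith [sq_nonneg ((1 + R) * d - 1)]
  have k2 : 2 * (1 + R) + d ≤ 2 * (1 + R) * (1 + 2 * R * d / δ) := by
    have k3 : 1 / (4 * R * (1 + R)) ≤ 1 / δ :=
      one_div_le_one_div_of_le hδ (by nlinarith)
    have k4 : d = 4 * R * (1 + R) * d * (1 / (4 * R * (1 + R))) := by
      field_simp
    have k5 : 2 * (1 + R) * (1 + 2 * R * d / δ)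
        = 2 * (1 + R) + 4 * R * (1 + R) * d * (1 / δ) := by
      field_simp
      ring
    rw [k5]
    have k6 : 4 * R * (1 + R) * d * (1 / (4 * R * (1 + R))) ≤ 4 * R * (1 + R) * d * (1 / δ) :=
      mul_le_mul_of_nonneg_left k3 (by positivity)
    linarith
  exact mul_le_mul k1 k2 (by positivity) (by positivity)

/-- scalar inequality for `(|Jx|² - R²)₊ a` -/
lemma numCR {l s0 R δ : ℝ} (hl : 1 ≤ l) (hR : 0 < R) (hδ : 0 < δ) (hs : s0 + δ ≤ R ^ 2)
    (hs0 : 0 ≤ s0) (t : ℝ) (ht : R ≤ t) :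
    (t ^ 2 - R ^ 2) * (1 + t) ^ 2
      ≤ (((1 + (1 + R) ^ 2) * (1 + R)) / (δ * R * l) * Real.exp (-1) * Real.exp (-(l * R ^ 2)))
        * (Real.exp (l * t ^ 2) * (t ^ 2 - s0)) := by
  refine le_trans ?_ (numBR hl hR hδ hs hs0 t ht)
  have : t ^ 2 - R ^ 2 ≤ (1 + t) ^ 2 - (1 + R) ^ 2 := by nlinarith
  nlinarith [sq_nonneg (1 + t)]

lemma expAR_const {l s0 R δ C : ℝ} (hl : 1 ≤ l) (hs : s0 + δ ≤ R ^ 2) (hC : 0 ≤ C) :
    (C * Real.exp (-2) * Real.exp (-(l * R ^ 2))) * (Real.exp (l * s0 - 1) / l)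
      ≤ C / l * Real.exp (-(l * δ) - 3) := by
  have l0 : 0 < l := by linarith
  have e1 : (C * Real.exp (-2) * Real.exp (-(l * R ^ 2))) * (Real.exp (l * s0 - 1) / l)
      = C / l * (Real.exp (-2) * Real.exp (-(l * R ^ 2)) * Real.exp (l * s0 - 1)) := by
    field_simp
  rw [e1, ← Real.exp_add, ← Real.exp_add]
  refine mul_le_mul_of_nonneg_left (Real.exp_le_exp.2 ?_) (by positivity)
  nlinarith

lemma expBR_const {l s0 R δ C : ℝ} (hl : 1 ≤ l) (hs : s0 + δ ≤ R ^ 2) (hC : 0 ≤ C) :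
    (C * Real.exp (-1) * Real.exp (-(l * R ^ 2))) * (Real.exp (l * s0 - 1) / l)
      ≤ C / l * Real.exp (-(l * δ) - 2) := by
  have l0 : 0 < l := by linarith
  have e1 : (C * Real.exp (-1) * Real.exp (-(l * R ^ 2))) * (Real.exp (l * s0 - 1) / l)
      = C / l * (Real.exp (-1) * Real.exp (-(l * R ^ 2)) * Real.exp (l * s0 - 1)) := by
    field_simp
  rw [e1, ← Real.exp_add, ← Real.exp_add]
  refine mul_le_mul_of_nonneg_left (Real.exp_le_exp.2 ?_) (by positivity)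
  nlinarith

section

variable {X : Type*} {E : Type*} [NormedAddCommGroup E] [InnerProductSpace ℝ E]
  [FiniteDimensional ℝ E] [TopologicalSpace X] [MeasurableSpace X] [CompactSpace X] [BorelSpace X]
  {μ : Measure X} {m : ℕ} {p n : X → E} {ι : Type*} [Fintype ι]

/-- the three tails for `a = |N - Jx|²`, `q = |Jx|²` (diagonal `J`), free radius -/
theorem rareR_diag [IsProbabilityMeasure μ] (h : OneP μ m p n) (b : OrthonormalBasis ι ℝ E)
    {j : ι → ℝ} {κ S l R δ : ℝ} (hj : ∀ a, j a ^ 2 ≤ κ * (m + 1))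
    (hS : ∑ a, j a ^ 2 ≤ S * (m + 1)) (hS0 : 0 ≤ S)
    (hl : 1 ≤ l) (hlk : 2 * l * κ < 1) (hR : 0 < R) (hδ : 0 < δ)
    (hs : S / (1 - 2 * l * κ) + δ ≤ R ^ 2) :
    ∫ x, max (ad b j p n x - (1 + R) ^ 2) 0 ^ 2 ∂μ
      ≤ (1 + 4 * (1 + R) ^ 2) / (δ * R ^ 2 * l ^ 2) / l * Real.exp (-(l * δ) - 3)
    ∧ ∫ x, ad b j p n x ^ 2 ∂μ
      ≤ (1 + R) ^ 2 * ∫ x, ad b j p n x ∂μ
        + (1 + (1 + R) ^ 2) * (1 + R) / (δ * R * l) / l * Real.exp (-(l * δ) - 2)
    ∧ ∫ x, qd b j p x * ad b j p n x ∂μ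
      ≤ R ^ 2 * ∫ x, ad b j p n x ∂μ
        + (1 + (1 + R) ^ 2) * (1 + R) / (δ * R * l) / l * Real.exp (-(l * δ) - 2) := by
  have l0 : 0 < l := by linarith
  have cp := h.cp
  have cn := h.cn
  have cq : Continuous fun x => qd b j p x := by
    unfold qd
    fun_prop
  have ca : Continuous fun x => ad b j p n x := by
    unfold ad
    fun_prop
  have hrow := exp_row_diag h b hj hS l0.le hlk
  have hs0' : 0 ≤ S / (1 - 2 * l * κ) := div_nonneg hS0 (by linarith)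
  set s0 := S / (1 - 2 * l * κ) with hs0
  have hi : Integrable (fun x => Real.exp (l * qd b j p x) * (qd b j p x - s0)) μ :=
    int_of_cont (by fun_prop)
  have s1 : ∀ x, 0 ≤ √(qd b j p x) := fun x => Real.sqrt_nonneg _
  have s2 : ∀ x, √(qd b j p x) ^ 2 = qd b j p x := fun x => Real.sq_sqrt (qd_nonneg b j x)
  have ha0 : ∀ x, 0 ≤ ad b j p n x := fun x => ad_nonneg b j x
  have hCA : 0 ≤ (1 + 4 * (1 + R) ^ 2) / (δ * R ^ 2 * l ^ 2) := by positivity
  have hCB : 0 ≤ (1 + (1 + R) ^ 2) * (1 + R) / (δ * R * l) := by positivity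
  refine ⟨?_, ?_, ?_⟩
  · have hK : 0 ≤ (1 + 4 * (1 + R) ^ 2) / (δ * R ^ 2 * l ^ 2) * Real.exp (-2)
        * Real.exp (-(l * R ^ 2)) := by positivity
    refine (tail_of_row l0 hK hi hrow (w := fun x => max (ad b j p n x - (1 + R) ^ 2) 0 ^ 2)
      (int_of_cont (by fun_prop)) fun x => ?_).trans (expAR_const hl hs hCA)
    have e0 : 0 ≤ ((1 + 4 * (1 + R) ^ 2) / (δ * R ^ 2 * l ^ 2) * Real.exp (-2)
        * Real.exp (-(l * R ^ 2))) * (Real.exp (l * qd b j p x) * max (qd b j p x - s0) 0) :=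
      mul_nonneg hK (mul_nonneg (Real.exp_pos _).le (le_max_right _ _))
    rcases le_total (ad b j p n x) ((1 + R) ^ 2) with hc | hc
    · rw [max_eq_right (a := ad b j p n x - (1 + R) ^ 2) (by linarith)]
      simpa using e0
    · rw [max_eq_left (a := ad b j p n x - (1 + R) ^ 2) (by linarith)]
      have h2 : (1 + R) ^ 2 ≤ (1 + √(qd b j p x)) ^ 2 := hc.trans (ad_le h b j x)
      have h3 : R ≤ √(qd b j p x) := by
        by_contra hcc
        push Not at hcc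
        nlinarith [s1 x]
      have h4 := numAR hl hR hδ hs _ h3
      rw [s2] at h4
      refine (pow_le_pow_left₀ (by linarith) ?_ 2).trans (h4.trans
        (mul_le_mul_of_nonneg_left ?_ hK))
      · linarith [ad_le h b j x]
      · exact mul_le_mul_of_nonneg_left (le_max_left _ _) (Real.exp_pos _).le
  · have hK : 0 ≤ (1 + (1 + R) ^ 2) * (1 + R) / (δ * R * l) * Real.exp (-1)
        * Real.exp (-(l * R ^ 2)) := by positivity
    have h1 := four_of_row l0 hK hR.le hi hrow ha0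
      (fun x => qd_nonneg b j x) (ad_le h b j) (int_of_cont ca) (int_of_cont (by fun_prop))
      (numBR hl hR hδ hs hs0')
    have h2 := expBR_const hl hs hCB
    linarith
  · have hK : 0 ≤ (1 + (1 + R) ^ 2) * (1 + R) / (δ * R * l) * Real.exp (-1)
        * Real.exp (-(l * R ^ 2)) := by positivity
    have h1 := tail_of_row l0 hK hi hrow
      (w := fun x => qd b j p x * ad b j p n x - R ^ 2 * ad b j p n x)
      (int_of_cont (by fun_prop)) fun x => ?_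
    · rw [integral_sub (int_of_cont (by fun_prop)) (int_of_cont (by fun_prop)),
        integral_const_mul] at h1
      have h2 := expBR_const hl hs hCB
      linarith
    · have e0 : 0 ≤ ((1 + (1 + R) ^ 2) * (1 + R) / (δ * R * l) * Real.exp (-1)
          * Real.exp (-(l * R ^ 2))) * (Real.exp (l * qd b j p x) * max (qd b j p x - s0) 0) :=
        mul_nonneg hK (mul_nonneg (Real.exp_pos _).le (le_max_right _ _))
      rcases le_total (qd b j p x) (R ^ 2) with hc | hc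
      · have : qd b j p x * ad b j p n x - R ^ 2 * ad b j p n x ≤ 0 := by
          nlinarith [ha0 x]
        linarith
      · have h3 : R ≤ √(qd b j p x) := by
          rw [← Real.sqrt_sq hR.le]
          exact Real.sqrt_le_sqrt hc
        have h4 := numCR hl hR hδ hs hs0' _ h3
        rw [s2] at h4
        have h5 : qd b j p x * ad b j p n x - R ^ 2 * ad b j p n x
            ≤ (qd b j p x - R ^ 2) * (1 + √(qd b j p x)) ^ 2 := by
          have k1 : qd b j p x * ad b j p n x - R ^ 2 * ad b j p n x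
              = (qd b j p x - R ^ 2) * ad b j p n x := by ring
          rw [k1]
          exact mul_le_mul_of_nonneg_left (ad_le h b j x) (by linarith)
        refine h5.trans (h4.trans (mul_le_mul_of_nonneg_left ?_ hK))
        exact mul_le_mul_of_nonneg_left (le_max_left _ _) (Real.exp_pos _).le

variable [DecidableEq ι]

/-- bounds for the least squares matrix in terms of `ν ≥ max E N_a²` -/
theorem jj_bounds (b : OrthonormalBasis ι ℝ E) {j : ι → ℝ}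
    (hT : T0Data μ m (cob b p) (cob b n))
    (hL : LSq μ (Matrix.diagonal j) (cob b p) (cob b n)) {ν : ℝ} (hν1 : ν < 1)
    (hν : ∀ a, m2 μ (cob b n) (cob b n) a a ≤ ν) :
    (∀ a, j a ^ 2 ≤ ν / (1 - ν) * (m + 1)) ∧ ∑ a, j a ^ 2 ≤ 1 / (1 - ν) * (m + 1) := by
  have := hT.prob
  have hm : (0 : ℝ) ≤ m := Nat.cast_nonneg m
  have hh0 : 0 ≤ hh μ (Matrix.diagonal j) (cob b p) (cob b n) := hT.hh_nonneg _
  have h1ν : 0 < 1 - ν := by linarith
  constructor
  · intro a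
    have h1 := hT.GP a a
    rw [if_pos rfl] at h1
    have hG : 0 < m2 μ (cob b p) (cob b p) a a := by
      by_contra hc
      push Not at hc
      have := hν a
      nlinarith
    have h2 := j_sq_le hT hm hL a (hν a) hG
    rw [div_mul_eq_mul_div, le_div_iff₀ h1ν]
    linarith
  · have h1 := j_sum_sq hT hL hν
    have h2 : (m + 1 : ℝ) * (1 - hh μ (Matrix.diagonal j) (cob b p) (cob b n)) ≤ m + 1 := by
      nlinarith
    rw [div_mul_eq_mul_div, le_div_iff₀ h1ν]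
    linarith

/-- the three tails for the least squares matrix with `E N ⊗ N ≤ ν`, free radius `R` and free
exponent `l` -/
theorem rareR_le (h : OneP μ m p n) (b : OrthonormalBasis ι ℝ E) {j : ι → ℝ}
    (hT : T0Data μ m (cob b p) (cob b n))
    (hL : LSq μ (Matrix.diagonal j) (cob b p) (cob b n)) {ν l R δ : ℝ} (hν0 : 0 ≤ ν)
    (hν : ∀ a, m2 μ (cob b n) (cob b n) a a ≤ ν) (hl : 1 ≤ l) (hlν : (2 * l + 1) * ν < 1)
    (hR : 0 < R) (hδ : 0 < δ) (hs : 1 / (1 - (2 * l + 1) * ν) + δ ≤ R ^ 2) :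
    ∫ x, max (ad b j p n x - (1 + R) ^ 2) 0 ^ 2 ∂μ
      ≤ (1 + 4 * (1 + R) ^ 2) / (δ * R ^ 2 * l ^ 2) / l * Real.exp (-(l * δ) - 3)
    ∧ ∫ x, ad b j p n x ^ 2 ∂μ
      ≤ (1 + R) ^ 2 * hh μ (Matrix.diagonal j) (cob b p) (cob b n)
        + (1 + (1 + R) ^ 2) * (1 + R) / (δ * R * l) / l * Real.exp (-(l * δ) - 2)
    ∧ ∫ x, qd b j p x * ad b j p n x ∂μ
      ≤ R ^ 2 * hh μ (Matrix.diagonal j) (cob b p) (cob b n)
        + (1 + (1 + R) ^ 2) * (1 + R) / (δ * R * l) / l * Real.exp (-(l * δ) - 2) := by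
  have := hT.prob
  have hν1 : ν < 1 := by nlinarith
  have h1ν : 0 < 1 - ν := by linarith
  obtain ⟨hj, hS⟩ := jj_bounds b hT hL hν1 hν
  have e1 : 1 - 2 * l * (ν / (1 - ν)) = (1 - (2 * l + 1) * ν) / (1 - ν) := by
    field_simp
    ring
  have hp : 0 < 1 - (2 * l + 1) * ν := by linarith
  have hlk : 2 * l * (ν / (1 - ν)) < 1 := by
    have : 0 < 1 - 2 * l * (ν / (1 - ν)) := by
      rw [e1]
      exact div_pos hp h1ν
    linarith
  have hs' : 1 / (1 - ν) / (1 - 2 * l * (ν / (1 - ν))) + δ ≤ R ^ 2 := by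
    rw [e1, div_div_div_cancel_right₀ h1ν.ne']
    exact hs
  have h1 := rareR_diag h b hj hS (by positivity) hl hlk hR hδ hs'
  have e2 : ∫ x, ad b j p n x ∂μ = hh μ (Matrix.diagonal j) (cob b p) (cob b n) := by
    simp only [ad_eq]
    rfl
  rw [e2] at h1
  exact h1

/-- the choice `l = ((1 - 1/R)/ν - 1)/2`: tails of size `exp (-(R-1)²/(2ν))` -/
theorem rareR_opt (h : OneP μ m p n) (b : OrthonormalBasis ι ℝ E) {j : ι → ℝ}
    (hT : T0Data μ m (cob b p) (cob b n))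
    (hL : LSq μ (Matrix.diagonal j) (cob b p) (cob b n)) {ν R : ℝ} (hν0 : 0 < ν)
    (hν : ∀ a, m2 μ (cob b n) (cob b n) a a ≤ ν) (hR : 1 < R) (hνR : 3 * ν ≤ 1 - 1 / R) :
    ∫ x, max (ad b j p n x - (1 + R) ^ 2) 0 ^ 2 ∂μ
      ≤ (1 + 4 * (1 + R) ^ 2) / (R ^ 3 * (R - 1)) / (((1 - 1 / R) / ν - 1) / 2) ^ 3
        * Real.exp (-((R - 1) ^ 2 / (2 * ν)) + R * (R - 1) / 2 - 3)
    ∧ ∫ x, ad b j p n x ^ 2 ∂μ
      ≤ (1 + R) ^ 2 * hh μ (Matrix.diagonal j) (cob b p) (cob b n)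
        + (1 + (1 + R) ^ 2) * (1 + R) / (R ^ 2 * (R - 1)) / (((1 - 1 / R) / ν - 1) / 2) ^ 2
          * Real.exp (-((R - 1) ^ 2 / (2 * ν)) + R * (R - 1) / 2 - 2)
    ∧ ∫ x, qd b j p x * ad b j p n x ∂μ
      ≤ R ^ 2 * hh μ (Matrix.diagonal j) (cob b p) (cob b n)
        + (1 + (1 + R) ^ 2) * (1 + R) / (R ^ 2 * (R - 1)) / (((1 - 1 / R) / ν - 1) / 2) ^ 2
          * Real.exp (-((R - 1) ^ 2 / (2 * ν)) + R * (R - 1) / 2 - 2) := by
  have hR0 : 0 < R := by linarith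
  set l := ((1 - 1 / R) / ν - 1) / 2 with hl
  have hl1 : 1 ≤ l := by
    have : 3 ≤ (1 - 1 / R) / ν := by rw [le_div_iff₀ hν0]; exact hνR
    linarith
  have l0 : 0 < l := by linarith
  have e1 : (2 * l + 1) * ν = 1 - 1 / R := by
    rw [hl]
    field_simp
    ring
  have e2 : 1 / (1 - (2 * l + 1) * ν) + R * (R - 1) = R ^ 2 := by
    rw [e1]
    field_simp
    ring
  have h0 : 0 < R * (R - 1) := mul_pos hR0 (by linarith)
  have h1 := rareR_le h b hT hL hν0.le hν hl1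
    (by rw [e1]; have : 0 < 1 / R := by positivity
        linarith) hR0 h0 e2.le
  have e3 : l * (R * (R - 1)) = (R - 1) ^ 2 / (2 * ν) - R * (R - 1) / 2 := by
    rw [hl]
    field_simp
  have e4 : (1 + 4 * (1 + R) ^ 2) / (R * (R - 1) * R ^ 2 * l ^ 2) / l
      = (1 + 4 * (1 + R) ^ 2) / (R ^ 3 * (R - 1)) / l ^ 3 := by
    rw [div_div, div_div]
    congr 1
    ring
  have e5 : (1 + (1 + R) ^ 2) * (1 + R) / (R * (R - 1) * R * l) / l
      = (1 + (1 + R) ^ 2) * (1 + R) / (R ^ 2 * (R - 1)) / l ^ 2 := by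
    rw [div_div, div_div]
    congr 1
    ring
  have e6 : -((R - 1) ^ 2 / (2 * ν) - R * (R - 1) / 2) - 3
      = -((R - 1) ^ 2 / (2 * ν)) + R * (R - 1) / 2 - 3 := by ring
  have e7 : -((R - 1) ^ 2 / (2 * ν) - R * (R - 1) / 2) - 2
      = -((R - 1) ^ 2 / (2 * ν)) + R * (R - 1) / 2 - 2 := by ring
  rw [e3, e4, e5, e6, e7] at h1
  exact h1

end

end Vale.Agent.P224.R2.H662
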