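import Vale.Agent.P224.R2.H662.RareC

/-!
The rare part: closed instances, under the relation `ν³ ≤ c h`.
-/

namespace Vale.Agent.P224.R2.H662

open MeasureTheory Module Function Set Vale.Agent.P224.R2.H470 Vale.Agent.P224.R2.H728
open scoped RealInnerProductSpace Topology

set_option linter.unusedSectionVars false

/-- decay of the exponential in `1/ν` -/
lemma exp_inv_le {g ν ν1 : ℝ} (k : ℕ) (h0 : 0 < ν) (h1 : ν ≤ ν1) (hk : k * ν1 ≤ g) :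
    Real.exp (-(g / ν)) ≤ Real.exp (-(g / ν1)) * (ν / ν1) ^ k := by
  have h1' : 0 < ν1 := h0.trans_le h1
  have hr : 0 < ν1 / ν := by positivity
  have h2 : (ν1 / ν) ^ k ≤ Real.exp (k * (ν1 / ν - 1)) := by
    rw [Real.exp_nat_mul]
    refine pow_le_pow_left₀ hr.le ?_ k
    have := Real.add_one_le_exp (ν1 / ν - 1)
    linarith
  have hr1 : 1 ≤ ν1 / ν := (one_le_div h0).2 h1
  have h3 : (k : ℝ) * (ν1 / ν - 1) ≤ g / ν1 * (ν1 / ν - 1) := by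
    refine mul_le_mul_of_nonneg_right ?_ (by linarith)
    rw [le_div_iff₀ h1']
    exact hk
  have e1 : g / ν1 * (ν1 / ν - 1) = g / ν - g / ν1 := by
    field_simp
  have h4 : (ν1 / ν) ^ k ≤ Real.exp (g / ν - g / ν1) := by
    rw [← e1]
    exact h2.trans (Real.exp_le_exp.2 h3)
  have e2 : (ν / ν1) ^ k = ((ν1 / ν) ^ k)⁻¹ := by
    rw [← inv_pow, inv_div]
  rw [e2, ← div_eq_mul_inv, le_div_iff₀ (by positivity)]
  calc Real.exp (-(g / ν)) * (ν1 / ν) ^ k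
      ≤ Real.exp (-(g / ν)) * Real.exp (g / ν - g / ν1) :=
        mul_le_mul_of_nonneg_left h4 (Real.exp_pos _).le
    _ = Real.exp (-(g / ν1)) := by rw [← Real.exp_add]; congr 1; ring

/-- the two tails decay like powers of `ν` -/
lemma tail_pow {C R ν ν1 δ : ℝ} (i k : ℕ) (hC : 0 ≤ C) (h0 : 0 < ν) (h1 : ν ≤ ν1)
    (h3 : 3 * ν1 ≤ 1 - 1 / R) (hk : k * ν1 ≤ (R - 1) ^ 2 / 2) :
    C / (((1 - 1 / R) / ν - 1) / 2) ^ i * Real.exp (-((R - 1) ^ 2 / (2 * ν)) + δ)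
      ≤ (C / (((1 - 1 / R) / ν1 - 1) / 2) ^ i * Real.exp (-((R - 1) ^ 2 / (2 * ν1)) + δ))
        * (ν / ν1) ^ (i + k) := by
  have h1' : 0 < ν1 := h0.trans_le h1
  set w := 1 - 1 / R with hw
  have w0 : 0 < w := by nlinarith
  have l1 : 0 < (w / ν1 - 1) / 2 := by
    have : 3 ≤ w / ν1 := by rw [le_div_iff₀ h1']; exact h3
    linarith
  have l2 : (w / ν1 - 1) / 2 * (ν1 / ν) ≤ (w / ν - 1) / 2 := by
    have e : (w / ν1 - 1) / 2 * (ν1 / ν) = (w / ν - ν1 / ν) / 2 := by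
      field_simp
    rw [e]
    have : 1 ≤ ν1 / ν := (one_le_div h0).2 h1
    linarith
  have l3 : 0 < (w / ν1 - 1) / 2 * (ν1 / ν) := by positivity
  have h4 : C / ((w / ν - 1) / 2) ^ i ≤ C / ((w / ν1 - 1) / 2) ^ i * (ν / ν1) ^ i := by
    have k1 : C / ((w / ν - 1) / 2) ^ i ≤ C / ((w / ν1 - 1) / 2 * (ν1 / ν)) ^ i :=
      div_le_div_of_nonneg_left hC (by positivity) (pow_le_pow_left₀ l3.le l2 i)
    refine k1.trans (le_of_eq ?_)
    have e2 : (ν / ν1) ^ i = ((ν1 / ν) ^ i)⁻¹ := by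
      rw [← inv_pow, inv_div]
    rw [e2, mul_pow]
    field_simp
  have h5 := exp_inv_le (g := (R - 1) ^ 2 / 2) k h0 h1 hk
  have e3 : ∀ v : ℝ, (R - 1) ^ 2 / 2 / v = (R - 1) ^ 2 / (2 * v) := fun v => by rw [div_div]
  rw [e3, e3] at h5
  rw [Real.exp_add, Real.exp_add]
  calc C / ((w / ν - 1) / 2) ^ i * (Real.exp (-((R - 1) ^ 2 / (2 * ν))) * Real.exp δ)
      ≤ (C / ((w / ν1 - 1) / 2) ^ i * (ν / ν1) ^ i)
        * ((Real.exp (-((R - 1) ^ 2 / (2 * ν1))) * (ν / ν1) ^ k) * Real.exp δ) := by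
        refine mul_le_mul h4 (mul_le_mul_of_nonneg_right h5 (Real.exp_pos _).le)
          (by positivity) (by positivity)
    _ = _ := by rw [pow_add]; ring

section

variable {X : Type*} {E : Type*} [NormedAddCommGroup E] [InnerProductSpace ℝ E]
  [FiniteDimensional ℝ E] [TopologicalSpace X] [MeasurableSpace X] [CompactSpace X] [BorelSpace X]
  {μ : Measure X} {m : ℕ} {p n : X → E} {ι : Type*} [Fintype ι] [DecidableEq ι]

/-- the closed form: numeric conditions at one point `ν1` only -/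
theorem rare_closed (h : OneP μ m p n) (b : OrthonormalBasis ι ℝ E) {j : ι → ℝ}
    (hT : T0Data μ m (cob b p) (cob b n))
    (hL : LSq μ (Matrix.diagonal j) (cob b p) (cob b n)) {ν ν1 R c θ : ℝ} (hν0 : 0 < ν)
    (hν : ∀ a, m2 μ (cob b n) (cob b n) a a ≤ ν) (hR : 1 < R) (h1 : ν ≤ ν1)
    (h3 : 3 * ν1 ≤ 1 - 1 / R) (h6 : 6 * ν1 ≤ (R - 1) ^ 2) (hc0 : 0 < c) (hθ : 0 ≤ θ)
    (hc : ν ^ 3 ≤ c * hh μ (Matrix.diagonal j) (cob b p) (cob b n))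
    (hA : (1 + 4 * (1 + R) ^ 2) / (R ^ 3 * (R - 1)) / (((1 - 1 / R) / ν1 - 1) / 2) ^ 3
        * Real.exp (-((R - 1) ^ 2 / (2 * ν1)) + (R * (R - 1) / 2 - 3))
        ≤ θ ^ 2 * (ν1 ^ 3 / c) ^ 2)
    (hB : (1 + (1 + R) ^ 2) * (1 + R) / (R ^ 2 * (R - 1)) / (((1 - 1 / R) / ν1 - 1) / 2) ^ 2
          * Real.exp (-((R - 1) ^ 2 / (2 * ν1)) + (R * (R - 1) / 2 - 2))
        ≤ 1 / 100 * (ν1 ^ 3 / c)) :
    ∫ x, max (ad b j p n x - (1 + R) ^ 2) 0 ^ 2 ∂μ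
      ≤ (θ * hh μ (Matrix.diagonal j) (cob b p) (cob b n)) ^ 2
    ∧ ∫ x, ad b j p n x ^ 2 ∂μ
      ≤ ((1 + R) ^ 2 + 1 / 100) * hh μ (Matrix.diagonal j) (cob b p) (cob b n)
    ∧ ∫ x, qd b j p x * ad b j p n x ∂μ
      ≤ (R ^ 2 + 1 / 100) * hh μ (Matrix.diagonal j) (cob b p) (cob b n) := by
  have hR0 : 0 < R := by linarith
  have hR1 : 0 < R - 1 := by linarith
  have h1' : 0 < ν1 := hν0.trans_le h1
  obtain ⟨r1, r2, r3⟩ := rareR_opt h b hT hL hν0 hν hR (by linarith)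
  set H := hh μ (Matrix.diagonal j) (cob b p) (cob b n) with hH
  have hr : ν / ν1 ≤ 1 := (div_le_one h1').2 h1
  have hr0 : 0 < ν / ν1 := by positivity
  have tA := tail_pow (δ := R * (R - 1) / 2 - 3) (C := (1 + 4 * (1 + R) ^ 2) / (R ^ 3 * (R - 1)))
    3 3 (by positivity) hν0 h1 h3 (by push_cast; linarith)
  have tB := tail_pow (δ := R * (R - 1) / 2 - 2)
    (C := (1 + (1 + R) ^ 2) * (1 + R) / (R ^ 2 * (R - 1)))
    2 1 (by positivity) hν0 h1 h3 (by push_cast; linarith)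
  have eA : -((R - 1) ^ 2 / (2 * ν)) + R * (R - 1) / 2 - 3
      = -((R - 1) ^ 2 / (2 * ν)) + (R * (R - 1) / 2 - 3) := by ring
  have eB : -((R - 1) ^ 2 / (2 * ν)) + R * (R - 1) / 2 - 2
      = -((R - 1) ^ 2 / (2 * ν)) + (R * (R - 1) / 2 - 2) := by ring
  rw [eA] at r1
  rw [eB] at r2 r3
  have hH0 : ν ^ 3 / c ≤ H := by
    rw [div_le_iff₀ hc0]
    linarith
  have hn0 : 0 ≤ ν ^ 3 / c := by positivity
  have sA : θ ^ 2 * (ν1 ^ 3 / c) ^ 2 * (ν / ν1) ^ (3 + 3) ≤ (θ * H) ^ 2 := by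
    have e : θ ^ 2 * (ν1 ^ 3 / c) ^ 2 * (ν / ν1) ^ (3 + 3) = (θ * (ν ^ 3 / c)) ^ 2 := by
      have k1 : (ν / ν1) ^ (3 + 3) = ν ^ 6 / ν1 ^ 6 := by rw [div_pow]
      rw [k1]
      field_simp
    rw [e]
    exact pow_le_pow_left₀ (by positivity) (mul_le_mul_of_nonneg_left hH0 hθ) 2
  have sB : 1 / 100 * (ν1 ^ 3 / c) * (ν / ν1) ^ (2 + 1) ≤ 1 / 100 * H := by
    have e : 1 / 100 * (ν1 ^ 3 / c) * (ν / ν1) ^ (2 + 1) = 1 / 100 * (ν ^ 3 / c) := by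
      have k1 : (ν / ν1) ^ (2 + 1) = ν ^ 3 / ν1 ^ 3 := by rw [div_pow]
      rw [k1]
      field_simp
    rw [e]
    linarith
  have vA := tA.trans ((mul_le_mul_of_nonneg_right hA (by positivity)).trans sA)
  have vB := tB.trans ((mul_le_mul_of_nonneg_right hB (by positivity)).trans sB)
  refine ⟨r1.trans vA, ?_, ?_⟩
  · linarith
  · linarith

end

end Vale.Agent.P224.R2.H662
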