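import Vale.Agent.P224.R2.H662.SBig
import Vale.Agent.P224.R2.H460.Zi

/-!
The lower bound of the level integral for a large defect, `h ≥ 1/20`.
-/

namespace Vale.Agent.P224.R2.H662

open MeasureTheory Module Function Set Filter Vale.Agent.P224.R2.H470 Vale.Agent.P224.R2.H460
open scoped RealInnerProductSpace Topology

set_option linter.unusedSectionVars false

/-- an inequality on `(0, a]` extends to `0` -/
lemma le_of_Ioc {f g : ℝ → ℝ} {a : ℝ} (ha : 0 < a) (cf : ContinuousOn f (Icc 0 a))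
    (cg : ContinuousOn g (Icc 0 a)) (h : ∀ T ∈ Ioc 0 a, f T ≤ g T) : ∀ T ∈ Icc 0 a, f T ≤ g T := by
  intro T hT
  rcases eq_or_lt_of_le hT.1 with h0 | h0
  · subst h0
    have hm : (0 : ℝ) ∈ Icc 0 a := ⟨le_rfl, ha.le⟩
    have t1 : Tendsto f (𝓝[Ioc 0 a] 0) (𝓝 (f 0)) := (cf 0 hm).mono_left
      (nhdsWithin_mono _ Ioc_subset_Icc_self)
    have t2 : Tendsto g (𝓝[Ioc 0 a] 0) (𝓝 (g 0)) := (cg 0 hm).mono_left
      (nhdsWithin_mono _ Ioc_subset_Icc_self)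
    have : (𝓝[Ioc 0 a] (0 : ℝ)).NeBot := left_nhdsWithin_Ioc_neBot ha
    exact le_of_tendsto_of_tendsto t1 t2 (eventually_nhdsWithin_of_forall h)
  · exact h T ⟨h0, hT.2⟩

/-- the scalar inequality of the large defect -/
lemma big_scal {T r : ℝ} (h0 : 0 ≤ T)
    (hr : r = 1 / 31 * (1 + T * (13 / 2)) + T) :
    9 / 10 - 61 * T ≤ (1 - (9 / 100 + 478 / 10 * T) - r ^ 2) * (1 - T * (13 / 2) / (2 * (4 / 5)))
      - T * (13 / 2) * (4 / 5) / 2 - 3 * T ^ 2 * (13 / 2) ^ 2 - 8 * T := by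
  subst hr
  have e : (1 - (9 / 100 + 478 / 10 * T) - (1 / 31 * (1 + T * (13 / 2)) + T) ^ 2)
      * (1 - T * (13 / 2) / (2 * (4 / 5)))
      - T * (13 / 2) * (4 / 5) / 2 - 3 * T ^ 2 * (13 / 2) ^ 2 - 8 * T
      = (9 / 10 - 61 * T) + (861 / 96100 - 360011 / 307520 * T + 509647 / 7688 * T ^ 2
        + 365625 / 61504 * T ^ 3) := by ring
  rw [e]
  have h3 : 0 ≤ T ^ 3 := by positivity
  nlinarith [sq_nonneg (T - 9 / 1000)]

/-- a cubic polynomial -/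
lemma int_poly3 (a b c d t : ℝ) : ∫ T in (0 : ℝ)..t, (a + b * T + c * T ^ 2 + d * T ^ 3)
    = a * t + b * t ^ 2 / 2 + c * t ^ 3 / 3 + d * t ^ 4 / 4 := by
  rw [intervalIntegral.integral_add (Continuous.intervalIntegrable (by fun_prop) _ _)
      (Continuous.intervalIntegrable (by fun_prop) _ _),
    intervalIntegral.integral_add (Continuous.intervalIntegrable (by fun_prop) _ _)
      (Continuous.intervalIntegrable (by fun_prop) _ _),
    intervalIntegral.integral_add (Continuous.intervalIntegrable (by fun_prop) _ _)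
      (Continuous.intervalIntegrable (by fun_prop) _ _),
    intervalIntegral.integral_const_mul, intervalIntegral.integral_const_mul,
    intervalIntegral.integral_const_mul, intervalIntegral.integral_const, integral_id,
    integral_pow, integral_pow]
  simp only [smul_eq_mul]
  norm_num
  ring

section

variable {X : Type*} {E : Type*} [NormedAddCommGroup E] [InnerProductSpace ℝ E]
  [FiniteDimensional ℝ E] [MeasurableSpace E] [BorelSpace E]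
variable [TopologicalSpace X] [MeasurableSpace X] [SecondCountableTopology X]
variable [CompactSpace X] [BorelSpace X] {μ : Measure X} [IsProbabilityMeasure μ] {m : ℕ}
  {p n : X → E} {z : X → E}

/-- the bound at level `T` for a large defect -/
theorem big_level [Nontrivial E] (h : OneP μ m p n) (hm : 1000 ≤ m) (hd : finrank ℝ E = m + 2)
    (hP : ∀ b : E, ∫ y, ⟪n y, b⟫ ^ 2 ∂μ ≤ 9 / 100 * ‖b‖ ^ 2) (hz : Continuous z)
    {J : E →L[ℝ] E} (hJ : ∀ u v, ⟪J u, v⟫ = ⟪u, J v⟫) (hzJ : ∀ x, z x = n x - J (p x))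
    (hH : 1 / 20 ≤ ∫ x, ‖z x‖ ^ 2 ∂μ)
    (hg : ∫ x, (max (‖z x‖ ^ 2 - 16) 0) ^ 2 ∂μ ≤ (1 / 10 ^ 5) ^ 2)
    (h4 : ∫ x, ‖z x‖ ^ 4 ∂μ ≤ (16 + 1 / 100) * ∫ x, ‖z x‖ ^ 2 ∂μ) {T : ℝ} (h0 : 0 < T)
    (h1 : T ≤ 29 / 2000) (hC : cw m T * Cr μ m p n z T ≤ 8 * T * ∫ x, ‖z x‖ ^ 2 ∂μ) :
    (9 / 10 - 61 * T) * (∫ x, ‖z x‖ ^ 2 ∂μ) - ((∫ x, ‖z x‖ ^ 2 ∂μ) - cw m T * ph μ m p z T)
      ≤ cw m T * LL μ m p z T := by
  set H := ∫ x, ‖z x‖ ^ 2 ∂μ with hHd
  have hT1 : T < 1 := by linarith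
  have hH0 : 0 < H := by linarith
  have hm1 : 1 ≤ m := by omega
  have hmR : (1000 : ℝ) ≤ m := by exact_mod_cast hm
  -- the normal part
  have hs : cw m T * SS μ m p n z T ≤ (9 / 100 + 478 / 10 * T) * H := by
    have k1 := SS_crude h hm1 hd hP h0 (T1 := 1 / 2) (by linarith) (by norm_num) hz
    rw [← hHd] at k1
    have k2 : √(∫ x, ‖z x‖ ^ 4 ∂μ) ≤ 179 / 10 * H := by
      rw [Real.sqrt_le_left (by positivity)]
      nlinarith
    have k3 : 0 ≤ √(∫ x, ‖z x‖ ^ 4 ∂μ) := Real.sqrt_nonneg _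
    have k4 : 9 / 100 * H + T / (1 / 2) * (1 / (1 - (1 / 2) ^ 2)) * √(∫ x, ‖z x‖ ^ 4 ∂μ)
        ≤ (9 / 100 + 478 / 10 * T) * H := by
      have k5 := mul_le_mul_of_nonneg_left k2 h0.le
      have k6 : 0 ≤ T * H := by positivity
      norm_num
      linarith
    have k7 : 0 ≤ 9 / 100 * H + T / (1 / 2) * (1 / (1 - (1 / 2) ^ 2)) * √(∫ x, ‖z x‖ ^ 4 ∂μ) := by
      positivity
    nlinarith [sq_nonneg T]
  -- the fluctuation constant
  have hη : √(3 * (1 + T) / (1 - T) ^ 3) * (1 / 10 ^ 5) ≤ (1 / 50) ^ 2 * H := by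
    have k1 : √(3 * (1 + T) / (1 - T) ^ 3) ≤ 2 := by
      rw [Real.sqrt_le_left (by norm_num), div_le_iff₀ (by
        have : 0 < 1 - T := by linarith
        positivity)]
      have k2 : (9 / 10 : ℝ) ≤ (1 - T) ^ 3 := by
        have : (1971 / 2000 : ℝ) ^ 3 ≤ (1 - T) ^ 3 :=
          pow_le_pow_left₀ (by norm_num) (by linarith) 3
        refine le_trans ?_ this
        norm_num
      linarith
    have k3 : √(3 * (1 + T) / (1 - T) ^ 3) * (1 / 10 ^ 5) ≤ 2 * (1 / 10 ^ 5) :=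
      mul_le_mul_of_nonneg_right k1 (by norm_num)
    refine k3.trans ?_
    norm_num
    linarith
  refine level2 (A0 := 16) (ε := 1 / 10 ^ 5) (γ := 8 * T) (η := 1 / 50) (m1 := 1 / 31)
    (u := 537 / 100) (v := 13 / 2) (s := 9 / 100 + 478 / 10 * T)
    (r := 1 / 31 * (1 + T * (13 / 2)) + T) (θ := 4 / 5) (ℓ := 9 / 10 - 61 * T)
    h hm1 h0.le hT1 hz hJ hzJ hH0 (by norm_num) (by norm_num) hg hs hC (by norm_num) hη
    (by linarith) (by norm_num) (by norm_num) (by linarith) ?_ (by norm_num) le_rfl (by norm_num)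
    (by linarith) ?_ (big_scal h0.le rfl)
  · rw [div_le_iff₀ (by linarith)]
    nlinarith
  · nlinarith [mul_nonneg h0.le h0.le]

/-- the integral over the levels for a large defect -/
theorem big [Nontrivial E] (h : OneP μ m p n) (hm : 1000 ≤ m) (hd : finrank ℝ E = m + 2)
    (hP : ∀ b : E, ∫ y, ⟪n y, b⟫ ^ 2 ∂μ ≤ 9 / 100 * ‖b‖ ^ 2) (hz : Continuous z)
    {J : E →L[ℝ] E} (hJ : ∀ u v, ⟪J u, v⟫ = ⟪u, J v⟫) (hzJ : ∀ x, z x = n x - J (p x))
    (hH : 1 / 20 ≤ ∫ x, ‖z x‖ ^ 2 ∂μ)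
    (hg : ∫ x, (max (‖z x‖ ^ 2 - 16) 0) ^ 2 ∂μ ≤ (1 / 10 ^ 5) ^ 2)
    (h4 : ∫ x, ‖z x‖ ^ 4 ∂μ ≤ (16 + 1 / 100) * ∫ x, ‖z x‖ ^ 2 ∂μ)
    (hC : ∀ T ∈ Ioc (0 : ℝ) (29 / 2000), cw m T * Cr μ m p n z T ≤ 8 * T * ∫ x, ‖z x‖ ^ 2 ∂μ)
    {q0 q1 : ℝ} (hq1 : 0 ≤ q1) (hq : q1 * (29 / 2000) ≤ q0) :
    (∫ x, ‖z x‖ ^ 2 ∂μ) * (66 / 10 ^ 4 * q0 - 33 / 10 ^ 6 * q1)
      ≤ ∫ T in (0 : ℝ)..(29 / 2000), (q0 - q1 * T) * (cw m T * LL μ m p z T) := by
  set H := ∫ x, ‖z x‖ ^ 2 ∂μ with hHd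
  have hm1 : 1 ≤ m := by omega
  have hH0 : 0 < H := by linarith
  have hsub : Icc (0 : ℝ) (29 / 2000) ⊆ Ico (0 : ℝ) 1 := fun x hx =>
    ⟨hx.1, hx.2.trans_lt (by norm_num)⟩
  have cf : Continuous fun x => ‖z x‖ ^ 2 := by fun_prop
  have cΦ : ContinuousOn (fun T => cw m T * ph μ m p z T) (Icc 0 (29 / 2000)) :=
    (contOn_ph h.cp h.np cf).mono hsub
  have cL := (contOn_LL (μ := μ) h hz).mono hsub
  have hlev : ∀ T ∈ Icc (0 : ℝ) (29 / 2000), (9 / 10 - 61 * T) * H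
      - (H - cw m T * ph μ m p z T) ≤ cw m T * LL μ m p z T :=
    le_of_Ioc (by norm_num) (ContinuousOn.sub (by fun_prop) (continuousOn_const.sub cΦ)) cL
      fun T hT => big_level h hm hd hP hz hJ hzJ hH hg h4 hT.1 hT.2 (hC T hT)
  have hVb : ∀ T ∈ Icc (0 : ℝ) (29 / 2000), (1 - T) * √(cw m T * VV μ m p n z T)
      ≤ √(cw m T * ph μ m p z T) + √(2 * 16 * (cw m T * LL μ m p z T)) + 1 / 50 * √H := by
    intro T hT
    have hT1 : T < 1 := hT.2.trans_lt (by norm_num)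
    refine (nV h hm1 hT.1 hT1 hz hJ hzJ (by norm_num : (0 : ℝ) ≤ 16)
      (by norm_num : (0 : ℝ) ≤ 1 / 10 ^ 5) hg).trans ?_
    have k1 : √(3 * (1 + T) / (1 - T) ^ 3) ≤ 2 := by
      have hTs := hT.2
      rw [Real.sqrt_le_left (by norm_num), div_le_iff₀ (by
        have : 0 < 1 - T := by linarith
        positivity)]
      have k2 : (9 / 10 : ℝ) ≤ (1 - T) ^ 3 := by
        have : (1971 / 2000 : ℝ) ^ 3 ≤ (1 - T) ^ 3 :=
          pow_le_pow_left₀ (by norm_num) (by linarith) 3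
        refine le_trans ?_ this
        norm_num
      linarith
    have k3 : √(3 * (1 + T) / (1 - T) ^ 3) * (1 / 10 ^ 5) ≤ (1 / 50) ^ 2 * H := by
      refine (mul_le_mul_of_nonneg_right k1 (by norm_num)).trans ?_
      norm_num
      linarith
    have := sqrt_le_of_le hH0.le (by norm_num : (0 : ℝ) ≤ 1 / 50) k3
    linarith
  have key := Zint (ℓ := fun T => 9 / 10 - 61 * T) (A0 := 16) (η := 1 / 50) (δ := 1)
    (cs := 21 / 20) (q0 := q0) (q1 := q1) h hm1 hz (by norm_num : (0 : ℝ) < 29 / 2000)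
    (by norm_num) hq1 hq (by fun_prop) (by norm_num) (by norm_num) (by norm_num) hlev hVb
    (by norm_num)
  have i1 : ∫ T in (0 : ℝ)..(29 / 2000), (q0 - q1 * T) * (9 / 10 - 61 * T)
      = q0 * (9 / 10 * (29 / 2000) - 61 * (29 / 2000) ^ 2 / 2)
        - q1 * (9 / 10 * (29 / 2000) ^ 2 / 2 - 61 * (29 / 2000) ^ 3 / 3) := by
    have e1 : ∀ T : ℝ, (q0 - q1 * T) * (9 / 10 - 61 * T)
        = q0 * (9 / 10) + (-(61 * q0) - 9 / 10 * q1) * T + (61 * q1) * T ^ 2 + 0 * T ^ 3 :=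
      fun T => by ring
    simp_rw [e1]
    rw [int_poly3]
    ring
  have i2 : ∫ T in (0 : ℝ)..(29 / 2000), (q0 - q1 * T) * (T * (29 / 2000 - T))
      = q0 * ((29 / 2000) ^ 3 / 6) - q1 * ((29 / 2000) ^ 4 / 12) := by
    have e1 : ∀ T : ℝ, (q0 - q1 * T) * (T * (29 / 2000 - T))
        = 0 + (29 / 2000 * q0) * T + (-q0 - 29 / 2000 * q1) * T ^ 2 + q1 * T ^ 3 :=
      fun T => by ring
    simp_rw [e1]
    rw [int_poly3]
    ring
  rw [i1, i2] at key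
  set I := ∫ T in (0 : ℝ)..(29 / 2000), (q0 - q1 * T) * (cw m T * LL μ m p z T) with hI
  have hq0 : 0 ≤ q0 := le_trans (by positivity) hq
  have nI : 0 ≤ I := by
    refine intervalIntegral.integral_nonneg (by norm_num) fun T hT => ?_
    have hT1 : T < 1 := hT.2.trans_lt (by norm_num)
    have k1 := mul_le_mul_of_nonneg_left hT.2 hq1
    exact mul_nonneg (by linarith) (mul_nonneg (cw_pos hT.1 hT1).le (LL_nonneg hT.1 hT1 h.np))
  have c1 : (1 + 21 / 20 * ((1 + 1 / 1) * (2 * 16)) * ((29 / 2000) ^ 2 / 4) : ℝ) ≤ 1.0036 := by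
    norm_num
  have key2 := key.trans (mul_le_mul_of_nonneg_right c1 nI)
  have c2 : H * (1.0036 * (66 / 10 ^ 4 * q0 - 33 / 10 ^ 6 * q1)) ≤ 1.0036 * I := by
    refine le_trans (mul_le_mul_of_nonneg_left ?_ hH0.le) key2
    norm_num
    linarith
  have c3 : H * (1.0036 * (66 / 10 ^ 4 * q0 - 33 / 10 ^ 6 * q1))
      = 1.0036 * (H * (66 / 10 ^ 4 * q0 - 33 / 10 ^ 6 * q1)) := by ring
  rw [c3] at c2
  exact le_of_mul_le_mul_left c2 (by norm_num)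

end

end Vale.Agent.P224.R2.H662
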