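import Vale.Agent.P224.R2.H662.Exp

/-!
The fourth moment of the defect: abstract form.
-/

namespace Vale.Agent.P224.R2.H662

open MeasureTheory Function Set

set_option linter.unusedSectionVars false

section

variable {X : Type*} [MeasurableSpace X] {μ : Measure X}

lemma mul_exp_neg_le (u : ℝ) : u * Real.exp (-u) ≤ Real.exp (-1) := by
  have h1 := Real.add_one_le_exp (u - 1)
  have h2 : u ≤ Real.exp (u - 1) := by linarith
  calc u * Real.exp (-u) ≤ Real.exp (u - 1) * Real.exp (-u) :=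
        mul_le_mul_of_nonneg_right h2 (Real.exp_pos _).le
    _ = Real.exp (-1) := by rw [← Real.exp_add]; congr 1; ring

/-- the part below the threshold is bounded -/
lemma low_le {l s0 : ℝ} (hl : 0 < l) (q : ℝ) :
    Real.exp (l * q) * (s0 - q) ≤ Real.exp (l * s0 - 1) / l := by
  have h1 := mul_exp_neg_le (l * (s0 - q))
  rw [le_div_iff₀ hl]
  calc Real.exp (l * q) * (s0 - q) * l
      = (l * (s0 - q) * Real.exp (-(l * (s0 - q)))) * Real.exp (l * s0) := by
        have : Real.exp (l * q) = Real.exp (-(l * (s0 - q))) * Real.exp (l * s0) := by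
          rw [← Real.exp_add]; congr 1; ring
        rw [this]; ring
    _ ≤ Real.exp (-1) * Real.exp (l * s0) := mul_le_mul_of_nonneg_right h1 (Real.exp_pos _).le
    _ = Real.exp (l * s0 - 1) := by rw [← Real.exp_add]; congr 1; ring

/-- from the exponential row to tails: any `w` below `K (q - s0)₊ exp (l q)` -/
theorem tail_of_row [IsProbabilityMeasure μ] {q w : X → ℝ} {l s0 K : ℝ} (hl : 0 < l) (hK : 0 ≤ K)
    (hi : Integrable (fun x => Real.exp (l * q x) * (q x - s0)) μ)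
    (hrow : ∫ x, Real.exp (l * q x) * (q x - s0) ∂μ ≤ 0)
    (hw : Integrable w μ)
    (hle : ∀ x, w x ≤ K * (Real.exp (l * q x) * max (q x - s0) 0)) :
    ∫ x, w x ∂μ ≤ K * (Real.exp (l * s0 - 1) / l) := by
  have h1 : ∀ x, w x ≤ K * (Real.exp (l * q x) * (q x - s0)) + K * (Real.exp (l * s0 - 1) / l) := by
    intro x
    refine (hle x).trans ?_
    rw [← mul_add]
    refine mul_le_mul_of_nonneg_left ?_ hK
    rcases le_total (q x) s0 with h | h
    · rw [max_eq_right (by linarith), mul_zero]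
      have := low_le (s0 := s0) hl (q x)
      linarith
    · rw [max_eq_left (by linarith)]
      have : 0 ≤ Real.exp (l * s0 - 1) / l := div_nonneg (Real.exp_pos _).le hl.le
      linarith
  calc ∫ x, w x ∂μ
      ≤ ∫ x, (K * (Real.exp (l * q x) * (q x - s0)) + K * (Real.exp (l * s0 - 1) / l)) ∂μ :=
        integral_mono hw ((hi.const_mul K).add (integrable_const _)) h1
    _ = K * ∫ x, Real.exp (l * q x) * (q x - s0) ∂μ + K * (Real.exp (l * s0 - 1) / l) := by
        rw [integral_add (hi.const_mul K) (integrable_const _), integral_const_mul]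
        simp
    _ ≤ K * (Real.exp (l * s0 - 1) / l) := by
        have := mul_nonneg hK (neg_nonneg.2 hrow)
        linarith

/-- fourth moment: `E a² ≤ (1+R)² E a + tail` -/
theorem four_of_row [IsProbabilityMeasure μ] {q a : X → ℝ} {l s0 K R : ℝ} (hl : 0 < l)
    (hK : 0 ≤ K) (hR : 0 ≤ R)
    (hi : Integrable (fun x => Real.exp (l * q x) * (q x - s0)) μ)
    (hrow : ∫ x, Real.exp (l * q x) * (q x - s0) ∂μ ≤ 0)
    (ha0 : ∀ x, 0 ≤ a x) (hq0 : ∀ x, 0 ≤ q x) (haq : ∀ x, a x ≤ (1 + √(q x)) ^ 2)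
    (hai : Integrable a μ) (ha2 : Integrable (fun x => a x ^ 2) μ)
    (hnum : ∀ t : ℝ, R ≤ t → (1 + t) ^ 2 * ((1 + t) ^ 2 - (1 + R) ^ 2)
      ≤ K * (Real.exp (l * t ^ 2) * (t ^ 2 - s0))) :
    ∫ x, a x ^ 2 ∂μ ≤ (1 + R) ^ 2 * ∫ x, a x ∂μ + K * (Real.exp (l * s0 - 1) / l) := by
  have hw : Integrable (fun x => a x ^ 2 - (1 + R) ^ 2 * a x) μ := ha2.sub (hai.const_mul _)
  have h1 := tail_of_row (w := fun x => a x ^ 2 - (1 + R) ^ 2 * a x) hl hK hi hrow hw ?_
  · rw [integral_sub ha2 (hai.const_mul _), integral_const_mul] at h1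
    linarith
  · intro x
    have e0 : 0 ≤ K * (Real.exp (l * q x) * max (q x - s0) 0) :=
      mul_nonneg hK (mul_nonneg (Real.exp_pos _).le (le_max_right _ _))
    rcases le_or_gt (a x) ((1 + R) ^ 2) with h | h
    · have : a x ^ 2 - (1 + R) ^ 2 * a x ≤ 0 := by nlinarith [ha0 x]
      linarith
    · have s1 : 0 ≤ √(q x) := Real.sqrt_nonneg _
      have s2 : √(q x) ^ 2 = q x := Real.sq_sqrt (hq0 x)
      have h2 : (1 + R) ^ 2 < (1 + √(q x)) ^ 2 := h.trans_le (haq x)
      have h3 : R ≤ √(q x) := by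
        by_contra hc
        push Not at hc
        nlinarith
      have h4 := hnum (√(q x)) h3
      rw [s2] at h4
      have h5 : a x ^ 2 - (1 + R) ^ 2 * a x
          ≤ (1 + √(q x)) ^ 2 * ((1 + √(q x)) ^ 2 - (1 + R) ^ 2) := by
        have := haq x
        have k1 : a x ^ 2 - (1 + R) ^ 2 * a x = a x * (a x - (1 + R) ^ 2) := by ring
        rw [k1]
        exact mul_le_mul this (by linarith) (by linarith) (by positivity)
      refine h5.trans (h4.trans (mul_le_mul_of_nonneg_left ?_ hK))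
      exact mul_le_mul_of_nonneg_left (le_max_left _ _) (Real.exp_pos _).le

/-- the part of the second moment above a level: `E a² 1{a > (1+R)²} ≤ tail` -/
theorem above_of_row [IsProbabilityMeasure μ] {q a : X → ℝ} {l s0 K R : ℝ} (hl : 0 < l)
    (hK : 0 ≤ K) (hR : 0 ≤ R)
    (hi : Integrable (fun x => Real.exp (l * q x) * (q x - s0)) μ)
    (hrow : ∫ x, Real.exp (l * q x) * (q x - s0) ∂μ ≤ 0)
    (ha0 : ∀ x, 0 ≤ a x) (hq0 : ∀ x, 0 ≤ q x) (haq : ∀ x, a x ≤ (1 + √(q x)) ^ 2)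
    (hai : Integrable (fun x => if (1 + R) ^ 2 < a x then a x ^ 2 else 0) μ)
    (hnum : ∀ t : ℝ, R ≤ t → (1 + t) ^ 4 ≤ K * (Real.exp (l * t ^ 2) * (t ^ 2 - s0))) :
    ∫ x, (if (1 + R) ^ 2 < a x then a x ^ 2 else 0) ∂μ ≤ K * (Real.exp (l * s0 - 1) / l) := by
  refine tail_of_row hl hK hi hrow hai fun x => ?_
  have e0 : 0 ≤ K * (Real.exp (l * q x) * max (q x - s0) 0) :=
    mul_nonneg hK (mul_nonneg (Real.exp_pos _).le (le_max_right _ _))
  split_ifs with h
  · have s1 : 0 ≤ √(q x) := Real.sqrt_nonneg _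
    have s2 : √(q x) ^ 2 = q x := Real.sq_sqrt (hq0 x)
    have h2 : (1 + R) ^ 2 < (1 + √(q x)) ^ 2 := h.trans_le (haq x)
    have h3 : R ≤ √(q x) := by
      by_contra hc
      push Not at hc
      nlinarith
    have h4 := hnum (√(q x)) h3
    rw [s2] at h4
    have h5 : a x ^ 2 ≤ (1 + √(q x)) ^ 4 := by
      calc a x ^ 2 ≤ ((1 + √(q x)) ^ 2) ^ 2 := pow_le_pow_left₀ (ha0 x) (haq x) 2
        _ = (1 + √(q x)) ^ 4 := by ring
    refine h5.trans (h4.trans (mul_le_mul_of_nonneg_left ?_ hK))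
    exact mul_le_mul_of_nonneg_left (le_max_left _ _) (Real.exp_pos _).le
  · exact e0

end

end Vale.Agent.P224.R2.H662
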