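import Vale.Agent.P224.R2.H662.C4

/-!
The fourth moment of the defect: the instance for a diagonal symmetric matrix in an orthonormal
basis, with numbers.
-/

namespace Vale.Agent.P224.R2.H662

open MeasureTheory Module Function Set Vale.Agent.P224.R2.H470
open scoped RealInnerProductSpace Topology ContDiff

set_option linter.unusedSectionVars false

section

variable {X : Type*} {E : Type*} [NormedAddCommGroup E] [InnerProductSpace ℝ E]
  [FiniteDimensional ℝ E] [TopologicalSpace X] [MeasurableSpace X] [CompactSpace X] [BorelSpace X]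
  {μ : Measure X} [IsFiniteMeasure μ] {m : ℕ} {p n : X → E} {ι : Type*} [Fintype ι]

/-- the diagonal operator -/
noncomputable def dop (b : OrthonormalBasis ι ℝ E) (d : ι → ℝ) : E →L[ℝ] E :=
  ∑ a, (d a) • (innerSL ℝ (b a)).smulRight (b a)

lemma dop_apply (b : OrthonormalBasis ι ℝ E) (d : ι → ℝ) (u : E) :
    dop b d u = ∑ a, (d a * ⟪b a, u⟫) • b a := by
  simp [dop, smul_smul]

lemma inner_dop (b : OrthonormalBasis ι ℝ E) (d : ι → ℝ) (u v : E) :
    ⟪u, dop b d v⟫ = ∑ a, d a * (⟪u, b a⟫ * ⟪v, b a⟫) := by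
  rw [dop_apply, inner_sum]
  refine Finset.sum_congr rfl fun a _ => ?_
  rw [inner_smul_right, real_inner_comm v (b a)]
  ring

lemma dop_inner (b : OrthonormalBasis ι ℝ E) (d : ι → ℝ) (u v : E) :
    ⟪dop b d u, v⟫ = ∑ a, d a * (⟪u, b a⟫ * ⟪v, b a⟫) := by
  rw [real_inner_comm, inner_dop]
  exact Finset.sum_congr rfl fun a _ => by ring

lemma dop_symm (b : OrthonormalBasis ι ℝ E) (d : ι → ℝ) (u v : E) :
    ⟪dop b d u, v⟫ = ⟪u, dop b d v⟫ := by rw [dop_inner, inner_dop]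

lemma norm_dop_sq (b : OrthonormalBasis ι ℝ E) (d : ι → ℝ) (u : E) :
    ‖dop b d u‖ ^ 2 = ∑ a, d a ^ 2 * ⟪u, b a⟫ ^ 2 := by
  have h1 : ∀ a, ⟪dop b d u, b a⟫ = d a * ⟪u, b a⟫ := by
    intro a
    classical
    rw [dop_inner, Finset.sum_eq_single a]
    · rw [b.inner_eq_one]
      ring
    · intro c _ hc
      rw [b.inner_eq_zero hc.symm]
      ring
    · exact fun h => absurd (Finset.mem_univ a) h
  rw [← b.sum_sq_norm_inner_left (dop b d u)]
  refine Finset.sum_congr rfl fun a _ => ?_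
  rw [h1, Real.norm_eq_abs, sq_abs]
  ring

lemma trace_dop (b : OrthonormalBasis ι ℝ E) (d : ι → ℝ) :
    LinearMap.trace ℝ E (dop b d : E →ₗ[ℝ] E) = ∑ a, d a := by
  classical
  rw [LinearMap.trace_eq_sum_inner _ b]
  refine Finset.sum_congr rfl fun a _ => ?_
  rw [ContinuousLinearMap.coe_coe, inner_dop, Finset.sum_eq_single a]
  · rw [b.inner_eq_one]
    ring
  · intro c _ hc
    rw [b.inner_eq_zero hc.symm]
    ring
  · exact fun h => absurd (Finset.mem_univ a) h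

/-- `|J x|²` for a diagonal `J` -/
noncomputable def qd (b : OrthonormalBasis ι ℝ E) (j : ι → ℝ) (p : X → E) (x : X) : ℝ :=
  ∑ a, j a ^ 2 * ⟪p x, b a⟫ ^ 2

/-- `|N - J x|²` for a diagonal `J` -/
noncomputable def ad (b : OrthonormalBasis ι ℝ E) (j : ι → ℝ) (p n : X → E) (x : X) : ℝ :=
  ∑ a, (⟪n x, b a⟫ - j a * ⟪p x, b a⟫) ^ 2

lemma qd_nonneg (b : OrthonormalBasis ι ℝ E) (j : ι → ℝ) (x : X) : 0 ≤ qd b j p x :=
  Finset.sum_nonneg fun _ _ => mul_nonneg (sq_nonneg _) (sq_nonneg _)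

lemma ad_nonneg (b : OrthonormalBasis ι ℝ E) (j : ι → ℝ) (x : X) : 0 ≤ ad b j p n x :=
  Finset.sum_nonneg fun _ _ => sq_nonneg _

lemma ad_le (h : OneP μ m p n) (b : OrthonormalBasis ι ℝ E) (j : ι → ℝ) (x : X) :
    ad b j p n x ≤ (1 + √(qd b j p x)) ^ 2 := by
  have e1 : ad b j p n x = ‖n x - dop b j (p x)‖ ^ 2 := by
    rw [← b.sum_sq_norm_inner_left (n x - dop b j (p x))]
    refine Finset.sum_congr rfl fun a _ => ?_
    have h1 : ⟪dop b j (p x), b a⟫ = j a * ⟪p x, b a⟫ := by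
      classical
      rw [dop_inner, Finset.sum_eq_single a]
      · rw [b.inner_eq_one]
        ring
      · intro c _ hc
        rw [b.inner_eq_zero hc.symm]
        ring
      · exact fun h => absurd (Finset.mem_univ a) h
    rw [inner_sub_left, h1, Real.norm_eq_abs, sq_abs]
  have e2 : √(qd b j p x) = ‖dop b j (p x)‖ := by
    have : qd b j p x = ‖dop b j (p x)‖ ^ 2 := by rw [norm_dop_sq]; rfl
    rw [this, Real.sqrt_sq (norm_nonneg _)]
  rw [e1, e2]
  refine pow_le_pow_left₀ (norm_nonneg _) ?_ 2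
  have := norm_sub_le (n x) (dop b j (p x))
  rwa [h.nn] at this

/-- the exponential row for `|J x|²` -/
theorem exp_row_diag [IsProbabilityMeasure μ] (h : OneP μ m p n) (b : OrthonormalBasis ι ℝ E)
    {j : ι → ℝ} {κ S l : ℝ} (hj : ∀ a, j a ^ 2 ≤ κ * (m + 1)) (hS : ∑ a, j a ^ 2 ≤ S * (m + 1))
    (hl : 0 ≤ l) (hlk : 2 * l * κ < 1) :
    ∫ x, Real.exp (l * qd b j p x) * (qd b j p x - S / (1 - 2 * l * κ)) ∂μ ≤ 0 := by
  have cp := h.cp
  have hq : ∀ x, ⟪p x, dop b (fun a => j a ^ 2) (p x)⟫ = qd b j p x := by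
    intro x
    rw [inner_dop]
    exact Finset.sum_congr rfl fun a _ => by rw [sq ⟪p x, b a⟫]
  have h0 : ∀ u, 0 ≤ ⟪u, dop b (fun a => j a ^ 2) u⟫ := by
    intro u
    rw [inner_dop]
    exact Finset.sum_nonneg fun a _ => mul_nonneg (sq_nonneg _) (mul_self_nonneg _)
  have h1 : ∀ u, ‖dop b (fun a => j a ^ 2) u‖ ^ 2
      ≤ (κ * (m + 1)) * ⟪u, dop b (fun a => j a ^ 2) u⟫ := by
    intro u
    rw [norm_dop_sq, inner_dop, Finset.mul_sum]
    refine Finset.sum_le_sum fun a _ => ?_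
    have k1 : (j a ^ 2) ^ 2 * ⟪u, b a⟫ ^ 2 = j a ^ 2 * (j a ^ 2 * (⟪u, b a⟫ * ⟪u, b a⟫)) := by ring
    rw [k1]
    exact mul_le_mul_of_nonneg_right (hj a)
      (mul_nonneg (sq_nonneg _) (mul_self_nonneg _))
  have h2 := exp_row h (dop_symm b _) h0 h1 hl
  simp only [hq, trace_dop] at h2
  have hm : (0 : ℝ) < m + 1 := by positivity
  have h3 : 0 < 1 - 2 * l * κ := by linarith
  have cq : Continuous fun x => qd b j p x := by
    unfold qd
    fun_prop
  have h4 : ∫ x, ((m + 1) * (1 - 2 * l * κ)) * (Real.exp (l * qd b j p x)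
        * (qd b j p x - S / (1 - 2 * l * κ))) ∂μ
      ≤ ∫ x, Real.exp (l * qd b j p x) * ((m + 1 - 2 * l * (κ * (m + 1))) * qd b j p x
        - ∑ a, j a ^ 2) ∂μ := by
    refine integral_mono (int_of_cont (by fun_prop)) (int_of_cont (by fun_prop)) fun x => ?_
    simp only
    have k1 : ((m + 1) * (1 - 2 * l * κ)) * (Real.exp (l * qd b j p x)
        * (qd b j p x - S / (1 - 2 * l * κ)))
        = Real.exp (l * qd b j p x) * ((m + 1 - 2 * l * (κ * (m + 1))) * qd b j p x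
          - S * (m + 1)) := by
      field_simp
    rw [k1]
    exact mul_le_mul_of_nonneg_left (by linarith) (Real.exp_pos _).le
  rw [integral_const_mul] at h4
  have h5 : 0 < (m + 1) * (1 - 2 * l * κ) := mul_pos hm h3
  by_contra hc
  push Not at hc
  have := mul_pos h5 hc
  linarith

lemma cub_le_exp {u : ℝ} (hu : 0 ≤ u) : 1 + u + u ^ 2 / 2 + u ^ 3 / 6 ≤ Real.exp u := by
  have h1 := Real.sum_le_exp_of_nonneg hu 4
  simp only [Finset.sum_range_succ, Finset.sum_range_zero, Nat.factorial] at h1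
  norm_num at h1
  linarith

lemma exp_shift (t : ℝ) (ht : 3 ≤ t) :
    1 + 48 / 5 * (t - 3) + (48 / 5 * (t - 3)) ^ 2 / 2 + (48 / 5 * (t - 3)) ^ 3 / 6
      ≤ Real.exp (-(72 / 5)) * Real.exp (8 / 5 * t ^ 2) := by
  rw [← Real.exp_add]
  refine (cub_le_exp (by linarith)).trans (Real.exp_le_exp.2 ?_)
  nlinarith [sq_nonneg (t - 3)]

lemma num16 (t : ℝ) (ht : 3 ≤ t) :
    (1 + t) ^ 2 * ((1 + t) ^ 2 - (1 + 3) ^ 2)
      ≤ (9 / 10 * Real.exp (-(72 / 5))) * (Real.exp (8 / 5 * t ^ 2) * (t ^ 2 - 125 / 36)) := by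
  obtain ⟨d, hd, rfl⟩ : ∃ d : ℝ, 0 ≤ d ∧ t = 3 + d := ⟨t - 3, by linarith, by ring⟩
  have h1 := exp_shift (3 + d) ht
  have h2 : (0 : ℝ) ≤ (3 + d) ^ 2 - 125 / 36 := by nlinarith
  have h3 : (9 / 10 * Real.exp (-(72 / 5))) * (Real.exp (8 / 5 * (3 + d) ^ 2)
      * ((3 + d) ^ 2 - 125 / 36))
      = 9 / 10 * ((Real.exp (-(72 / 5)) * Real.exp (8 / 5 * (3 + d) ^ 2))
        * ((3 + d) ^ 2 - 125 / 36)) := by ring
  rw [h3]
  have h4 := mul_le_mul_of_nonneg_right h1 h2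
  refine le_trans ?_ (mul_le_mul_of_nonneg_left h4 (by norm_num))
  have e1 : (3 : ℝ) + d - 3 = d := by ring
  rw [e1]
  nlinarith [sq_nonneg (d - 1 / 10), mul_nonneg hd (sq_nonneg (d - 1 / 10)),
    mul_nonneg hd (sq_nonneg d), mul_nonneg hd (mul_nonneg hd (sq_nonneg d)),
    mul_nonneg (mul_nonneg hd hd) (mul_nonneg hd (sq_nonneg d))]

lemma num25 (t : ℝ) (ht : 3 ≤ t) :
    (1 + t) ^ 2 * (t - 3) / 4
      ≤ (28 / 1000 * Real.exp (-(72 / 5))) * (Real.exp (8 / 5 * t ^ 2) * (t ^ 2 - 125 / 36)) := by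
  obtain ⟨d, hd, rfl⟩ : ∃ d : ℝ, 0 ≤ d ∧ t = 3 + d := ⟨t - 3, by linarith, by ring⟩
  have h1 := exp_shift (3 + d) ht
  have h2 : (0 : ℝ) ≤ (3 + d) ^ 2 - 125 / 36 := by nlinarith
  have h3 : (28 / 1000 * Real.exp (-(72 / 5))) * (Real.exp (8 / 5 * (3 + d) ^ 2)
      * ((3 + d) ^ 2 - 125 / 36))
      = 28 / 1000 * ((Real.exp (-(72 / 5)) * Real.exp (8 / 5 * (3 + d) ^ 2))
        * ((3 + d) ^ 2 - 125 / 36)) := by ring
  rw [h3]
  have h4 := mul_le_mul_of_nonneg_right h1 h2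
  refine le_trans ?_ (mul_le_mul_of_nonneg_left h4 (by norm_num))
  have e1 : (3 : ℝ) + d - 3 = d := by ring
  rw [e1]
  nlinarith [sq_nonneg (d - 1 / 10), mul_nonneg hd (sq_nonneg (d - 1 / 10)),
    mul_nonneg hd (sq_nonneg d), mul_nonneg hd (mul_nonneg hd (sq_nonneg d)),
    mul_nonneg (mul_nonneg hd hd) (mul_nonneg hd (sq_nonneg d))]

/-- `exp (-72/5) * exp (8/5 * 125/36 - 1) = exp (-443/45) ≤ 5.33e-5` -/
lemma exp_const : Real.exp (-(72 / 5)) * (Real.exp (8 / 5 * (125 / 36) - 1) / (8 / 5))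
    ≤ 3333 / 100000000 := by
  have e1 : Real.exp (-(72 / 5)) * (Real.exp (8 / 5 * (125 / 36) - 1) / (8 / 5))
      = Real.exp (-(10 : ℕ)) * Real.exp (7 / 45) * (5 / 8) := by
    rw [← mul_div_assoc, ← Real.exp_add, ← Real.exp_add]
    have : -(72 / 5) + (8 / 5 * (125 / 36) - 1) = (-(10 : ℕ) + 7 / 45 : ℝ) := by norm_num
    rw [this]
    ring
  rw [e1]
  have h1 : Real.exp (-(10 : ℕ)) ≤ 454 / 10000000 := by
    rw [Real.exp_neg, ← Real.exp_one_pow]
    rw [inv_le_comm₀ (by positivity) (by norm_num)]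
    calc ((454 : ℝ) / 10000000)⁻¹ ≤ (27182818283 / 10000000000) ^ 10 := by norm_num
      _ ≤ Real.exp 1 ^ 10 := pow_le_pow_left₀ (by norm_num) (by
          have := Real.exp_one_gt_d9; linarith) 10
  have h2 : Real.exp (7 / 45) ≤ 11684 / 10000 := by
    have := Real.exp_bound' (x := 7 / 45) (by norm_num) (by norm_num) (n := 5) (by norm_num)
    refine this.trans ?_
    simp only [Finset.sum_range_succ, Finset.sum_range_zero, Nat.factorial]
    norm_num
  have h3 : (0 : ℝ) ≤ Real.exp (7 / 45) := (Real.exp_pos _).le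
  have h4 : Real.exp (-(10 : ℕ)) * Real.exp (7 / 45) ≤ 454 / 10000000 * (11684 / 10000) :=
    mul_le_mul h1 h2 h3 (by norm_num)
  linarith

end

end Vale.Agent.P224.R2.H662
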