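import Vale.Agent.P224.R2.H662.C4b

/-!
The fourth moment of the defect of the least squares matrix.
-/

namespace Vale.Agent.P224.R2.H662

open MeasureTheory Module Function Set Vale.Agent.P224.R2.H470
open scoped RealInnerProductSpace Topology ContDiff

set_option linter.unusedSectionVars false

section

variable {X : Type*} {E : Type*} [NormedAddCommGroup E] [InnerProductSpace ℝ E]
  [FiniteDimensional ℝ E] [TopologicalSpace X] [MeasurableSpace X] [CompactSpace X] [BorelSpace X]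
  {μ : Measure X} [IsProbabilityMeasure μ] {m : ℕ} {p n : X → E} {ι : Type*} [Fintype ι]
  [DecidableEq ι]

/-- `E a² ≤ 16 E a + 3e-5` when `j² ≤ (m+1)/5`, `∑ j² ≤ 5/4 (m+1)` -/
theorem four_num (h : OneP μ m p n) (b : OrthonormalBasis ι ℝ E) {j : ι → ℝ}
    (hj : ∀ a, j a ^ 2 ≤ 1 / 5 * (m + 1)) (hS : ∑ a, j a ^ 2 ≤ 5 / 4 * (m + 1)) :
    ∫ x, ad b j p n x ^ 2 ∂μ ≤ 16 * ∫ x, ad b j p n x ∂μ + 3 / 100000 := by
  have cp := h.cp
  have cn := h.cn
  have cq : Continuous fun x => qd b j p x := by unfold qd; fun_prop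
  have ca : Continuous fun x => ad b j p n x := by unfold ad; fun_prop
  have h1 := exp_row_diag h b hj hS (l := 8 / 5) (by norm_num) (by norm_num)
  have e1 : (5 / 4 : ℝ) / (1 - 2 * (8 / 5) * (1 / 5)) = 125 / 36 := by norm_num
  rw [e1] at h1
  have h2 := four_of_row (μ := μ) (q := qd b j p) (a := ad b j p n) (l := 8 / 5) (s0 := 125 / 36)
    (K := 9 / 10 * Real.exp (-(72 / 5))) (R := 3) (by norm_num) (by positivity) (by norm_num)
    (int_of_cont (by fun_prop)) h1 (ad_nonneg b j) (qd_nonneg b j) (ad_le h b j)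
    (int_of_cont ca) (int_of_cont (by fun_prop)) (fun t ht => num16 t ht)
  have h3 := exp_const
  have e2 : (1 + 3 : ℝ) ^ 2 = 16 := by norm_num
  rw [e2] at h2
  have e3 : 9 / 10 * Real.exp (-(72 / 5)) * (Real.exp (8 / 5 * (125 / 36) - 1) / (8 / 5))
      = 9 / 10 * (Real.exp (-(72 / 5)) * (Real.exp (8 / 5 * (125 / 36) - 1) / (8 / 5))) := by ring
  rw [e3] at h2
  linarith

/-- `E a (a^(1/4) - 2)₊ ≤ 1e-6` when `j² ≤ (m+1)/5`, `∑ j² ≤ 5/4 (m+1)` -/
theorem e54_num (h : OneP μ m p n) (b : OrthonormalBasis ι ℝ E) {j : ι → ℝ}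
    (hj : ∀ a, j a ^ 2 ≤ 1 / 5 * (m + 1)) (hS : ∑ a, j a ^ 2 ≤ 5 / 4 * (m + 1)) :
    ∫ x, ad b j p n x * max (√√(ad b j p n x) - 2) 0 ∂μ ≤ 1 / 1000000 := by
  have cp := h.cp
  have cn := h.cn
  have cq : Continuous fun x => qd b j p x := by unfold qd; fun_prop
  have ca : Continuous fun x => ad b j p n x := by unfold ad; fun_prop
  have h1 := exp_row_diag h b hj hS (l := 8 / 5) (by norm_num) (by norm_num)
  have e1 : (5 / 4 : ℝ) / (1 - 2 * (8 / 5) * (1 / 5)) = 125 / 36 := by norm_num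
  rw [e1] at h1
  have h2 := tail_of_row (μ := μ) (q := qd b j p)
    (w := fun x => ad b j p n x * max (√√(ad b j p n x) - 2) 0) (l := 8 / 5) (s0 := 125 / 36)
    (K := 28 / 1000 * Real.exp (-(72 / 5))) (by norm_num) (by positivity)
    (int_of_cont (by fun_prop)) h1 (int_of_cont (by fun_prop)) ?_
  · have h3 := exp_const
    have e3 : 28 / 1000 * Real.exp (-(72 / 5)) * (Real.exp (8 / 5 * (125 / 36) - 1) / (8 / 5))
        = 28 / 1000 * (Real.exp (-(72 / 5)) * (Real.exp (8 / 5 * (125 / 36) - 1) / (8 / 5))) := by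
      ring
    rw [e3] at h2
    linarith
  · intro x
    set a := ad b j p n x with ha
    set q := qd b j p x with hq
    have a0 : 0 ≤ a := ad_nonneg b j x
    have q0 : 0 ≤ q := qd_nonneg b j x
    have aq : a ≤ (1 + √q) ^ 2 := ad_le h b j x
    have t0 : 0 ≤ √q := Real.sqrt_nonneg _
    have e0 : 0 ≤ (28 / 1000 * Real.exp (-(72 / 5)))
        * (Real.exp (8 / 5 * q) * max (q - 125 / 36) 0) :=
      mul_nonneg (by positivity) (mul_nonneg (Real.exp_pos _).le (le_max_right _ _))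
    have s1 : √a ≤ 1 + √q := by
      rw [Real.sqrt_le_left (by linarith)]
      exact aq
    rcases le_total (√√a) 2 with h5 | h5
    · rw [max_eq_right (by linarith), mul_zero]
      exact e0
    · have s2 : √√a ^ 2 = √a := Real.sq_sqrt (Real.sqrt_nonneg _)
      have s3 : 3 ≤ √q := by nlinarith
      have s4 : √√a ≤ 2 + (√q - 3) / 4 := by nlinarith
      have h6 := num25 (√q) s3
      rw [Real.sq_sqrt q0] at h6
      rw [max_eq_left (by linarith)]
      have h7 : a * (√√a - 2) ≤ (1 + √q) ^ 2 * (√q - 3) / 4 := by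
        have : a * (√√a - 2) ≤ (1 + √q) ^ 2 * ((√q - 3) / 4) :=
          mul_le_mul aq (by linarith) (by linarith) (by positivity)
        linarith
      refine h7.trans (h6.trans (mul_le_mul_of_nonneg_left ?_ (by positivity)))
      exact mul_le_mul_of_nonneg_left (le_max_left _ _) (Real.exp_pos _).le

end

end Vale.Agent.P224.R2.H662
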