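import Vale.Agent.P224.R2.H728.T0j

/-!
Third moments of the defect at level zero: the tensor `E z ⊗ z ⊗ x`.
-/

namespace Vale.Agent.P224.R2.H662

open MeasureTheory Set Filter Function Real Finset Matrix
open Vale.Agent.P224.R2.H728

set_option linter.unusedSectionVars false

section

variable {ι Ω : Type*} [Fintype ι] [DecidableEq ι] [MeasurableSpace Ω] {μ : Measure Ω}
  {m : ℝ} {x N : ι → Ω → ℝ}

/-- Cauchy-Schwarz for finite families of bounded functions -/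
lemma cs_fam {κ : Type*} [Fintype κ] [IsFiniteMeasure μ] {f g : κ → Ω → ℝ}
    (hf : ∀ k, BM (f k)) (hg : ∀ k, BM (g k)) :
    (∫ ω, ∑ k, f k ω * g k ω ∂μ) ^ 2 ≤ (∫ ω, ∑ k, f k ω ^ 2 ∂μ) * ∫ ω, ∑ k, g k ω ^ 2 ∂μ := by
  set A := ∫ ω, ∑ k, f k ω ^ 2 ∂μ with hA
  set B := ∫ ω, ∑ k, f k ω * g k ω ∂μ with hB
  set C := ∫ ω, ∑ k, g k ω ^ 2 ∂μ with hC
  have i1 : Integrable (fun ω => ∑ k, f k ω ^ 2) μ := (BM.sum _ fun k _ => (hf k).pow 2).int
  have i2 : Integrable (fun ω => ∑ k, f k ω * g k ω) μ :=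
    (BM.sum _ fun k _ => (hf k).mul (hg k)).int
  have i3 : Integrable (fun ω => ∑ k, g k ω ^ 2) μ := (BM.sum _ fun k _ => (hg k).pow 2).int
  have key : ∀ t : ℝ, 0 ≤ A * (t * t) + (2 * B) * t + C := by
    intro t
    have e : A * (t * t) + (2 * B) * t + C = ∫ ω, ∑ k, (t * f k ω + g k ω) ^ 2 ∂μ := by
      have e1 : ∀ ω, ∑ k, (t * f k ω + g k ω) ^ 2
          = (t * t) * ∑ k, f k ω ^ 2 + (2 * t) * ∑ k, f k ω * g k ω + ∑ k, g k ω ^ 2 := by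
        intro ω
        rw [Finset.mul_sum, Finset.mul_sum, ← Finset.sum_add_distrib, ← Finset.sum_add_distrib]
        exact Finset.sum_congr rfl fun k _ => by ring
      have j1 : Integrable (fun ω => (t * t) * ∑ k, f k ω ^ 2) μ := i1.const_mul _
      have j2 : Integrable (fun ω => (2 * t) * ∑ k, f k ω * g k ω) μ := i2.const_mul _
      have j3 : Integrable (fun ω => (t * t) * ∑ k, f k ω ^ 2 + (2 * t) * ∑ k, f k ω * g k ω) μ :=
        j1.add j2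
      simp_rw [e1]
      rw [integral_add j3 i3, integral_add j1 j2, integral_const_mul, integral_const_mul]
      ring
    rw [e]
    exact integral_nonneg fun ω => Finset.sum_nonneg fun k _ => sq_nonneg _
  have h1 := discrim_le_zero key
  unfold discrim at h1
  nlinarith

lemma cs_one [IsFiniteMeasure μ] {f g : Ω → ℝ} (hf : BM f) (hg : BM g) :
    (∫ ω, f ω * g ω ∂μ) ^ 2 ≤ (∫ ω, f ω ^ 2 ∂μ) * ∫ ω, g ω ^ 2 ∂μ := by
  have := cs_fam (μ := μ) (κ := Unit) (f := fun _ => f) (g := fun _ => g) (fun _ => hf) fun _ => hg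
  simpa using this

/-- a sum of squares of linear forms -/
def sqf {κ : Type*} [Fintype κ] (v : κ → ι → ℝ) (w : ι → ℝ) : ℝ := ∑ k, (v k ⬝ᵥ w) ^ 2

/-- its matrix -/
def sqm {κ : Type*} [Fintype κ] (v : κ → ι → ℝ) : Matrix ι ι ℝ :=
  Matrix.of fun c d => ∑ k, v k c * v k d

lemma sqm_symm {κ : Type*} [Fintype κ] (v : κ → ι → ℝ) : (sqm v).IsSymm := by
  refine Matrix.IsSymm.ext fun c d => ?_
  simp only [sqm, Matrix.of_apply]
  exact Finset.sum_congr rfl fun k _ => mul_comm _ _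

lemma sqm_quad {κ : Type*} [Fintype κ] (v : κ → ι → ℝ) (w : ι → ℝ) :
    w ⬝ᵥ (sqm v *ᵥ w) = sqf v w := by
  unfold sqf
  have e : ∀ k, (v k ⬝ᵥ w) ^ 2 = ∑ c, ∑ d, w c * (v k c * v k d * w d) := by
    intro k
    simp only [dotProduct, sq]
    rw [Finset.sum_mul_sum]
    exact Finset.sum_congr rfl fun c _ => Finset.sum_congr rfl fun d _ => by ring
  simp_rw [e]
  simp only [dotProduct, mulVec, sqm, Matrix.of_apply, Finset.sum_mul, Finset.mul_sum]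
  rw [Finset.sum_comm (s := (Finset.univ : Finset κ))]
  refine Finset.sum_congr rfl fun c _ => ?_
  exact Finset.sum_comm

lemma sqf_nonneg {κ : Type*} [Fintype κ] (v : κ → ι → ℝ) (w : ι → ℝ) : 0 ≤ sqf v w :=
  Finset.sum_nonneg fun _ _ => sq_nonneg _

/-- total size of a family -/
def siz {κ : Type*} [Fintype κ] (v : κ → ι → ℝ) : ℝ := ∑ k, v k ⬝ᵥ v k

lemma siz_nonneg {κ : Type*} [Fintype κ] (v : κ → ι → ℝ) : 0 ≤ siz v :=
  Finset.sum_nonneg fun _ _ => Finset.sum_nonneg fun _ _ => mul_self_nonneg _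

lemma sqm_trace {κ : Type*} [Fintype κ] (v : κ → ι → ℝ) : (sqm v).trace = siz v := by
  simp only [Matrix.trace, Matrix.diag_apply, sqm, Matrix.of_apply, siz, dotProduct]
  rw [Finset.sum_comm]

lemma sqm_fro {κ : Type*} [Fintype κ] (v : κ → ι → ℝ) : fro (sqm v) ≤ siz v ^ 2 := by
  have e : siz v ^ 2 = ∑ c, ∑ d, (∑ k, v k c ^ 2) * ∑ k, v k d ^ 2 := by
    have e1 : siz v = ∑ c, ∑ k, v k c ^ 2 := by
      unfold siz
      simp only [dotProduct]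
      rw [Finset.sum_comm]
      exact Finset.sum_congr rfl fun c _ => Finset.sum_congr rfl fun k _ => (sq _).symm
    rw [e1, sq, Finset.sum_mul_sum]
  rw [e]
  unfold fro
  refine Finset.sum_le_sum fun c _ => Finset.sum_le_sum fun d _ => ?_
  exact Finset.sum_mul_sq_le_sq_mul_sq _ _ _

namespace T0

/-- fourth moments of positive quadratic forms -/
theorem psd4 {κ : Type*} [Fintype κ] (h : T0Data μ m x N) (hm : 0 ≤ m) (v : κ → ι → ℝ) :
    (m + 1) * (m + 3) * ∫ ω, sqf v (vc x ω) ^ 2 ∂μ ≤ 3 * siz v ^ 2 := by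
  have := h.prob
  set B := sqm v with hB
  have hBs : B.IsSymm := sqm_symm v
  have h1 := h.quad_row hBs
  have h2 := h.sq_row hBs
  have hq : ∀ w : ι → ℝ, w ⬝ᵥ (B *ᵥ w) = sqf v w := sqm_quad v
  simp_rw [hq] at h1
  have n1 : 0 ≤ ∫ ω, sqf v (vc N ω) * sqf v (vc x ω) ∂μ :=
    integral_nonneg fun ω => mul_nonneg (sqf_nonneg _ _) (sqf_nonneg _ _)
  have n2 : 0 ≤ ∫ ω, (vc N ω ⬝ᵥ (B *ᵥ vc x ω)) ^ 2 ∂μ := integral_nonneg fun ω => sq_nonneg _
  have n3 : 0 ≤ ∫ ω, (B *ᵥ vc N ω) ⬝ᵥ (B *ᵥ vc N ω) ∂μ :=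
    integral_nonneg fun ω => Finset.sum_nonneg fun a _ => mul_self_nonneg _
  have h3 : (m + 1) * ∫ ω, sqf v (vc x ω) ∂μ + ∫ ω, sqf v (vc N ω) ∂μ = siz v := by
    have e1 := int_qf1 (μ := μ) B h.bx h.bx
    have e2 := int_qf1 (μ := μ) B h.bN h.bN
    simp_rw [hq] at e1 e2
    rw [e1, e2, ← sqm_trace, hB, Matrix.trace, Finset.mul_sum, ← Finset.sum_add_distrib]
    refine Finset.sum_congr rfl fun a _ => ?_
    rw [Finset.mul_sum, ← Finset.sum_add_distrib, Matrix.diag_apply]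
    have e : ∀ b, (m + 1) * (sqm v a b * m2 μ x x a b) + sqm v a b * m2 μ N N a b
        = if a = b then sqm v a b else 0 := by
      intro b
      have k1 := h.GP a b
      have k2 : (if a = b then sqm v a b else 0) = sqm v a b * (if a = b then 1 else 0) := by
        split_ifs <;> simp
      rw [k2, ← k1]
      ring
    simp_rw [e]
    simp
  have n4 : 0 ≤ ∫ ω, sqf v (vc N ω) ∂μ := integral_nonneg fun ω => sqf_nonneg _ _
  have h4 := sqm_fro v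
  rw [sqm_trace] at h1
  rw [← hB] at h4
  have s0 := siz_nonneg v
  have m1 : 0 < m + 1 := by linarith
  set I := ∫ ω, sqf v (vc x ω) ^ 2 ∂μ
  set M1 := ∫ ω, sqf v (vc x ω) ∂μ
  set L := ∫ ω, (B *ᵥ vc x ω) ⬝ᵥ (B *ᵥ vc x ω) ∂μ
  have a1 : (m + 3) * I ≤ siz v * M1 + 2 * L := by linarith
  have a2 : (m + 1) * ((m + 3) * I) ≤ (m + 1) * (siz v * M1 + 2 * L) :=
    mul_le_mul_of_nonneg_left a1 m1.le
  have a3 : (m + 1) * (siz v * M1 + 2 * L) = siz v * ((m + 1) * M1) + 2 * ((m + 1) * L) := by ring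
  have a4 : siz v * ((m + 1) * M1) ≤ siz v * siz v := mul_le_mul_of_nonneg_left (by linarith) s0
  nlinarith

end T0

/-- size of a tensor of order three -/
def fr3 (A : ι → ι → ι → ℝ) : ℝ := ∑ a, ∑ b, ∑ c, A a b c ^ 2

lemma fr3_nonneg (A : ι → ι → ι → ℝ) : 0 ≤ fr3 A :=
  Finset.sum_nonneg fun _ _ => Finset.sum_nonneg fun _ _ => Finset.sum_nonneg fun _ _ => sq_nonneg _

lemma int_cub [IsFiniteMeasure μ] (A : ι → ι → ι → ℝ) {f g k : ι → Ω → ℝ}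
    (hf : ∀ a, BM (f a)) (hg : ∀ a, BM (g a)) (hk : ∀ a, BM (k a)) :
    ∫ ω, ∑ a, ∑ b, ∑ c, A a b c * (f a ω * g b ω * k c ω) ∂μ
      = ∑ a, ∑ b, ∑ c, A a b c * m3 μ f g k a b c := by
  have i1 : ∀ a b c, BM (fun ω => A a b c * (f a ω * g b ω * k c ω)) := fun a b c =>
    (((hf a).mul (hg b)).mul (hk c)).const_mul (A a b c)
  have i2 : ∀ a b, BM (fun ω => ∑ c, A a b c * (f a ω * g b ω * k c ω)) := fun a b =>
    BM.sum _ fun c _ => i1 a b c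
  have i3 : ∀ a, BM (fun ω => ∑ b, ∑ c, A a b c * (f a ω * g b ω * k c ω)) := fun a =>
    BM.sum _ fun b _ => i2 a b
  rw [integral_finsetSum _ fun a _ => (i3 a).int]
  refine Finset.sum_congr rfl fun a _ => ?_
  rw [integral_finsetSum _ fun b _ => (i2 a b).int]
  refine Finset.sum_congr rfl fun b _ => ?_
  rw [integral_finsetSum _ fun c _ => (i1 a b c).int]
  exact Finset.sum_congr rfl fun c _ => integral_const_mul _ _

namespace T0

/-- the tensor `E z ⊗ z ⊗ x` : `χ² ≤ 3 h² E|z|⁴` -/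
theorem chi1 (h : T0Data μ m x N) (hm : 0 ≤ m) {z : ι → Ω → ℝ} (hz : ∀ a, BM (z a)) :
    (m + 1) * (m + 3) * fr3 (m3 μ z z x) ^ 2
      ≤ 3 * (∫ ω, ∑ a, z a ω ^ 2 ∂μ) ^ 2 * ∫ ω, (∑ a, z a ω ^ 2) ^ 2 ∂μ := by
  have := h.prob
  set A := m3 μ z z x with hA
  set α := fr3 A with hα
  have hα0 : 0 ≤ α := fr3_nonneg A
  let v : ι × ι → ι → ℝ := fun k => A k.1 k.2
  have hsiz : siz v = α := by
    unfold siz
    rw [Fintype.sum_prod_type, hα]
    unfold fr3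
    refine Finset.sum_congr rfl fun a _ => Finset.sum_congr rfl fun b _ => ?_
    exact Finset.sum_congr rfl fun c _ => (sq _).symm
  let u : ι → Ω → ℝ := fun a ω => ∑ b, z b ω * (A a b ⬝ᵥ vc x ω)
  have bdot : ∀ a b, BM (fun ω => A a b ⬝ᵥ vc x ω) := fun a b =>
    BM.sum _ fun c _ => (h.bx c).const_mul _
  have bu : ∀ a, BM (u a) := fun a => BM.sum _ fun b _ => (hz b).mul (bdot a b)
  have bz2 : BM (fun ω => ∑ a, z a ω ^ 2) := BM.sum _ fun a _ => (hz a).pow 2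
  have bF : BM (fun ω => sqf v (vc x ω)) := BM.sum _ fun k _ => (bdot k.1 k.2).pow 2
  have e1 : α = ∫ ω, ∑ a, z a ω * u a ω ∂μ := by
    have e2 : ∀ ω, ∑ a, z a ω * u a ω = ∑ a, ∑ b, ∑ c, A a b c * (z a ω * z b ω * x c ω) := by
      intro ω
      refine Finset.sum_congr rfl fun a _ => ?_
      simp only [u, Finset.mul_sum, dotProduct, vc]
      exact Finset.sum_congr rfl fun b _ => Finset.sum_congr rfl fun c _ => by ring
    simp_rw [e2]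
    rw [int_cub A hz hz h.bx, hα]
    unfold fr3
    exact Finset.sum_congr rfl fun a _ => Finset.sum_congr rfl fun b _ =>
      Finset.sum_congr rfl fun c _ => by rw [hA]; ring
  have e3 : ∀ ω, ∑ a, u a ω ^ 2 ≤ (∑ a, z a ω ^ 2) * sqf v (vc x ω) := by
    intro ω
    have e4 : ∀ a, u a ω ^ 2 ≤ (∑ b, z b ω ^ 2) * ∑ b, (A a b ⬝ᵥ vc x ω) ^ 2 := fun a =>
      Finset.sum_mul_sq_le_sq_mul_sq _ _ _
    refine (Finset.sum_le_sum fun a _ => e4 a).trans (le_of_eq ?_)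
    rw [← Finset.mul_sum]
    congr 1
    unfold sqf
    rw [Fintype.sum_prod_type]
  have h1 : α ^ 2 ≤ (∫ ω, ∑ a, z a ω ^ 2 ∂μ) * ∫ ω, ∑ a, u a ω ^ 2 ∂μ := by
    rw [e1]
    exact cs_fam hz bu
  have h2 : ∫ ω, ∑ a, u a ω ^ 2 ∂μ ≤ ∫ ω, (∑ a, z a ω ^ 2) * sqf v (vc x ω) ∂μ :=
    integral_mono (BM.sum _ fun a _ => (bu a).pow 2).int (bz2.mul bF).int e3
  have h3 : (∫ ω, (∑ a, z a ω ^ 2) * sqf v (vc x ω) ∂μ) ^ 2
      ≤ (∫ ω, (∑ a, z a ω ^ 2) ^ 2 ∂μ) * ∫ ω, sqf v (vc x ω) ^ 2 ∂μ := cs_one bz2 bF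
  have h4 := T0.psd4 h hm v
  rw [hsiz] at h4
  set H := ∫ ω, ∑ a, z a ω ^ 2 ∂μ
  set U := ∫ ω, ∑ a, u a ω ^ 2 ∂μ
  set β := ∫ ω, (∑ a, z a ω ^ 2) * sqf v (vc x ω) ∂μ
  set E4 := ∫ ω, (∑ a, z a ω ^ 2) ^ 2 ∂μ
  set F2 := ∫ ω, sqf v (vc x ω) ^ 2 ∂μ
  have hH : 0 ≤ H := integral_nonneg fun ω => Finset.sum_nonneg fun a _ => sq_nonneg _
  have hU : 0 ≤ U := integral_nonneg fun ω => Finset.sum_nonneg fun a _ => sq_nonneg _
  have hE4 : 0 ≤ E4 := integral_nonneg fun ω => sq_nonneg _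
  have hβ : 0 ≤ β := hU.trans h2
  have hF : 0 ≤ F2 := integral_nonneg fun ω => sq_nonneg _
  have h5 : α ^ 2 ≤ H * β := h1.trans (mul_le_mul_of_nonneg_left h2 hH)
  have h6 : (α ^ 2) ^ 2 ≤ (H * β) ^ 2 := pow_le_pow_left₀ (sq_nonneg α) h5 2
  have h7 : (H * β) ^ 2 ≤ H ^ 2 * (E4 * F2) := by
    rw [mul_pow]
    exact mul_le_mul_of_nonneg_left h3 (sq_nonneg H)
  have mm : 0 ≤ (m + 1) * (m + 3) := by nlinarith
  have h8 : (m + 1) * (m + 3) * (α ^ 2) ^ 2 ≤ H ^ 2 * E4 * (3 * α ^ 2) := by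
    calc (m + 1) * (m + 3) * (α ^ 2) ^ 2 ≤ (m + 1) * (m + 3) * (H ^ 2 * (E4 * F2)) :=
          mul_le_mul_of_nonneg_left (h6.trans h7) mm
      _ = H ^ 2 * E4 * ((m + 1) * (m + 3) * F2) := by ring
      _ ≤ H ^ 2 * E4 * (3 * α ^ 2) := mul_le_mul_of_nonneg_left h4 (by positivity)
  rcases eq_or_lt_of_le hα0 with h9 | h9
  · rw [← h9]
    have : 0 ≤ 3 * H ^ 2 * E4 := by positivity
    simpa using this
  · have h10 : 0 < α ^ 2 := by positivity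
    have h11 : α ^ 2 * ((m + 1) * (m + 3) * α ^ 2) ≤ α ^ 2 * (3 * H ^ 2 * E4) := by
      calc α ^ 2 * ((m + 1) * (m + 3) * α ^ 2) = (m + 1) * (m + 3) * (α ^ 2) ^ 2 := by ring
        _ ≤ H ^ 2 * E4 * (3 * α ^ 2) := h8
        _ = α ^ 2 * (3 * H ^ 2 * E4) := by ring
    exact le_of_mul_le_mul_left h11 h10

end T0

end

end Vale.Agent.P224.R2.H662
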