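import Vale.Agent.P224.R2.H662.Quart
import Vale.Agent.P224.R2.H662.C4d

/-!
Level two: the tensor `E z ⊗ z ⊗ (x ⊗ x)₀`.
-/

namespace Vale.Agent.P224.R2.H662

open MeasureTheory Module Function Set Vale.Agent.P224.R2.H470 Vale.Agent.P224.R2.H728 Matrix
open scoped RealInnerProductSpace Topology

set_option linter.unusedSectionVars false

section

variable {ι : Type*} [Fintype ι] [DecidableEq ι] {κ : Type*} [Fintype κ]

/-- sum of the squared quadratic forms -/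
def fim (B : κ → Matrix ι ι ℝ) (w : ι → ℝ) : ℝ := ∑ k, (w ⬝ᵥ (B k *ᵥ w)) ^ 2

/-- sum of the squared norms -/
def gim (B : κ → Matrix ι ι ℝ) (w : ι → ℝ) : ℝ := ∑ k, (B k *ᵥ w) ⬝ᵥ (B k *ᵥ w)

/-- the rows of the family -/
def rws (B : κ → Matrix ι ι ℝ) (q : κ × ι) : ι → ℝ := fun c => B q.1 q.2 c

/-- the size of the family -/
def bet (B : κ → Matrix ι ι ℝ) : ℝ := ∑ k, fro (B k)

lemma fim_nonneg (B : κ → Matrix ι ι ℝ) (w : ι → ℝ) : 0 ≤ fim B w :=
  Finset.sum_nonneg fun _ _ => sq_nonneg _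

lemma bet_nonneg (B : κ → Matrix ι ι ℝ) : 0 ≤ bet B := Finset.sum_nonneg fun _ _ => fro_nonneg _

lemma gim_sqf (B : κ → Matrix ι ι ℝ) (w : ι → ℝ) :
    gim B w = sqf (rws B) w := by
  unfold gim sqf
  rw [Fintype.sum_prod_type]
  refine Finset.sum_congr rfl fun k _ => ?_
  simp only [dotProduct]
  exact Finset.sum_congr rfl fun a _ => (sq _).symm

lemma bet_siz (B : κ → Matrix ι ι ℝ) : siz (rws B) = bet B := by
  unfold bet siz fro
  rw [Fintype.sum_prod_type]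
  refine Finset.sum_congr rfl fun k _ => Finset.sum_congr rfl fun a _ => ?_
  exact Finset.sum_congr rfl fun c _ => (sq _).symm

lemma fim_le_gim (B : κ → Matrix ι ι ℝ) {w : ι → ℝ} (hw : w ⬝ᵥ w = 1) : fim B w ≤ gim B w :=
  Finset.sum_le_sum fun _ _ => T0Data.cs_unit hw

lemma mulVec_sq_le (A : Matrix ι ι ℝ) {w : ι → ℝ} (hw : w ⬝ᵥ w = 1) :
    (A *ᵥ w) ⬝ᵥ (A *ᵥ w) ≤ fro A := by
  unfold fro
  simp only [dotProduct, mulVec]
  refine Finset.sum_le_sum fun a _ => ?_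
  have h1 := Finset.sum_mul_sq_le_sq_mul_sq Finset.univ (A a) w
  have h2 : ∑ i, w i ^ 2 = 1 := by
    rw [← hw]
    exact Finset.sum_congr rfl fun i _ => sq _
  rw [h2, mul_one] at h1
  calc (∑ i, A a i * w i) * ∑ i, A a i * w i = (∑ i, A a i * w i) ^ 2 := (sq _).symm
    _ ≤ _ := h1

lemma gim_le_bet (B : κ → Matrix ι ι ℝ) {w : ι → ℝ} (hw : w ⬝ᵥ w = 1) : gim B w ≤ bet B :=
  Finset.sum_le_sum fun k _ => mulVec_sq_le (B k) hw

end

section

variable {X : Type*} {E : Type*} [NormedAddCommGroup E] [InnerProductSpace ℝ E]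
  [FiniteDimensional ℝ E] [TopologicalSpace X] [MeasurableSpace X] [CompactSpace X] [BorelSpace X]
  {μ : Measure X} {m : ℕ} {p n : X → E} {ι : Type*} [Fintype ι] [DecidableEq ι]
  {κ : Type*} [Fintype κ]

/-- the operator of a matrix -/
noncomputable def mop (b : OrthonormalBasis ι ℝ E) (B : Matrix ι ι ℝ) : E →L[ℝ] E :=
  qf b fun i j => B i j

lemma inner_qf_co (b : OrthonormalBasis ι ℝ E) (B : Matrix ι ι ℝ) (q : X → E) (x : X) :
    ⟪q x, mop b B (q x)⟫ = vc (cob b q) x ⬝ᵥ (B *ᵥ vc (cob b q) x) := by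
  rw [mop, inner_qf, qf_eq]
  rfl

lemma norm_qf_co (b : OrthonormalBasis ι ℝ E) (B : Matrix ι ι ℝ) (q : X → E) (x : X) :
    ‖mop b B (q x)‖ ^ 2 = (B *ᵥ vc (cob b q) x) ⬝ᵥ (B *ᵥ vc (cob b q) x) := by
  rw [← b.sum_sq_norm_inner_left (mop b B (q x))]
  simp only [dotProduct]
  refine Finset.sum_congr rfl fun a _ => ?_
  have h1 : ⟪mop b B (q x), b a⟫ = (B *ᵥ vc (cob b q) x) a := by
    rw [real_inner_comm, mop, inner_qf, Finset.sum_eq_single a]
    · simp only [b.inner_eq_one, one_mul]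
      rfl
    · intro c _ hc
      simp only [b.inner_eq_zero hc.symm, zero_mul, mul_zero, Finset.sum_const_zero]
    · exact fun h => absurd (Finset.mem_univ a) h
  rw [h1, Real.norm_eq_abs, sq_abs, sq]

/-- the fourth moment of traceless quadratic forms: `E φ² ≤ 162 β² / m⁴` -/
theorem quart_num (h : OneP μ m p n) (b : OrthonormalBasis ι ℝ E)
    (hT : T0Data μ m (cob b p) (cob b n)) (hm : 1 ≤ m) {ν : ℝ}
    (hν : ∀ v : ι → ℝ, ∫ x, (v ⬝ᵥ vc (cob b n) x) ^ 2 ∂μ ≤ ν * (v ⬝ᵥ v)) (hν6 : ν ≤ 1 / 6)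
    {B : κ → Matrix ι ι ℝ} (hB : ∀ k, (B k).IsSymm) (htr : ∀ k, (B k).trace = 0) :
    (m : ℝ) ^ 4 * ∫ x, fim B (vc (cob b p) x) ^ 2 ∂μ ≤ 162 * bet B ^ 2 := by
  have := hT.prob
  have hmR : (1 : ℝ) ≤ m := by exact_mod_cast hm
  have hA : ∀ k u v, ⟪mop b (B k) u, v⟫ = ⟪u, mop b (B k) v⟫ := fun k =>
    qf_symm b fun i j => ((hB k).apply i j).symm
  have htrA : ∀ k, LinearMap.trace ℝ E (mop b (B k) : E →ₗ[ℝ] E) = 0 := by
    intro k
    rw [mop, trace_qf, ← htr k]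
    rfl
  have hθ : (0 : ℝ) < m / 6 := by positivity
  have h1 := quart_le (n := n) h hA htrA hθ
  have e1 : ∀ (q : X → E) (x : X), fi (fun k => mop b (B k)) (q x) = fim B (vc (cob b q) x) := by
    intro q x
    exact Finset.sum_congr rfl fun k _ => by rw [inner_qf_co]
  have e2 : ∀ (x : X), gg (fun k => mop b (B k)) (p x) = gim B (vc (cob b p) x) := by
    intro x
    exact Finset.sum_congr rfl fun k _ => norm_qf_co b (B k) p x
  simp only [e1, e2] at h1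
  have bf : ∀ {q : ι → X → ℝ}, (∀ a, BM (q a)) → BM (fun x => fim B (vc q x)) := fun hq =>
    BM.sum _ fun k _ => (BM.qf (B k) hq hq).pow 2
  have bg : BM (fun x => gim B (vc (cob b p) x)) := by
    simp_rw [gim_sqf]
    exact BM.sum _ fun q _ => (BM.sum _ fun c _ => (hT.bx c).const_mul _).pow 2
  have bfx := bf hT.bx
  have bfN := bf hT.bN
  have bgN : BM (fun x => gim B (vc (cob b n) x)) := by
    simp_rw [gim_sqf]
    exact BM.sum _ fun q _ => (BM.sum _ fun c _ => (hT.bN c).const_mul _).pow 2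
  -- the moments of g
  have hg := T0.psd4 hT (by positivity) (rws B)
  simp_rw [← gim_sqf] at hg
  rw [bet_siz] at hg
  -- the cross term
  have h2 : 6 * ∫ x, fim B (vc (cob b p) x) * gim B (vc (cob b p) x) ∂μ
      ≤ 2 / 5 * m * ∫ x, fim B (vc (cob b p) x) ^ 2 ∂μ
        + 45 / 2 / m * ∫ x, gim B (vc (cob b p) x) ^ 2 ∂μ := by
    rw [← integral_const_mul, ← integral_const_mul, ← integral_const_mul,
      ← integral_add ((bfx.pow 2).const_mul _).int ((bg.pow 2).const_mul _).int]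
    refine integral_mono ((bfx.mul bg).const_mul _).int
      (((bfx.pow 2).const_mul _).add ((bg.pow 2).const_mul _)).int fun x => ?_
    simp only
    set f := fim B (vc (cob b p) x)
    set g := gim B (vc (cob b p) x)
    have k1 : 0 ≤ 2 / 5 * m * (f - 15 / 2 / m * g) ^ 2 := by positivity
    have k2 : 2 / 5 * m * (f - 15 / 2 / m * g) ^ 2
        = 2 / 5 * m * f ^ 2 - 6 * (f * g) + 45 / 2 / m * g ^ 2 := by
      field_simp
      ring
    linarith
  -- the moments of r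
  have h3 : ∫ x, fim B (vc (cob b n) x) ^ 2 ∂μ ≤ bet B * (ν * bet B) := by
    have k1 : ∫ x, fim B (vc (cob b n) x) ^ 2 ∂μ ≤ ∫ x, bet B * gim B (vc (cob b n) x) ∂μ := by
      refine integral_mono (bfN.pow 2).int (bgN.const_mul _).int fun x => ?_
      simp only
      have j1 := fim_le_gim B (hT.nn x)
      have j2 := gim_le_bet B (hT.nn x)
      have j3 := fim_nonneg B (vc (cob b n) x)
      rw [sq]
      exact mul_le_mul (j1.trans j2) j1 j3 (bet_nonneg B)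
    have k2 : ∫ x, gim B (vc (cob b n) x) ∂μ ≤ ν * bet B := by
      simp_rw [gim_sqf]
      unfold sqf
      have bl : ∀ q : κ × ι, BM (fun x => (rws B q ⬝ᵥ vc (cob b n) x) ^ 2) := fun q =>
        (BM.sum _ fun c _ => (hT.bN c).const_mul _).pow 2
      rw [integral_finsetSum _ fun q _ => (bl q).int, ← bet_siz, siz, Finset.mul_sum]
      exact Finset.sum_le_sum fun q _ => hν (rws B q)
    rw [integral_const_mul] at k1
    exact k1.trans (mul_le_mul_of_nonneg_left k2 (bet_nonneg B))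
  have hb := bet_nonneg B
  have hF : 0 ≤ ∫ x, fim B (vc (cob b p) x) ^ 2 ∂μ := integral_nonneg fun x => sq_nonneg _
  have hG : 0 ≤ ∫ x, gim B (vc (cob b p) x) ^ 2 ∂μ := integral_nonneg fun x => sq_nonneg _
  set F2 := ∫ x, fim B (vc (cob b p) x) ^ 2 ∂μ
  set G2 := ∫ x, gim B (vc (cob b p) x) ^ 2 ∂μ
  set C := ∫ x, fim B (vc (cob b p) x) * gim B (vc (cob b p) x) ∂μ
  set R2 := ∫ x, fim B (vc (cob b n) x) ^ 2 ∂μ
  set β := bet B
  have g1 : (m : ℝ) ^ 2 * G2 ≤ 3 * β ^ 2 := by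
    refine le_trans (mul_le_mul_of_nonneg_right ?_ hG) hg
    nlinarith
  have r1 : R2 ≤ 1 / 6 * β ^ 2 := by nlinarith [sq_nonneg β]
  have e3 : 1 / (4 * ((m : ℝ) / 6) ^ 3) = 54 / (m : ℝ) ^ 3 := by
    field_simp
    norm_num
  rw [e3] at h1
  have m3 : (0 : ℝ) < (m : ℝ) ^ 3 := by positivity
  have s1 : 54 / (m : ℝ) ^ 3 * R2 ≤ 54 / (m : ℝ) ^ 3 * (1 / 6 * β ^ 2) :=
    mul_le_mul_of_nonneg_left r1 (by positivity)
  have s2 : 45 / 2 / (m : ℝ) * G2 ≤ 135 / 2 * β ^ 2 / (m : ℝ) ^ 3 := by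
    rw [le_div_iff₀ m3]
    have : 45 / 2 / (m : ℝ) * G2 * (m : ℝ) ^ 3 = 45 / 2 * ((m : ℝ) ^ 2 * G2) := by
      field_simp
    rw [this]
    linarith
  have s3 : (m : ℝ) * (19 / 40) * F2 ≤ (153 / 2) * β ^ 2 / (m : ℝ) ^ 3 := by
    have e4 : (153 / 2) * β ^ 2 / (m : ℝ) ^ 3
        = 135 / 2 * β ^ 2 / (m : ℝ) ^ 3 + 54 / (m : ℝ) ^ 3 * (1 / 6 * β ^ 2) := by
      ring
    rw [e4]
    have e5 : ((m : ℝ) + 7 - 3 / 4 * (m / 6)) * F2 = (m : ℝ) * (7 / 8) * F2 + 7 * F2 := by ring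
    rw [e5] at h1
    linarith
  rw [le_div_iff₀ m3] at s3
  nlinarith

end

end Vale.Agent.P224.R2.H662
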