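import Vale.Agent.P224.R2.H470.Mac

/-!
The eigenbasis of the second moments of the normal.
-/

namespace Vale.Agent.P224.R2.H662

open MeasureTheory Set Filter Function Real Module Vale.Agent.P224.R2.H728
open Vale.Agent.P224.R2.H470
open scoped Topology RealInnerProductSpace

set_option linter.unusedSectionVars false

/-- the scalar part: the third powers above the threshold -/
theorem cube_sum {ι : Type*} [Fintype ι] {y : ι → ℝ} (hy : ∀ i, 0 ≤ y i) (h1 : ∑ i, y i = 1)
    {A B D ν : ℝ} (hA : 0 ≤ A) (hB : 0 ≤ B) (hD : ∑ i, y i ^ 2 = D) {k : ι} (hk : ν ≤ y k) :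
    min (B ^ 3) (max (D ^ 2 - 3 * A * D) (max (ν - A) 0 ^ 3))
      ≤ ∑ i, min (max (y i - A) 0) B ^ 3 := by
  have hnn : ∀ i, 0 ≤ min (max (y i - A) 0) B ^ 3 := fun i =>
    pow_nonneg (le_min (le_max_right _ _) hB) 3
  by_cases hc : ∃ i, B ≤ y i - A
  · obtain ⟨i, hi⟩ := hc
    have h2 := Finset.single_le_sum (f := fun i => min (max (y i - A) 0) B ^ 3)
      (fun i _ => hnn i) (Finset.mem_univ i)
    have h3 : min (max (y i - A) 0) B = B := min_eq_right (hi.trans (le_max_left _ _))
    simp only [h3] at h2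
    exact (min_le_left _ _).trans h2
  · push Not at hc
    have h4 : ∀ i, min (max (y i - A) 0) B = max (y i - A) 0 := fun i =>
      min_eq_left (max_le (hc i).le hB)
    simp only [h4]
    refine (min_le_right _ _).trans (max_le ?_ ?_)
    · have h5 : ∀ i, y i ^ 3 - 3 * A * y i ^ 2 ≤ max (y i - A) 0 ^ 3 := by
        intro i
        rcases le_total A (y i) with h2 | h2
        · rw [max_eq_left (by linarith)]
          nlinarith [mul_nonneg (mul_nonneg hA hA) (by linarith : 0 ≤ 3 * y i - A)]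
        · rw [max_eq_right (by linarith)]
          nlinarith [mul_nonneg (sq_nonneg (y i)) (by linarith : 0 ≤ 3 * A - y i)]
      refine le_trans ?_ (Finset.sum_le_sum fun i _ => h5 i)
      rw [Finset.sum_sub_distrib, ← Finset.mul_sum, hD]
      have h6 : 0 ≤ ∑ i, y i * (y i - D) ^ 2 :=
        Finset.sum_nonneg fun i _ => mul_nonneg (hy i) (sq_nonneg _)
      have h7 : ∑ i, y i * (y i - D) ^ 2 = ∑ i, y i ^ 3 - 2 * D * ∑ i, y i ^ 2 + D ^ 2 * ∑ i, y i := by
        rw [Finset.mul_sum, Finset.mul_sum, ← Finset.sum_sub_distrib, ← Finset.sum_add_distrib]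
        exact Finset.sum_congr rfl fun i _ => by ring
      rw [h7, hD, h1] at h6
      nlinarith
    · have h2 := Finset.single_le_sum (f := fun i => max (y i - A) 0 ^ 3)
        (fun i _ => pow_nonneg (le_max_right _ _) 3) (Finset.mem_univ k)
      refine le_trans ?_ h2
      exact pow_le_pow_left₀ (le_max_right _ _) (max_le_max (by linarith) le_rfl) 3

section

variable {W : Type*} [NormedAddCommGroup W] [InnerProductSpace ℝ W] [FiniteDimensional ℝ W]
  [MeasurableSpace W] [BorelSpace W] {Ω : Type*} [MeasurableSpace Ω]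

/-- the second moments -/
noncomputable def Bn (μ : Measure Ω) (n : Ω → W) (u v : W) : ℝ := ∫ x, ⟪n x, u⟫ * ⟪n x, v⟫ ∂μ

variable {μ : Measure Ω} [IsFiniteMeasure μ] {n : Ω → W}

lemma Bn_comm (u v : W) : Bn μ n u v = Bn μ n v u := by
  unfold Bn
  exact integral_congr_ae (Eventually.of_forall fun x => mul_comm _ _)

variable (hn : Measurable n) (hn1 : ∀ x, ‖n x‖ = 1)
include hn hn1

lemma Bn_int (u v : W) : Integrable (fun x => ⟪n x, u⟫ * ⟪n x, v⟫) μ :=
  ((BM_p hn hn1 u).mul (BM_p hn hn1 v)).int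

lemma Bn_add (u v w : W) : Bn μ n u (v + w) = Bn μ n u v + Bn μ n u w := by
  unfold Bn
  rw [← integral_add (Bn_int hn hn1 u v) (Bn_int hn hn1 u w)]
  refine integral_congr_ae (Eventually.of_forall fun x => ?_)
  simp only [inner_add_right]
  ring

lemma Bn_smul (u v : W) (c : ℝ) : Bn μ n u (c • v) = c * Bn μ n u v := by
  unfold Bn
  rw [← integral_const_mul]
  refine integral_congr_ae (Eventually.of_forall fun x => ?_)
  simp only [inner_smul_right]
  ring

/-- the second moment operator -/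
noncomputable def Tn {ι : Type*} [Fintype ι] (b : OrthonormalBasis ι ℝ W) : W →ₗ[ℝ] W where
  toFun u := ∑ a, Bn μ n (b a) u • b a
  map_add' u v := by
    rw [← Finset.sum_add_distrib]
    refine Finset.sum_congr rfl fun a _ => ?_
    rw [Bn_add hn hn1, add_smul]
  map_smul' c u := by
    rw [RingHom.id_apply, Finset.smul_sum]
    refine Finset.sum_congr rfl fun a _ => ?_
    rw [Bn_smul hn hn1, smul_smul]

lemma Tn_inner {ι : Type*} [Fintype ι] (b : OrthonormalBasis ι ℝ W) (u v : W) :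
    ⟪Tn (μ := μ) hn hn1 b u, v⟫ = Bn μ n u v := by
  have e1 : Tn (μ := μ) hn hn1 b u = ∑ a, Bn μ n (b a) u • b a := rfl
  rw [e1, sum_inner]
  simp only [real_inner_smul_left]
  unfold Bn
  simp only [← integral_mul_const]
  rw [← integral_finsetSum _ fun a _ => (Bn_int hn hn1 (b a) u).mul_const _]
  refine integral_congr_ae (Eventually.of_forall fun x => ?_)
  simp only
  have h1 := b.sum_inner_mul_inner (n x) v
  rw [← h1, Finset.mul_sum]
  refine Finset.sum_congr rfl fun a _ => ?_
  ring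

lemma Tn_symm {ι : Type*} [Fintype ι] (b : OrthonormalBasis ι ℝ W) :
    (Tn (μ := μ) hn hn1 b).IsSymmetric := by
  intro u v
  rw [Tn_inner, real_inner_comm, Tn_inner, Bn_comm]

/-- **the eigenbasis** -/
theorem exists_eigN [IsProbabilityMeasure μ] {ι : Type*} [Fintype ι] (b : OrthonormalBasis ι ℝ W) :
    ∃ e : OrthonormalBasis (Fin (finrank ℝ W)) ℝ W,
      (∑ i, Bn μ n (e i) (e i) = 1) ∧
      (∑ i, Bn μ n (e i) (e i) ^ 2 = ∑ a, ∑ c, Bn μ n (b a) (b c) ^ 2) ∧
      ∀ v : W, ‖v‖ = 1 → ∃ i, Bn μ n v v ≤ Bn μ n (e i) (e i) := by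
  set T := Tn (μ := μ) hn hn1 b with hT
  have hs : T.IsSymmetric := Tn_symm hn hn1 b
  set e := hs.eigenvectorBasis rfl with he
  set l : Fin (finrank ℝ W) → ℝ := hs.eigenvalues rfl with hl
  have hTe : ∀ i, T (e i) = l i • e i := by
    intro i
    exact hs.apply_eigenvectorBasis rfl i
  have hin : ∀ u v, ⟪T u, v⟫ = Bn μ n u v := fun u v => Tn_inner hn hn1 b u v
  have hll : ∀ i, Bn μ n (e i) (e i) = l i := by
    intro i
    rw [← hin, hTe, real_inner_smul_left, real_inner_self_eq_norm_sq, e.orthonormal.1 i]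
    ring
  have hue : ∀ u i, ⟪T u, e i⟫ = l i * ⟪u, e i⟫ := by
    intro u i
    rw [hs, hTe, real_inner_smul_right]
  refine ⟨e, ?_, ?_, ?_⟩
  · unfold Bn
    rw [← integral_finsetSum _ fun i _ => Bn_int hn hn1 (e i) (e i)]
    have h1 : ∀ x, ∑ i, ⟪n x, e i⟫ * ⟪n x, e i⟫ = 1 := by
      intro x
      have h2 := e.sum_inner_mul_inner (n x) (n x)
      rw [real_inner_self_eq_norm_sq, hn1, one_pow] at h2
      rw [← h2]
      exact Finset.sum_congr rfl fun i _ => by rw [real_inner_comm (n x) (e i)]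
    simp only [h1]
    simp
  · simp only [hll]
    have h1 : ∀ a, ∑ c, Bn μ n (b a) (b c) ^ 2 = ∑ i, l i ^ 2 * ⟪b a, e i⟫ ^ 2 := by
      intro a
      have h2 : ∑ c, Bn μ n (b a) (b c) ^ 2 = ‖T (b a)‖ ^ 2 := by
        rw [← b.sum_sq_norm_inner_left]
        refine Finset.sum_congr rfl fun c _ => ?_
        rw [hin, Real.norm_eq_abs, sq_abs]
      rw [h2, ← e.sum_sq_norm_inner_left]
      refine Finset.sum_congr rfl fun i _ => ?_
      rw [hue, Real.norm_eq_abs, sq_abs, mul_pow]
    simp only [h1]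
    rw [Finset.sum_comm]
    refine Finset.sum_congr rfl fun i _ => ?_
    rw [← Finset.mul_sum]
    have h3 : ∑ a, ⟪b a, e i⟫ ^ 2 = 1 := by
      have h4 := b.sum_sq_norm_inner_right (e i)
      rw [e.orthonormal.1 i, one_pow] at h4
      rw [← h4]
      exact Finset.sum_congr rfl fun a _ => by rw [Real.norm_eq_abs, sq_abs]
    rw [h3, mul_one]
  · intro v hv
    by_contra hcon
    push Not at hcon
    simp only [hll] at hcon
    have h1 : Bn μ n v v = ∑ i, l i * ⟪v, e i⟫ ^ 2 := by
      rw [← hin, ← e.sum_inner_mul_inner (T v) v]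
      refine Finset.sum_congr rfl fun i _ => ?_
      rw [hue, real_inner_comm v (e i)]
      ring
    have h2 : ∑ i, ⟪v, e i⟫ ^ 2 = 1 := by
      have h4 := e.sum_sq_norm_inner_left v
      rw [hv, one_pow] at h4
      rw [← h4]
      exact Finset.sum_congr rfl fun a _ => by rw [Real.norm_eq_abs, sq_abs]
    have h3 : ∑ i, l i * ⟪v, e i⟫ ^ 2 < ∑ i, Bn μ n v v * ⟪v, e i⟫ ^ 2 := by
      refine Finset.sum_lt_sum (fun i _ => mul_le_mul_of_nonneg_right (hcon i).le (sq_nonneg _)) ?_
      by_contra h5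
      push Not at h5
      have h6 : ∀ i, ⟪v, e i⟫ ^ 2 = 0 := by
        intro i
        have h7 := h5 i (Finset.mem_univ i)
        have h8 : 0 ≤ ⟪v, e i⟫ ^ 2 := sq_nonneg _
        rcases h8.eq_or_lt with h9 | h9
        · exact h9.symm
        · have := mul_lt_mul_of_pos_right (hcon i) h9
          linarith
      simp only [h6, Finset.sum_const_zero] at h2
      exact zero_ne_one h2
    rw [← Finset.mul_sum, h2, mul_one, ← h1] at h3
    exact lt_irrefl _ h3

end

end Vale.Agent.P224.R2.H662
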