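import Vale.Agent.P224.R2.H470.Quad

/-!
The rows of the fields `φ(⟨x, A x⟩) A x` for positive `A`: large values of `⟨x, A x⟩`.
-/

namespace Vale.Agent.P224.R2.H662

open MeasureTheory Module Function Set Vale.Agent.P224.R2.H470
open scoped RealInnerProductSpace Topology ContDiff

set_option linter.unusedSectionVars false

section

variable {X : Type*} {E : Type*} [NormedAddCommGroup E] [InnerProductSpace ℝ E]
  [FiniteDimensional ℝ E] [TopologicalSpace X] [MeasurableSpace X] [CompactSpace X] [BorelSpace X]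
  {μ : Measure X} [IsFiniteMeasure μ] {m : ℕ} {p n : X → E}

/-- the row of the field `φ(⟨x, A x⟩) A x` -/
theorem phi_row (h : OneP μ m p n) {A : E →L[ℝ] E} (hA : ∀ u v, ⟪A u, v⟫ = ⟪u, A v⟫)
    {φ φ' : ℝ → ℝ} (hφ : ContDiff ℝ ∞ φ) (hd : ∀ s, HasDerivAt φ (φ' s) s) (hc : Continuous φ') :
    (m + 1) * ∫ x, ⟪p x, A (p x)⟫ * φ ⟪p x, A (p x)⟫ ∂μ
      = ∫ x, (φ ⟪p x, A (p x)⟫ * LinearMap.trace ℝ E (A : E →ₗ[ℝ] E)
          - φ ⟪p x, A (p x)⟫ * ⟪n x, A (n x)⟫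
          + 2 * φ' ⟪p x, A (p x)⟫ * (‖A (p x)‖ ^ 2 - ⟪p x, A (p x)⟫ ^ 2 - ⟪A (p x), n x⟫ ^ 2)) ∂μ := by
  have cp := h.cp
  have cn := h.cn
  have cφ : Continuous φ := hφ.continuous
  set e := stdOrthonormalBasis ℝ E with he
  have hq : ContDiff ℝ ∞ (fun u : E => ⟪u, A u⟫) := contDiff_id.inner ℝ A.contDiff
  have hW : ContDiff ℝ ∞ (fun u : E => φ ⟪u, A u⟫ • A u) := (hφ.comp hq).smul A.contDiff
  have hdW : ∀ u, HasFDerivAt (fun u : E => φ ⟪u, A u⟫ • A u)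
      (φ ⟪u, A u⟫ • A + (φ' ⟪u, A u⟫ • ((2 : ℝ) • innerSL ℝ (A u))).smulRight (A u)) u := fun u =>
    ((hd _).comp_hasFDerivAt u (hasFD_quad hA u)).smul (A.hasFDerivAt (x := u))
  have hcW : Continuous fun u : E =>
      (φ ⟪u, A u⟫ • A + (φ' ⟪u, A u⟫ • ((2 : ℝ) • innerSL ℝ (A u))).smulRight (A u)) := by
    refine continuous_clm_apply.2 fun y => ?_
    simp only [_root_.add_apply, _root_.smul_apply, ContinuousLinearMap.smulRight_apply,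
      innerSL_apply_apply, smul_eq_mul]
    fun_prop
  have h1 := h.rv hW hdW hcW
  have htr : ∀ u : E, LinearMap.trace ℝ E
      ((φ ⟪u, A u⟫ • A + (φ' ⟪u, A u⟫ • ((2 : ℝ) • innerSL ℝ (A u))).smulRight (A u)
        : E →L[ℝ] E) : E →ₗ[ℝ] E)
      = φ ⟪u, A u⟫ * LinearMap.trace ℝ E (A : E →ₗ[ℝ] E) + 2 * φ' ⟪u, A u⟫ * ‖A u‖ ^ 2 := by
    intro u
    rw [LinearMap.trace_eq_sum_inner _ e, LinearMap.trace_eq_sum_inner _ e,
      ← real_inner_self_eq_norm_sq, ← e.sum_inner_mul_inner (A u) (A u), Finset.mul_sum,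
      Finset.mul_sum, ← Finset.sum_add_distrib]
    refine Finset.sum_congr rfl fun i _ => ?_
    simp only [ContinuousLinearMap.coe_coe, _root_.add_apply, _root_.smul_apply,
      ContinuousLinearMap.smulRight_apply, innerSL_apply_apply, smul_eq_mul, inner_add_right,
      inner_smul_right]
    ring
  simp only [htr] at h1
  simp only [_root_.add_apply, _root_.smul_apply,
      ContinuousLinearMap.smulRight_apply, innerSL_apply_apply, smul_eq_mul, inner_add_left,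
      inner_smul_left, inner_smul_right, RCLike.conj_to_real] at h1
  have e2 : ∀ x, φ ⟪p x, A (p x)⟫ * LinearMap.trace ℝ E (A : E →ₗ[ℝ] E)
        + 2 * φ' ⟪p x, A (p x)⟫ * ‖A (p x)‖ ^ 2
      - (φ ⟪p x, A (p x)⟫ * ⟪A (p x), p x⟫
        + φ' ⟪p x, A (p x)⟫ * (2 * ⟪A (p x), p x⟫) * ⟪A (p x), p x⟫)
      - (φ ⟪p x, A (p x)⟫ * ⟪A (n x), n x⟫
        + φ' ⟪p x, A (p x)⟫ * (2 * ⟪A (p x), n x⟫) * ⟪A (p x), n x⟫)
      = (φ ⟪p x, A (p x)⟫ * LinearMap.trace ℝ E (A : E →ₗ[ℝ] E)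
          - φ ⟪p x, A (p x)⟫ * ⟪n x, A (n x)⟫
          + 2 * φ' ⟪p x, A (p x)⟫ * (‖A (p x)‖ ^ 2 - ⟪p x, A (p x)⟫ ^ 2 - ⟪A (p x), n x⟫ ^ 2))
        - ⟪p x, A (p x)⟫ * φ ⟪p x, A (p x)⟫ := by
    intro x
    rw [hA (p x) (p x), hA (n x) (n x)]
    ring
  simp only [e2] at h1
  have e3 : ∫ x, φ ⟪p x, A (p x)⟫ * ⟪p x, A (p x)⟫ ∂μ
      = ∫ x, ⟪p x, A (p x)⟫ * φ ⟪p x, A (p x)⟫ ∂μ := by
    refine integral_congr_ae (Filter.Eventually.of_forall fun x => ?_)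
    simp only
    ring
  have c3 : Continuous fun x => (φ ⟪p x, A (p x)⟫ * LinearMap.trace ℝ E (A : E →ₗ[ℝ] E)
          - φ ⟪p x, A (p x)⟫ * ⟪n x, A (n x)⟫
          + 2 * φ' ⟪p x, A (p x)⟫
            * (‖A (p x)‖ ^ 2 - ⟪p x, A (p x)⟫ ^ 2 - ⟪A (p x), n x⟫ ^ 2)) := by fun_prop
  rw [integral_sub (int_of_cont c3) (int_of_cont (by fun_prop)), e3] at h1
  linarith

/-- the exponential row of a positive operator -/
theorem exp_row (h : OneP μ m p n) {A : E →L[ℝ] E} (hA : ∀ u v, ⟪A u, v⟫ = ⟪u, A v⟫)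
    (h0 : ∀ u, 0 ≤ ⟪u, A u⟫) {j2 : ℝ} (hj : ∀ u, ‖A u‖ ^ 2 ≤ j2 * ⟪u, A u⟫) {l : ℝ} (hl : 0 ≤ l) :
    ∫ x, Real.exp (l * ⟪p x, A (p x)⟫) * ((m + 1 - 2 * l * j2) * ⟪p x, A (p x)⟫
      - LinearMap.trace ℝ E (A : E →ₗ[ℝ] E)) ∂μ ≤ 0 := by
  have cp := h.cp
  have cn := h.cn
  have hφ : ContDiff ℝ ∞ (fun s : ℝ => Real.exp (l * s)) := by fun_prop
  have hd : ∀ s : ℝ, HasDerivAt (fun s : ℝ => Real.exp (l * s)) (l * Real.exp (l * s)) s := by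
    intro s
    have h1 : HasDerivAt (fun s : ℝ => l * s) l s := by simpa using (hasDerivAt_id s).const_mul l
    have h2 := h1.exp
    rwa [mul_comm] at h2
  have h1 := phi_row h hA hφ hd (by fun_prop)
  set τ := LinearMap.trace ℝ E (A : E →ₗ[ℝ] E)
  have h2 : ∫ x, (Real.exp (l * ⟪p x, A (p x)⟫) * τ
          - Real.exp (l * ⟪p x, A (p x)⟫) * ⟪n x, A (n x)⟫
          + 2 * (l * Real.exp (l * ⟪p x, A (p x)⟫))
            * (‖A (p x)‖ ^ 2 - ⟪p x, A (p x)⟫ ^ 2 - ⟪A (p x), n x⟫ ^ 2)) ∂μ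
      ≤ ∫ x, (Real.exp (l * ⟪p x, A (p x)⟫) * τ
          + 2 * l * j2 * (⟪p x, A (p x)⟫ * Real.exp (l * ⟪p x, A (p x)⟫))) ∂μ := by
    refine integral_mono (int_of_cont (by fun_prop)) (int_of_cont (by fun_prop)) fun x => ?_
    simp only
    have k1 := h0 (n x)
    have k2 := hj (p x)
    have k3 : 0 < Real.exp (l * ⟪p x, A (p x)⟫) := Real.exp_pos _
    set ee := Real.exp (l * ⟪p x, A (p x)⟫)
    have k4 : 0 ≤ ee * ⟪n x, A (n x)⟫ := mul_nonneg k3.le k1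
    have k5 : ee * l * (‖A (p x)‖ ^ 2 - ⟪p x, A (p x)⟫ ^ 2 - ⟪A (p x), n x⟫ ^ 2)
        ≤ ee * l * (j2 * ⟪p x, A (p x)⟫) := by
      refine mul_le_mul_of_nonneg_left ?_ (mul_nonneg k3.le hl)
      nlinarith [sq_nonneg ⟪p x, A (p x)⟫, sq_nonneg ⟪A (p x), n x⟫]
    linarith
  have h3 : ∫ x, (Real.exp (l * ⟪p x, A (p x)⟫) * τ
          + 2 * l * j2 * (⟪p x, A (p x)⟫ * Real.exp (l * ⟪p x, A (p x)⟫))) ∂μ
      = ∫ x, Real.exp (l * ⟪p x, A (p x)⟫) * τ ∂μ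
        + 2 * l * j2 * ∫ x, ⟪p x, A (p x)⟫ * Real.exp (l * ⟪p x, A (p x)⟫) ∂μ := by
    rw [integral_add (int_of_cont (by fun_prop)) (int_of_cont (by fun_prop)), integral_const_mul]
  have h4 : ∫ x, Real.exp (l * ⟪p x, A (p x)⟫) * ((m + 1 - 2 * l * j2) * ⟪p x, A (p x)⟫ - τ) ∂μ
      = (m + 1 - 2 * l * j2) * ∫ x, ⟪p x, A (p x)⟫ * Real.exp (l * ⟪p x, A (p x)⟫) ∂μ
        - ∫ x, Real.exp (l * ⟪p x, A (p x)⟫) * τ ∂μ := by
    rw [← integral_const_mul, ← integral_sub (int_of_cont (by fun_prop))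
      (int_of_cont (by fun_prop))]
    refine integral_congr_ae (Filter.Eventually.of_forall fun x => ?_)
    simp only
    ring
  rw [h4]
  linarith

end

end Vale.Agent.P224.R2.H662
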