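import Vale.Agent.P224.R2.H662.Chi

/-!
The tensor `E N ⊗ N ⊗ x` at level zero.
-/

namespace Vale.Agent.P224.R2.H662

open MeasureTheory Set Filter Function Real Finset Matrix
open Vale.Agent.P224.R2.H728

set_option linter.unusedSectionVars false

section

variable {ι Ω : Type*} [Fintype ι] [DecidableEq ι] [MeasurableSpace Ω] {μ : Measure Ω}
  {m : ℝ} {x N : ι → Ω → ℝ}

lemma fro_half_add (A : Matrix ι ι ℝ) : fro ((1 / 2 : ℝ) • (A + Aᵀ)) ≤ fro A := by
  have h1 : fro A = 1 / 2 * ∑ a, ∑ b, A a b ^ 2 + 1 / 2 * ∑ a, ∑ b, A b a ^ 2 := by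
    rw [Finset.sum_comm (f := fun a b => A b a ^ 2)]
    unfold fro
    ring
  rw [h1, Finset.mul_sum, Finset.mul_sum, ← Finset.sum_add_distrib]
  unfold fro
  refine Finset.sum_le_sum fun a _ => ?_
  rw [Finset.mul_sum, Finset.mul_sum, ← Finset.sum_add_distrib]
  refine Finset.sum_le_sum fun b _ => ?_
  simp only [Matrix.smul_apply, Matrix.add_apply, Matrix.transpose_apply, smul_eq_mul]
  nlinarith [sq_nonneg (A a b - A b a)]

lemma quad_half_add (A : Matrix ι ι ℝ) (v : ι → ℝ) :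
    v ⬝ᵥ (((1 / 2 : ℝ) • (A + Aᵀ)) *ᵥ v) = v ⬝ᵥ (A *ᵥ v) := by
  have h1 : v ⬝ᵥ (Aᵀ *ᵥ v) = v ⬝ᵥ (A *ᵥ v) := by
    rw [Matrix.mulVec_transpose, dotProduct_comm, ← dotProduct_mulVec]
  rw [Matrix.smul_mulVec, dotProduct_smul, Matrix.add_mulVec, dotProduct_add, h1, smul_eq_mul]
  ring

lemma trace_one_card (h : T0Data μ m x N) : (1 : Matrix ι ι ℝ).trace = m + 2 := by
  rw [Matrix.trace_one, h.card]

lemma fro_sub_tr (h : T0Data μ m x N) (hm : 0 < m + 2) (A : Matrix ι ι ℝ) :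
    fro (A - (A.trace / (m + 2)) • (1 : Matrix ι ι ℝ)) ≤ fro A := by
  set c := A.trace / (m + 2) with hc
  have e : ∀ a b, (A - c • (1 : Matrix ι ι ℝ)) a b ^ 2
      = A a b ^ 2 - (if a = b then (2 * c * A a b - c ^ 2) else 0) := by
    intro a b
    simp only [Matrix.sub_apply, Matrix.smul_apply, Matrix.one_apply, smul_eq_mul]
    split_ifs <;> ring
  have h1 : fro (A - c • (1 : Matrix ι ι ℝ)) = fro A - (2 * c * A.trace - c ^ 2 * (m + 2)) := by
    unfold fro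
    simp_rw [e]
    simp only [Finset.sum_sub_distrib, Finset.sum_ite_eq, Finset.mem_univ, if_true,
      Finset.sum_const, ← Finset.mul_sum, Matrix.trace, Matrix.diag_apply, Finset.card_univ,
      nsmul_eq_mul, h.card]
    ring
  have h2 : A.trace = c * (m + 2) := by rw [hc]; field_simp
  rw [h1, h2]
  nlinarith [mul_nonneg (sq_nonneg c) hm.le]

namespace T0

/-- the variance of a quadratic form -/
theorem quad_gen (h : T0Data μ m x N) (hm : 0 ≤ m) (A : Matrix ι ι ℝ) :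
    ∫ ω, (vc x ω ⬝ᵥ (A *ᵥ vc x ω) - A.trace / (m + 2)) ^ 2 ∂μ
      ≤ 16 / ((m + 1) * (7 * m + 23)) * fro A := by
  have hm2 : 0 < m + 2 := by linarith
  set B : Matrix ι ι ℝ := (1 / 2 : ℝ) • (A + Aᵀ) with hB
  set C : Matrix ι ι ℝ := B - (B.trace / (m + 2)) • (1 : Matrix ι ι ℝ) with hC
  have hBt : B.trace = A.trace := by
    rw [hB, trace_smul, trace_add, trace_transpose, smul_eq_mul]
    ring
  have hBs : B.IsSymm := by
    unfold Matrix.IsSymm
    rw [hB, transpose_smul, transpose_add, transpose_transpose, add_comm]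
  have hCs : C.IsSymm := by
    unfold Matrix.IsSymm
    rw [hC, transpose_sub, hBs, transpose_smul, transpose_one]
  have hCt : C.trace = 0 := by
    rw [hC, trace_sub, hBt, trace_smul, trace_one_card h, smul_eq_mul]
    field_simp
    ring
  have h1 := h.quad_bound hm hCs hCt
  have e : ∀ ω, vc x ω ⬝ᵥ (C *ᵥ vc x ω) = vc x ω ⬝ᵥ (A *ᵥ vc x ω) - A.trace / (m + 2) := by
    intro ω
    rw [hC, Matrix.sub_mulVec, dotProduct_sub, hB, quad_half_add, Matrix.smul_mulVec,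
      Matrix.one_mulVec, dotProduct_smul, h.vv, ← hB, hBt, smul_eq_mul, mul_one]
  simp_rw [e] at h1
  refine h1.trans (mul_le_mul_of_nonneg_left ?_ (by positivity))
  exact (fro_sub_tr h hm2 B).trans (fro_half_add A)

/-- second moments of linear forms -/
theorem lin2 (h : T0Data μ m x N) (v : ι → ℝ) :
    (m + 1) * ∫ ω, (v ⬝ᵥ vc x ω) ^ 2 ∂μ + ∫ ω, (v ⬝ᵥ vc N ω) ^ 2 ∂μ = v ⬝ᵥ v := by
  have := h.prob
  have e0 : ∀ w : ι → ℝ, (v ⬝ᵥ w) ^ 2 = w ⬝ᵥ (sqm (fun _ : Unit => v) *ᵥ w) := by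
    intro w
    rw [sqm_quad]
    simp [sqf]
  simp_rw [e0]
  rw [int_qf1 _ h.bx h.bx, int_qf1 _ h.bN h.bN, Finset.mul_sum, ← Finset.sum_add_distrib]
  have e1 : v ⬝ᵥ v = (sqm fun _ : Unit => v).trace := by
    rw [sqm_trace]
    simp [siz]
  rw [e1, Matrix.trace]
  refine Finset.sum_congr rfl fun a _ => ?_
  rw [Finset.mul_sum, ← Finset.sum_add_distrib, Matrix.diag_apply]
  set B := sqm fun _ : Unit => v
  have e : ∀ b, (m + 1) * (B a b * m2 μ x x a b) + B a b * m2 μ N N a b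
      = if a = b then B a b else 0 := by
    intro b
    have k1 := h.GP a b
    have k2 : (if a = b then B a b else 0) = B a b * (if a = b then 1 else 0) := by
      split_ifs <;> simp
    rw [k2, ← k1]
    ring
  simp_rw [e]
  simp

end T0

lemma dot_self_nonneg (v : ι → ℝ) : 0 ≤ v ⬝ᵥ v := Finset.sum_nonneg fun _ _ => mul_self_nonneg _

lemma fro_mul_le {J : Matrix ι ι ℝ} {j2 : ℝ} (hj : ∀ v : ι → ℝ, (J *ᵥ v) ⬝ᵥ (J *ᵥ v) ≤ j2 * (v ⬝ᵥ v))
    (M : Matrix ι ι ℝ) : fro (J * M) ≤ j2 * fro M := by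
  have e : ∀ A : Matrix ι ι ℝ, fro A = ∑ b, (fun a => A a b) ⬝ᵥ (fun a => A a b) := by
    intro A
    unfold fro
    rw [Finset.sum_comm]
    exact Finset.sum_congr rfl fun b _ => Finset.sum_congr rfl fun a _ => sq _
  rw [e, e, Finset.mul_sum]
  refine Finset.sum_le_sum fun b _ => ?_
  have h1 := hj fun a => M a b
  have h2 : (J *ᵥ fun a => M a b) = fun a => (J * M) a b := by
    ext a
    rfl
  rwa [h2] at h1

lemma fro_transpose (M : Matrix ι ι ℝ) : fro Mᵀ = fro M := by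
  unfold fro
  rw [Finset.sum_comm]
  rfl

lemma fro_mul_le' {J : Matrix ι ι ℝ} (hJ : J.IsSymm) {j2 : ℝ}
    (hj : ∀ v : ι → ℝ, (J *ᵥ v) ⬝ᵥ (J *ᵥ v) ≤ j2 * (v ⬝ᵥ v))
    (M : Matrix ι ι ℝ) : fro (M * J) ≤ j2 * fro M := by
  rw [← fro_transpose, transpose_mul, hJ, ← fro_transpose M]
  exact fro_mul_le hj _

lemma cs3 (A B : ι → ι → ι → ℝ) :
    (∑ a, ∑ b, ∑ c, A a b c * B a b c) ^ 2 ≤ fr3 A * fr3 B := by
  have e : ∀ F : ι → ι → ι → ℝ, ∑ a, ∑ b, ∑ c, F a b c = ∑ q : ι × ι × ι, F q.1 q.2.1 q.2.2 := by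
    intro F
    rw [Fintype.sum_prod_type]
    refine Finset.sum_congr rfl fun a _ => ?_
    rw [Fintype.sum_prod_type]
  unfold fr3
  rw [e, e, e]
  exact Finset.sum_mul_sq_le_sq_mul_sq _ _ _

lemma le_sqrt_of_sq {a b : ℝ} (hab : a ^ 2 ≤ b) : a ≤ √b :=
  (le_abs_self a).trans (by rw [← Real.sqrt_sq_eq_abs]; exact Real.sqrt_le_sqrt hab)

namespace T0

/-- the tensor `E N ⊗ N ⊗ x` -/
theorem g1 (h : T0Data μ m x N) (hm : 0 < m) {J : Matrix ι ι ℝ} (hJ : J.IsSymm) {j2 : ℝ}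
    (hj0 : 0 ≤ j2) (hj : ∀ v : ι → ℝ, (J *ᵥ v) ⬝ᵥ (J *ᵥ v) ≤ j2 * (v ⬝ᵥ v)) :
    (1 - 2 * j2 / (m + 2)) * fr3 (m3 μ N N x)
      ≤ 2 * √(hh μ J x N * (16 / ((m + 1) * (7 * m + 23)) * (j2 * fr3 (m3 μ N N x))))
        + √(fr3 (m3 μ N N x) * fr3 (m3 μ (ze J x N) (ze J x N) x))
        + √((∑ a, m1 μ N a ^ 2) / (m + 1) * ∫ ω, (vc x ω ⬝ᵥ (J *ᵥ vc x ω)) ^ 2 ∂μ) := by
  have := h.prob
  set T := m3 μ N N x with hT
  set t := fr3 T with ht
  set z := ze J x N with hz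
  set S := m3 μ x x x with hS
  have bz : ∀ a, BM (z a) := h.bz J
  have hTS : ∀ a b c, T a b c = -((m + 2) / 2) * S a b c := h.NNx
  have hm2 : (0 : ℝ) < m + 2 := by linarith
  have ht0 : 0 ≤ t := fr3_nonneg T
  have T1 : ∀ a b c, T a b c = T b a c := fun a b c =>
    integral_congr_ae (Eventually.of_forall fun ω => by ring)
  have S2 : ∀ a b c, S a b c = S a c b := fun a b c =>
    integral_congr_ae (Eventually.of_forall fun ω => by ring)
  -- the linear part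
  let y : ι → Ω → ℝ := fun a ω => (J *ᵥ vc x ω) a
  have by' : ∀ a, BM (y a) := fun a => BM.sum _ fun c _ => (h.bx c).const_mul _
  have hNy : ∀ a ω, N a ω = y a ω + z a ω := by
    intro a ω
    simp only [y, hz, ze, mulVec, dotProduct, vc]
    ring
  -- decomposition
  have e0 : t = ∫ ω, ∑ a, ∑ b, ∑ c, T a b c * (N a ω * N b ω * x c ω) ∂μ := by
    rw [int_cub T h.bN h.bN h.bx, ht]
    unfold fr3
    exact Finset.sum_congr rfl fun a _ => Finset.sum_congr rfl fun b _ =>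
      Finset.sum_congr rfl fun c _ => by rw [hT]; ring
  have e1 : ∀ ω, ∑ a, ∑ b, ∑ c, T a b c * (N a ω * N b ω * x c ω)
      = ∑ a, ∑ b, ∑ c, T a b c * (y a ω * y b ω * x c ω)
        + 2 * ∑ a, ∑ b, ∑ c, T a b c * (z a ω * y b ω * x c ω)
        + ∑ a, ∑ b, ∑ c, T a b c * (z a ω * z b ω * x c ω) := by
    intro ω
    have k1 : ∑ a, ∑ b, ∑ c, T a b c * (y a ω * z b ω * x c ω)
        = ∑ a, ∑ b, ∑ c, T a b c * (z a ω * y b ω * x c ω) := by
      rw [Finset.sum_comm]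
      refine Finset.sum_congr rfl fun a _ => Finset.sum_congr rfl fun b _ =>
        Finset.sum_congr rfl fun c _ => ?_
      rw [T1 b a c]
      ring
    have k2 : ∑ a, ∑ b, ∑ c, T a b c * (N a ω * N b ω * x c ω)
        = ∑ a, ∑ b, ∑ c, T a b c * (y a ω * y b ω * x c ω)
        + ∑ a, ∑ b, ∑ c, T a b c * (z a ω * y b ω * x c ω)
        + ∑ a, ∑ b, ∑ c, T a b c * (y a ω * z b ω * x c ω)
        + ∑ a, ∑ b, ∑ c, T a b c * (z a ω * z b ω * x c ω) := by
      simp only [← Finset.sum_add_distrib]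
      refine Finset.sum_congr rfl fun a _ => Finset.sum_congr rfl fun b _ =>
        Finset.sum_congr rfl fun c _ => ?_
      rw [hNy a ω, hNy b ω]
      ring
    rw [k2, k1]
    ring
  have bT : ∀ {f g k : ι → Ω → ℝ}, (∀ a, BM (f a)) → (∀ a, BM (g a)) → (∀ a, BM (k a)) →
      BM (fun ω => ∑ a, ∑ b, ∑ c, T a b c * (f a ω * g b ω * k c ω)) := fun hf hg hk =>
    BM.sum _ fun a _ => BM.sum _ fun b _ => BM.sum _ fun c _ =>
      (((hf a).mul (hg b)).mul (hk c)).const_mul _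
  have c1 := bT by' by' h.bx
  have c2 := bT bz by' h.bx
  have c3 := bT bz bz h.bx
  have e2 : t = ∫ ω, ∑ a, ∑ b, ∑ c, T a b c * (y a ω * y b ω * x c ω) ∂μ
      + 2 * ∫ ω, ∑ a, ∑ b, ∑ c, T a b c * (z a ω * y b ω * x c ω) ∂μ
      + ∫ ω, ∑ a, ∑ b, ∑ c, T a b c * (z a ω * z b ω * x c ω) ∂μ := by
    rw [e0]
    simp_rw [e1]
    have i12 : Integrable (fun ω => ∑ a, ∑ b, ∑ c, T a b c * (y a ω * y b ω * x c ω)
        + 2 * ∑ a, ∑ b, ∑ c, T a b c * (z a ω * y b ω * x c ω)) μ :=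
      (c1.add (c2.const_mul 2)).int
    rw [integral_add i12 c3.int, integral_add c1.int (c2.const_mul 2).int, integral_const_mul]
  -- first part
  have p1 : ∫ ω, ∑ a, ∑ b, ∑ c, T a b c * (y a ω * y b ω * x c ω) ∂μ ≤ 2 * j2 / (m + 2) * t := by
    rw [int_cub T by' by' h.bx]
    set D := m3 μ y y x with hD
    have hDm : ∀ c a b, D a b c = (J * (Matrix.of fun a b => S a b c) * J) a b := by
      intro c a b
      have e : ∀ ω, y a ω * y b ω * x c ω
          = ∑ a', ∑ b', (J a a' * J b b') * (x a' ω * x b' ω * x c ω) := by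
        intro ω
        simp only [y, mulVec, dotProduct, vc]
        rw [Finset.sum_mul_sum, Finset.sum_mul]
        refine Finset.sum_congr rfl fun a' _ => ?_
        rw [Finset.sum_mul]
        exact Finset.sum_congr rfl fun b' _ => by ring
      have i1 : ∀ a' b', BM (fun ω => (J a a' * J b b') * (x a' ω * x b' ω * x c ω)) :=
        fun a' b' => (((h.bx a').mul (h.bx b')).mul (h.bx c)).const_mul _
      have i2 : ∀ a', BM (fun ω => ∑ b', (J a a' * J b b') * (x a' ω * x b' ω * x c ω)) :=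
        fun a' => BM.sum _ fun b' _ => i1 a' b'
      rw [hD]
      unfold m3
      simp_rw [e]
      rw [integral_finsetSum _ fun a' _ => (i2 a').int]
      simp only [Matrix.mul_apply, Matrix.of_apply, Finset.sum_mul]
      rw [Finset.sum_comm]
      refine Finset.sum_congr rfl fun a' _ => ?_
      rw [integral_finsetSum _ fun b' _ => (i1 a' b').int]
      refine Finset.sum_congr rfl fun b' _ => ?_
      rw [integral_const_mul, hJ.apply b' b]
      have k : ∫ ω, x a' ω * x b' ω * x c ω ∂μ = S a' b' c := rfl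
      rw [k]
      ring
    have hDf : fr3 D ≤ (2 * j2 / (m + 2)) ^ 2 * t := by
      have k0 : ∀ F : ι → ι → ι → ℝ, fr3 F = ∑ c, fro (Matrix.of fun a b => F a b c) := by
        intro F
        unfold fr3 fro
        simp only [Matrix.of_apply]
        rw [Finset.sum_comm]
        have : ∀ b, ∑ a, ∑ c, F a b c ^ 2 = ∑ c, ∑ a, F a b c ^ 2 := fun b => Finset.sum_comm
        simp_rw [this]
        rw [Finset.sum_comm]
        exact Finset.sum_congr rfl fun c _ => Finset.sum_comm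
      rw [ht, k0, k0, Finset.mul_sum]
      refine Finset.sum_le_sum fun c _ => ?_
      have k1 : (Matrix.of fun a b => D a b c) = J * (Matrix.of fun a b => S a b c) * J := by
        ext a b
        exact hDm c a b
      rw [k1]
      have k2 := fro_mul_le' hJ hj (J * Matrix.of fun a b => S a b c)
      have k3 := fro_mul_le hj (Matrix.of fun a b => S a b c)
      have k4 : fro (Matrix.of fun a b => T a b c)
          = ((m + 2) / 2) ^ 2 * fro (Matrix.of fun a b => S a b c) := by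
        unfold fro
        simp only [Matrix.of_apply, Finset.mul_sum]
        refine Finset.sum_congr rfl fun a _ => Finset.sum_congr rfl fun b _ => ?_
        rw [hTS]
        ring
      rw [k4]
      have k5 : (2 * j2 / (m + 2)) ^ 2 * (((m + 2) / 2) ^ 2 * fro (Matrix.of fun a b => S a b c))
          = j2 * (j2 * fro (Matrix.of fun a b => S a b c)) := by
        field_simp
      rw [k5]
      exact k2.trans (mul_le_mul_of_nonneg_left k3 hj0)
    have k6 := cs3 T D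
    have k7 : 0 ≤ 2 * j2 / (m + 2) * t := mul_nonneg (by positivity) ht0
    refine abs_le_of_sq_le_sq' ?_ k7 |>.2
    calc (∑ a, ∑ b, ∑ c, T a b c * D a b c) ^ 2 ≤ fr3 T * fr3 D := k6
      _ ≤ t * ((2 * j2 / (m + 2)) ^ 2 * t) := mul_le_mul_of_nonneg_left hDf ht0
      _ = (2 * j2 / (m + 2) * t) ^ 2 := by ring
  -- third part
  have p3 : ∫ ω, ∑ a, ∑ b, ∑ c, T a b c * (z a ω * z b ω * x c ω) ∂μ
      ≤ √(t * fr3 (m3 μ z z x)) := by
    rw [int_cub T bz bz h.bx]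
    exact le_sqrt_of_sq (cs3 T _)
  -- second part
  let M : ι → Matrix ι ι ℝ := fun a => J * (Matrix.of fun b c => T a b c)
  let w : ι → Ω → ℝ := fun a ω => vc x ω ⬝ᵥ (M a *ᵥ vc x ω) - (M a).trace / (m + 2)
  have bw : ∀ a, BM (w a) := fun a => (BM.qf (M a) h.bx h.bx).sub (BM.const _)
  have e3 : ∀ ω, ∑ a, ∑ b, ∑ c, T a b c * (z a ω * y b ω * x c ω)
      = ∑ a, z a ω * w a ω + ∑ a, ((M a).trace / (m + 2)) * z a ω := by
    intro ω
    rw [← Finset.sum_add_distrib]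
    refine Finset.sum_congr rfl fun a _ => ?_
    have k1 : vc x ω ⬝ᵥ (M a *ᵥ vc x ω) = ∑ b, ∑ c, T a b c * (y b ω * x c ω) := by
      have k2 : vc x ω ⬝ᵥ (M a *ᵥ vc x ω)
          = (J *ᵥ vc x ω) ⬝ᵥ ((Matrix.of fun b c => T a b c) *ᵥ vc x ω) := by
        rw [dot_symm hJ, mulVec_mulVec]
      rw [k2]
      simp only [dotProduct, mulVec, Matrix.of_apply, y, vc, Finset.mul_sum]
      exact Finset.sum_congr rfl fun b _ => Finset.sum_congr rfl fun c _ => by ring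
    have k3 : ∑ b, ∑ c, T a b c * (z a ω * y b ω * x c ω)
        = z a ω * ∑ b, ∑ c, T a b c * (y b ω * x c ω) := by
      rw [Finset.mul_sum]
      refine Finset.sum_congr rfl fun b _ => ?_
      rw [Finset.mul_sum]
      exact Finset.sum_congr rfl fun c _ => by ring
    rw [k3, ← k1]
    simp only [w]
    ring
  have e4 : ∫ ω, ∑ a, ∑ b, ∑ c, T a b c * (z a ω * y b ω * x c ω) ∂μ
      = ∫ ω, ∑ a, z a ω * w a ω ∂μ + ∑ a, ((M a).trace / (m + 2)) * ∫ ω, z a ω ∂μ := by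
    simp_rw [e3]
    rw [integral_add (BM.sum _ fun a _ => (bz a).mul (bw a)).int
      (BM.sum _ fun a _ => (bz a).const_mul _).int, integral_finsetSum _ fun a _ =>
        ((bz a).const_mul _).int]
    congr 1
    exact Finset.sum_congr rfl fun a _ => integral_const_mul _ _
  have e5 : ∀ a, ∫ ω, z a ω ∂μ = m1 μ N a := by
    intro a
    have k1 : ∀ ω, z a ω = N a ω - ∑ c, J a c * x c ω := fun ω => rfl
    simp_rw [k1]
    rw [integral_sub (h.bN a).int (BM.sum _ fun c _ => (h.bx c).const_mul _).int,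
      integral_finsetSum _ fun c _ => ((h.bx c).const_mul _).int]
    have k2 : ∑ c, ∫ ω, J a c * x c ω ∂μ = 0 :=
      Finset.sum_eq_zero fun c _ => by rw [integral_const_mul, h.r1, mul_zero]
    rw [k2, sub_zero]
    rfl
  have bq : BM (fun ω => vc x ω ⬝ᵥ (J *ᵥ vc x ω)) := BM.qf J h.bx h.bx
  have e6 : ∀ a, (M a).trace = -((m + 2) / 2) * ∫ ω, x a ω * (vc x ω ⬝ᵥ (J *ᵥ vc x ω)) ∂μ := by
    intro a
    rw [int_qf J (h.bx a) h.bx h.bx, Finset.mul_sum]
    simp only [M, Matrix.trace, Matrix.diag_apply, Matrix.mul_apply, Matrix.of_apply]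
    refine Finset.sum_congr rfl fun b _ => ?_
    rw [Finset.mul_sum]
    refine Finset.sum_congr rfl fun c _ => ?_
    have k1 : ∫ ω, x a ω * x b ω * x c ω ∂μ = S a b c := rfl
    rw [k1, hTS, S2 a c b]
    ring
  have pA : ∫ ω, ∑ a, z a ω * w a ω ∂μ
      ≤ √(hh μ J x N * (16 / ((m + 1) * (7 * m + 23)) * (j2 * t))) := by
    refine le_sqrt_of_sq ((cs_fam bz bw).trans ?_)
    have k1 : ∫ ω, ∑ a, z a ω ^ 2 ∂μ = hh μ J x N := by
      refine integral_congr_ae (Eventually.of_forall fun ω => ?_)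
      exact Finset.sum_congr rfl fun a _ => sq _
    rw [k1]
    refine mul_le_mul_of_nonneg_left ?_ (h.hh_nonneg J)
    rw [integral_finsetSum _ fun a _ => ((bw a).pow 2).int]
    have k2 : ∀ a, ∫ ω, w a ω ^ 2 ∂μ ≤ 16 / ((m + 1) * (7 * m + 23)) * fro (M a) := fun a =>
      quad_gen h hm.le (M a)
    refine (Finset.sum_le_sum fun a _ => k2 a).trans ?_
    rw [← Finset.mul_sum]
    refine mul_le_mul_of_nonneg_left ?_ (by positivity)
    rw [ht]
    unfold fr3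
    rw [Finset.mul_sum]
    exact Finset.sum_le_sum fun a _ => fro_mul_le hj (Matrix.of fun b c => T a b c)
  have pB : 2 * ∑ a, ((M a).trace / (m + 2)) * ∫ ω, z a ω ∂μ
      ≤ √((∑ a, m1 μ N a ^ 2) / (m + 1) * ∫ ω, (vc x ω ⬝ᵥ (J *ᵥ vc x ω)) ^ 2 ∂μ) := by
    set ev : ι → ℝ := m1 μ N with hev
    have k1 : 2 * ∑ a, ((M a).trace / (m + 2)) * ∫ ω, z a ω ∂μ
        = ∫ ω, (-(ev ⬝ᵥ vc x ω)) * (vc x ω ⬝ᵥ (J *ᵥ vc x ω)) ∂μ := by
      have k2 : ∀ ω, (-(ev ⬝ᵥ vc x ω)) * (vc x ω ⬝ᵥ (J *ᵥ vc x ω))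
          = ∑ a, (-ev a) * (x a ω * (vc x ω ⬝ᵥ (J *ᵥ vc x ω))) := by
        intro ω
        rw [dotProduct, ← Finset.sum_neg_distrib, Finset.sum_mul]
        refine Finset.sum_congr rfl fun a _ => ?_
        simp only [vc]
        ring
      simp_rw [k2]
      rw [integral_finsetSum _ fun a _ => (((h.bx a).mul bq).const_mul _).int, Finset.mul_sum]
      refine Finset.sum_congr rfl fun a _ => ?_
      rw [integral_const_mul, e5, e6]
      field_simp
    rw [k1]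
    have bl : BM (fun ω => -(ev ⬝ᵥ vc x ω)) := (BM.sum _ fun a _ => (h.bx a).const_mul _).neg
    refine le_sqrt_of_sq ((cs_one bl bq).trans ?_)
    refine mul_le_mul_of_nonneg_right ?_ (integral_nonneg fun ω => sq_nonneg _)
    have k3 := lin2 h ev
    have k4 : 0 ≤ ∫ ω, (ev ⬝ᵥ vc N ω) ^ 2 ∂μ := integral_nonneg fun ω => sq_nonneg _
    have k5 : ∀ ω, (-(ev ⬝ᵥ vc x ω)) ^ 2 = (ev ⬝ᵥ vc x ω) ^ 2 := fun ω => neg_sq _
    simp_rw [k5]
    have k6 : ev ⬝ᵥ ev = ∑ a, ev a ^ 2 := Finset.sum_congr rfl fun a _ => (sq _).symm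
    rw [k6] at k3
    rw [le_div_iff₀ (by linarith)]
    linarith
  have p2 : 2 * ∫ ω, ∑ a, ∑ b, ∑ c, T a b c * (z a ω * y b ω * x c ω) ∂μ
      ≤ 2 * √(hh μ J x N * (16 / ((m + 1) * (7 * m + 23)) * (j2 * t)))
        + √((∑ a, m1 μ N a ^ 2) / (m + 1) * ∫ ω, (vc x ω ⬝ᵥ (J *ᵥ vc x ω)) ^ 2 ∂μ) := by
    rw [e4, mul_add]
    exact add_le_add (mul_le_mul_of_nonneg_left pA (by norm_num)) pB
  have e7 : (1 - 2 * j2 / (m + 2)) * t = t - 2 * j2 / (m + 2) * t := by ring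
  rw [e7]
  linarith

end T0

end

end Vale.Agent.P224.R2.H662
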