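import Vale.Agent.P224.R2.H662.Chi

/-!
The scalar level one inequality: `m |E F x|² ≤ √3 (E F) (E F²)^(1/2)` for `F ≥ 0`.
-/

namespace Vale.Agent.P224.R2.H662

open MeasureTheory Set Filter Function Real Finset Matrix
open Vale.Agent.P224.R2.H728

set_option linter.unusedSectionVars false

section

variable {ι Ω : Type*} [Fintype ι] [DecidableEq ι] [MeasurableSpace Ω] {μ : Measure Ω}
  {m : ℝ} {x N : ι → Ω → ℝ}

/-- Cauchy-Schwarz with a nonnegative weight -/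
lemma cs_wt [IsFiniteMeasure μ] {F g : Ω → ℝ} (hF : BM F) (hg : BM g) (hF0 : ∀ ω, 0 ≤ F ω) :
    (∫ ω, F ω * g ω ∂μ) ^ 2 ≤ (∫ ω, F ω ∂μ) * ∫ ω, F ω * g ω ^ 2 ∂μ := by
  set A := ∫ ω, F ω ∂μ with hA
  set B := ∫ ω, F ω * g ω ∂μ with hB
  set C := ∫ ω, F ω * g ω ^ 2 ∂μ with hC
  have i1 : Integrable F μ := hF.int
  have i2 : Integrable (fun ω => F ω * g ω) μ := (hF.mul hg).int
  have i3 : Integrable (fun ω => F ω * g ω ^ 2) μ := (hF.mul (hg.pow 2)).int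
  have key : ∀ t : ℝ, 0 ≤ A * (t * t) + (2 * B) * t + C := by
    intro t
    have e : A * (t * t) + (2 * B) * t + C = ∫ ω, F ω * (t + g ω) ^ 2 ∂μ := by
      have e1 : ∀ ω, F ω * (t + g ω) ^ 2
          = (t * t) * F ω + (2 * t) * (F ω * g ω) + F ω * g ω ^ 2 := fun ω => by ring
      have j1 : Integrable (fun ω => (t * t) * F ω) μ := i1.const_mul _
      have j2 : Integrable (fun ω => (2 * t) * (F ω * g ω)) μ := i2.const_mul _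
      have j3 : Integrable (fun ω => (t * t) * F ω + (2 * t) * (F ω * g ω)) μ := j1.add j2
      simp_rw [e1]
      rw [integral_add j3 i3, integral_add j1 j2, integral_const_mul, integral_const_mul]
      ring
    rw [e]
    exact integral_nonneg fun ω => mul_nonneg (hF0 ω) (sq_nonneg _)
  have h1 := discrim_le_zero key
  unfold discrim at h1
  nlinarith

namespace T0

/-- level one: `(m+1)(m+3) |E F x|⁴ ≤ 3 (E F)² E F²` -/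
theorem lvl1 (h : T0Data μ m x N) (hm : 0 ≤ m) {F : Ω → ℝ} (hF : BM F) (hF0 : ∀ ω, 0 ≤ F ω) :
    (m + 1) * (m + 3) * (∑ a, (∫ ω, F ω * x a ω ∂μ) ^ 2) ^ 2
      ≤ 3 * (∫ ω, F ω ∂μ) ^ 2 * ∫ ω, F ω ^ 2 ∂μ := by
  have := h.prob
  set v : ι → ℝ := fun a => ∫ ω, F ω * x a ω ∂μ with hv
  set α := ∑ a, v a ^ 2 with hα
  have hα0 : 0 ≤ α := Finset.sum_nonneg fun a _ => sq_nonneg _
  have bdot : BM (fun ω => v ⬝ᵥ vc x ω) := BM.sum _ fun c _ => (h.bx c).const_mul _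
  have hsiz : siz (fun _ : Unit => v) = α := by
    simp [siz, dotProduct, hα, sq]
  have hsq : ∀ w : ι → ℝ, sqf (fun _ : Unit => v) w = (v ⬝ᵥ w) ^ 2 := fun w => by
    simp [sqf]
  have e1 : α = ∫ ω, F ω * (v ⬝ᵥ vc x ω) ∂μ := by
    have e2 : ∀ ω, F ω * (v ⬝ᵥ vc x ω) = ∑ a, v a * (F ω * x a ω) := by
      intro ω
      simp only [dotProduct, vc, Finset.mul_sum]
      exact Finset.sum_congr rfl fun a _ => by ring
    simp_rw [e2]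
    rw [integral_finsetSum _ fun a _ => (((hF.mul (h.bx a)).const_mul _).int)]
    rw [hα]
    refine Finset.sum_congr rfl fun a _ => ?_
    rw [integral_const_mul, sq]
  have h1 : α ^ 2 ≤ (∫ ω, F ω ∂μ) * ∫ ω, F ω * (v ⬝ᵥ vc x ω) ^ 2 ∂μ := by
    rw [e1]
    exact cs_wt hF bdot hF0
  have h3 : (∫ ω, F ω * (v ⬝ᵥ vc x ω) ^ 2 ∂μ) ^ 2
      ≤ (∫ ω, F ω ^ 2 ∂μ) * ∫ ω, ((v ⬝ᵥ vc x ω) ^ 2) ^ 2 ∂μ := cs_one hF (bdot.pow 2)
  have h4 := T0.psd4 h hm (fun _ : Unit => v)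
  rw [hsiz] at h4
  simp_rw [hsq] at h4
  set H := ∫ ω, F ω ∂μ
  set β := ∫ ω, F ω * (v ⬝ᵥ vc x ω) ^ 2 ∂μ
  set E4 := ∫ ω, F ω ^ 2 ∂μ
  set F2 := ∫ ω, ((v ⬝ᵥ vc x ω) ^ 2) ^ 2 ∂μ
  have hH : 0 ≤ H := integral_nonneg hF0
  have hE4 : 0 ≤ E4 := integral_nonneg fun ω => sq_nonneg _
  have hβ : 0 ≤ β := integral_nonneg fun ω => mul_nonneg (hF0 ω) (sq_nonneg _)
  have hF2 : 0 ≤ F2 := integral_nonneg fun ω => sq_nonneg _
  have h6 : (α ^ 2) ^ 2 ≤ (H * β) ^ 2 := pow_le_pow_left₀ (sq_nonneg α) h1 2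
  have h7 : (H * β) ^ 2 ≤ H ^ 2 * (E4 * F2) := by
    rw [mul_pow]
    exact mul_le_mul_of_nonneg_left h3 (sq_nonneg H)
  have mm : 0 ≤ (m + 1) * (m + 3) := by nlinarith
  have h8 : (m + 1) * (m + 3) * (α ^ 2) ^ 2 ≤ H ^ 2 * E4 * (3 * α ^ 2) := by
    calc (m + 1) * (m + 3) * (α ^ 2) ^ 2 ≤ (m + 1) * (m + 3) * (H ^ 2 * (E4 * F2)) :=
          mul_le_mul_of_nonneg_left (h6.trans h7) mm
      _ = H ^ 2 * E4 * ((m + 1) * (m + 3) * F2) := by ring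
      _ ≤ H ^ 2 * E4 * (3 * α ^ 2) := mul_le_mul_of_nonneg_left h4 (by positivity)
  rcases eq_or_lt_of_le hα0 with h9 | h9
  · rw [← h9]
    have : 0 ≤ 3 * H ^ 2 * E4 := by positivity
    simpa using this
  · have h10 : 0 < α ^ 2 := by positivity
    have h11 : α ^ 2 * ((m + 1) * (m + 3) * α ^ 2) ≤ α ^ 2 * (3 * H ^ 2 * E4) := by
      calc α ^ 2 * ((m + 1) * (m + 3) * α ^ 2) = (m + 1) * (m + 3) * (α ^ 2) ^ 2 := by ring
        _ ≤ H ^ 2 * E4 * (3 * α ^ 2) := h8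
        _ = α ^ 2 * (3 * H ^ 2 * E4) := by ring
    exact le_of_mul_le_mul_left h11 h10

/-- the form with a square root -/
theorem lvl1_sqrt (h : T0Data μ m x N) (hm : 0 ≤ m) {F : Ω → ℝ} (hF : BM F)
    (hF0 : ∀ ω, 0 ≤ F ω) {K : ℝ} (hK : ∫ ω, F ω ^ 2 ∂μ ≤ K) :
    (m + 1) * ∑ a, (∫ ω, F ω * x a ω ∂μ) ^ 2 ≤ (∫ ω, F ω ∂μ) * √(3 * K) := by
  have h1 := lvl1 h hm hF hF0
  set α := ∑ a, (∫ ω, F ω * x a ω ∂μ) ^ 2
  set H := ∫ ω, F ω ∂μ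
  have hα0 : 0 ≤ α := Finset.sum_nonneg fun a _ => sq_nonneg _
  have hH : 0 ≤ H := integral_nonneg hF0
  have hE4 : 0 ≤ ∫ ω, F ω ^ 2 ∂μ := integral_nonneg fun ω => sq_nonneg _
  have hK0 : 0 ≤ K := hE4.trans hK
  have h2 : ((m + 1) * α) ^ 2 ≤ (H * √(3 * K)) ^ 2 := by
    rw [mul_pow H, Real.sq_sqrt (by positivity)]
    calc ((m + 1) * α) ^ 2 ≤ (m + 1) * (m + 3) * α ^ 2 := by nlinarith [sq_nonneg α]
      _ ≤ _ := h1
      _ ≤ H ^ 2 * (3 * K) := by nlinarith [sq_nonneg H, mul_le_mul_of_nonneg_left hK (sq_nonneg H)]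
  exact le_of_sq_le_sq h2 (by positivity)

end T0

end

end Vale.Agent.P224.R2.H662
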