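import Vale.Agent.P224.R2.H470.MacL

/-!
The integrated lower bound of the square, summed over all directions.
-/

namespace Vale.Agent.P224.R2.H662

open MeasureTheory Set Filter Function Real Module Vale.Agent.P224 Vale.Agent.P224.FV
open Vale.Agent.P224.SM2 Vale.Agent.P224.R2.H820 Vale.Agent.P224.R2.H728
open Vale.Agent.P224.R2.H627 Vale.Agent.P224.R2.H582 Vale.Agent.P224.R2.H470
open scoped Topology RealInnerProductSpace ContDiff Manifold

set_option linter.unusedSectionVars false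

/-- the level where the direction of weight `y` is lost -/
noncomputable def sS (A η T0 y : ℝ) : ℝ := √(min (max (y - A) 0 / η) (T0 ^ 2))

lemma sS_nonneg (A η T0 y : ℝ) : 0 ≤ sS A η T0 y := Real.sqrt_nonneg _

lemma sS_sq {A η T0 : ℝ} (hη : 0 < η) (y : ℝ) :
    sS A η T0 y ^ 2 = min (max (y - A) 0 / η) (T0 ^ 2) :=
  Real.sq_sqrt (le_min (div_nonneg (le_max_right _ _) hη.le) (sq_nonneg _))

lemma sS_le {A η T0 : ℝ} (h0 : 0 ≤ T0) (y : ℝ) : sS A η T0 y ≤ T0 := by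
  unfold sS
  exact (Real.sqrt_le_sqrt (min_le_right _ _)).trans (le_of_eq (Real.sqrt_sq h0))

/-- the profile of one direction -/
noncomputable def pf (η S T : ℝ) : ℝ := T * (1 - 7 / 2 * T ^ 2) * (η * (S ^ 2 - T ^ 2)) ^ 2

lemma pf_int {η S : ℝ} (hS0 : 0 ≤ S) (hS : S ≤ 1) :
    IntervalIntegrable (ctf S (pf η S)) volume 0 1
      ∧ ∫ T in (0 : ℝ)..1, ctf S (pf η S) T = η ^ 2 * S ^ 6 / 6 * (1 - 7 / 8 * S ^ 2) := by
  have hc : IntervalIntegrable (pf η S) volume 0 S := Continuous.intervalIntegrable (by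
    unfold pf
    fun_prop) _ _
  obtain ⟨h1, h2⟩ := int_ctf hS0 hS hc
  refine ⟨h1, ?_⟩
  have h3 := int_mac S η 0
  rw [h2]
  simp only [mul_zero, sub_zero, zero_mul] at h3
  exact h3

/-- the loss of the mean normal -/
noncomputable def lf (u T : ℝ) : ℝ := T * (1 - 7 / 2 * T ^ 2) * (2 * T * u)

lemma lf_int {u S : ℝ} (hS0 : 0 ≤ S) (hS : S ≤ 1) (hu : 0 ≤ u) :
    IntervalIntegrable (ctf S (lf u)) volume 0 1
      ∧ ∫ T in (0 : ℝ)..1, ctf S (lf u) T ≤ 2 / 3 * S ^ 3 * u := by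
  have hc : IntervalIntegrable (lf u) volume 0 S := Continuous.intervalIntegrable (by
    unfold lf
    fun_prop) _ _
  obtain ⟨h1, h2⟩ := int_ctf hS0 hS hc
  refine ⟨h1, ?_⟩
  have h3 := int_mac S 0 u
  have e : ∀ T : ℝ, T * (1 - 7 / 2 * T ^ 2) * ((0 * (S ^ 2 - T ^ 2)) ^ 2 - 2 * T * u)
      = -lf u T := by
    intro T
    unfold lf
    ring
  simp only [e] at h3
  rw [intervalIntegral.integral_neg] at h3
  rw [h2]
  have h8 : 0 ≤ S ^ 5 := by positivity
  have h9 := mul_nonneg hu h8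
  have h10 : ∫ T in (0 : ℝ)..S, lf u T = 2 * u * (S ^ 3 / 3 - 7 / 10 * S ^ 5) := by
    have h11 : (0 : ℝ) ^ 2 * S ^ 6 / 6 * (1 - 7 / 8 * S ^ 2) = 0 := by ring
    rw [h11] at h3
    linarith
  rw [h10]
  nlinarith

lemma sS_pow {A η T0 y : ℝ} (hη : 0 < η) :
    min (max (y - A) 0) (η * T0 ^ 2) ^ 3 / (6 * η) * (1 - 7 / 8 * T0 ^ 2)
      ≤ η ^ 2 * sS A η T0 y ^ 6 / 6 * (1 - 7 / 8 * sS A η T0 y ^ 2) := by
  have h1 := sS_sq (A := A) (T0 := T0) hη y
  set S := sS A η T0 y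
  have h2 : min (max (y - A) 0) (η * T0 ^ 2) = η * S ^ 2 := by
    rw [h1]
    rcases le_total (max (y - A) 0) (η * T0 ^ 2) with h3 | h3
    · have h4 : max (y - A) 0 / η ≤ T0 ^ 2 := by
        rw [div_le_iff₀ hη]
        linarith
      rw [min_eq_left h3, min_eq_left h4]
      field_simp
    · have h4 : T0 ^ 2 ≤ max (y - A) 0 / η := by
        rw [le_div_iff₀ hη]
        linarith
      rw [min_eq_right h3, min_eq_right h4]
  have h5 : S ^ 2 ≤ T0 ^ 2 := by
    rw [h1]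
    exact min_le_right _ _
  have e : min (max (y - A) 0) (η * T0 ^ 2) ^ 3 / (6 * η) = η ^ 2 * S ^ 6 / 6 := by
    rw [h2]
    field_simp
  rw [e]
  exact mul_le_mul_of_nonneg_left (by linarith) (by positivity)

section

variable {V : Type*} [NormedAddCommGroup V] [InnerProductSpace ℝ V] [FiniteDimensional ℝ V]
  [MeasurableSpace V] [BorelSpace V] {Ω : Type*} [MeasurableSpace Ω]

variable {μ : Measure Ω} [IsFiniteMeasure μ] {p n : Ω → V}

/-- the pointwise bound -/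
theorem macS_pt (hp : Measurable p) (hp1 : ∀ x, ‖p x‖ = 1) (hn : Measurable n)
    (hn1 : ∀ x, ‖n x‖ = 1) {ι : Type*} [Fintype ι]
    (e : OrthonormalBasis ι ℝ V) {m : ℕ} (hd : finrank ℝ V = m + 2)
    (hL : LB μ p e (1 / (m + 1))) (hQ : QB μ p e (16 / ((m + 1) * (7 * m + 23))))
    (hc : ∀ x, ∫ y, sk m (m + 1) (31 / 40) ⟪p x, p y⟫ ∂μ ≤ 1 / (1 - (31 / 40) ^ 2))
    {T0 T A η : ℝ} (h1 : 0 < T) (h2 : T < T0) (hT0 : T0 ≤ 3 / 10)
    (hA : 1 / ((m : ℝ) + 1) + 8 * T0 / (7 * m + 23) ≤ A)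
    (hη : 1 / (2 * ((m : ℝ) + 1)) + 8 / ((7 * m + 23) * T0) + 8 * (m + 2) / (7 * m + 23)
      + 27 / 5 * T0 ≤ η) (hη0 : 0 < η) :
    ∑ a, ctf (sS A η T0 (∫ x, ⟪n x, e a⟫ ^ 2 ∂μ))
        (pf η (sS A η T0 (∫ x, ⟪n x, e a⟫ ^ 2 ∂μ))) T
      - lf (∑ b, (∫ x, ⟪n x, e b⟫ ∂μ) ^ 2) T
      ≤ T * (1 - 7 / 2 * T ^ 2)
        * ∫ u : Ω × Ω, sk m (m + 1) T ⟪p u.1, p u.2⟫ * (⟪n u.1, n u.2⟫ - ⟪p u.1, p u.2⟫) ^ 2
        ∂(μ.prod μ) := by
  have hT00 : 0 < T0 := h1.trans h2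
  have h3 := Phi_le (m := m) h1.le h2.le hT00 hA hη
  have h4 := mac_pos (μ := μ) hp hp1 hn hn1 e hd (K1 := 1 / (m + 1))
    (K2 := 16 / ((m + 1) * (7 * m + 23))) (by positivity) hL (by positivity) hQ h1
    (h2.le.trans (hT0.trans (by norm_num))) (by norm_num) hc (Phi_nonneg h1.le)
  set P := H470.Phi m (1 / (m + 1)) (16 / ((m + 1) * (7 * m + 23))) (1 / (1 - (31 / 40) ^ 2)) (31 / 40) T
  set G := ∫ u : Ω × Ω, sk m (m + 1) T ⟪p u.1, p u.2⟫ * (⟪n u.1, n u.2⟫ - ⟪p u.1, p u.2⟫) ^ 2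
        ∂(μ.prod μ)
  set uu' := ∑ b, (∫ x, ⟪n x, e b⟫ ∂μ) ^ 2
  have hT2 : T ^ 2 ≤ 9 / 100 := by nlinarith
  have hw : 0 ≤ T * (1 - 7 / 2 * T ^ 2) := mul_nonneg h1.le (by linarith)
  have h5 := mul_le_mul_of_nonneg_left h4 hw
  refine le_trans ?_ h5
  rw [mul_sub, Finset.mul_sum]
  refine sub_le_sub (Finset.sum_le_sum fun a _ => ?_) (le_of_eq (by unfold lf; ring))
  set y := ∫ x, ⟪n x, e a⟫ ^ 2 ∂μ
  have g1 := sS_sq (A := A) (T0 := T0) hη0 y
  set S := sS A η T0 y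
  rcases lt_or_ge T S with hTS | hTS
  · rw [ctf_lt _ hTS]
    unfold pf
    refine mul_le_mul_of_nonneg_left ?_ hw
    have h6 : 0 ≤ η * (S ^ 2 - T ^ 2) := by
      have : T ^ 2 ≤ S ^ 2 := pow_le_pow_left₀ h1.le hTS.le 2
      exact mul_nonneg hη0.le (by linarith)
    have h8 : S ^ 2 ≤ max (y - A) 0 / η := by
      rw [g1]
      exact min_le_left _ _
    have h9 : η * S ^ 2 ≤ max (y - A) 0 := by
      rw [le_div_iff₀ hη0] at h8
      linarith
    have hS0 : 0 < S := h1.trans hTS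
    have h10 : 0 < max (y - A) 0 := by
      have : 0 < η * S ^ 2 := by positivity
      linarith
    have h11 : max (y - A) 0 = y - A := by
      rcases le_total (y - A) 0 with h | h
      · rw [max_eq_right h] at h10
        exact absurd h10 (lt_irrefl _)
      · exact max_eq_left h
    have h7 : η * (S ^ 2 - T ^ 2) ≤ max (y - P) 0 := by
      refine le_trans ?_ (le_max_left _ _)
      linarith
    exact pow_le_pow_left₀ h6 h7 2
  · rw [ctf_ge _ hTS]
    positivity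

end

section

variable {V W M : Type*} [NormedAddCommGroup V] [InnerProductSpace ℝ V] [FiniteDimensional ℝ V]
  [NormedAddCommGroup W] [InnerProductSpace ℝ W] [FiniteDimensional ℝ W]
  [TopologicalSpace M] [ChartedSpace V M]
  [MeasurableSpace V] [BorelSpace V] [MeasurableSpace M] [BorelSpace M]
  [MeasurableSpace W] [BorelSpace W] [IsManifold 𝓘(ℝ, V) ∞ M]
  [CompactSpace M] [T2Space M]

/-- the integrated lower bound of the square, summed over the directions of a basis -/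
theorem macS_law [Nonempty M] (hm : 17 ≤ finrank ℝ V) (hW : finrank ℝ W = finrank ℝ V + 2)
    {F : M → W} (hF : SphImm V F) (hmin : ∀ x n, IsUnitNormal V F x n → meanCurv V F x n = 0)
    {N : M → W} (hNs : ContMDiff 𝓘(ℝ, V) 𝓘(ℝ, W) ∞ N) (hN : ∀ x, IsUnitNormal V F x (N x))
    {ι : Type*} [Fintype ι] [DecidableEq ι] (b : OrthonormalBasis ι ℝ W)
    {m : ℕ} (hmm : m = finrank ℝ V) {T0 A η : ℝ} (hT00 : 0 < T0) (hT0 : T0 ≤ 3 / 10)
    (hA : 1 / ((m : ℝ) + 1) + 8 * T0 / (7 * m + 23) ≤ A)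
    (hη : 1 / (2 * ((m : ℝ) + 1)) + 8 / ((7 * m + 23) * T0) + 8 * (m + 2) / (7 * m + 23)
      + 27 / 5 * T0 ≤ η) :
    ∃ Bc : ℝ → ℝ, IntervalIntegrable Bc volume 0 1 ∧
      (∀ T ∈ Ioo (0 : ℝ) 1, Bc T * (volM V F).real univ ^ 2
        ≤ m * eM m T * E2 (volM V F) F N (fun k => SM2.ker T (m + 1) k.1 * Ck k)) ∧
      (∑ a, min (max (m2 (nrm (volM V F)) (co b N) (co b N) a a - A) 0) (η * T0 ^ 2) ^ 3)
          / (6 * η) * (1 - 7 / 8 * T0 ^ 2)
        - 2 / 3 * T0 ^ 3 * ∑ i, m1 (nrm (volM V F)) (co b N) i ^ 2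
        ≤ ∫ T in (0 : ℝ)..1, Bc T := by
  subst hmm
  set m := finrank ℝ V with hmdef
  have hfin : IsFiniteMeasure (volM V F) := isFiniteMeasure_volM hF
  have hm1 : 1 ≤ m := by omega
  have hvpos : 0 < volM V F univ := volM_pos_of_isOpen hW hF isOpen_univ univ_nonempty
  have hnz : NeZero (volM V F) := ⟨fun h => by rw [h] at hvpos; simp at hvpos⟩
  have hA0 : 0 < (volM V F).real univ := ENNReal.toReal_pos hvpos.ne' (measure_ne_top _ _)
  have hT0' : T0Data (nrm (volM V F)) m (co b F) (co b N) :=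
    t0Data_of_min hm1 hW hF hmin hNs hN b
  have hprob : IsProbabilityMeasure (nrm (volM V F)) := hT0'.prob
  have hone : OneP (nrm (volM V F)) m F N := oneP_nrm hW hF hmin hNs hN
  have hsc : SecondCountableTopology M := ChartedSpace.secondCountable_of_sigmaCompact V M
  have hnt : Nontrivial W := Module.nontrivial_of_finrank_pos (R := ℝ) (by omega)
  have hm0 : (0 : ℝ) < m := by
    have : 0 < m := by omega
    exact_mod_cast this
  have hη0 : 0 < η := lt_of_lt_of_le (by positivity) hη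
  set u := ∑ i, m1 (nrm (volM V F)) (co b N) i ^ 2 with hu
  have hu0 : 0 ≤ u := Finset.sum_nonneg fun i _ => sq_nonneg _
  have hu1 : u = ∑ i, (∫ x, ⟪N x, b i⟫ ∂(nrm (volM V F))) ^ 2 := rfl
  have hν1 : ∀ a, m2 (nrm (volM V F)) (co b N) (co b N) a a
      = ∫ x, ⟪N x, b a⟫ ^ 2 ∂(nrm (volM V F)) := by
    intro a
    unfold m2 co
    simp only [sq]
  simp only [hν1]
  set y : ι → ℝ := fun a => ∫ x, ⟪N x, b a⟫ ^ 2 ∂(nrm (volM V F)) with hy
  set S : ι → ℝ := fun a => sS A η T0 (y a) with hS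
  have hS1 : ∀ a, S a ≤ T0 := fun a => sS_le hT00.le _
  have hS0 : ∀ a, 0 ≤ S a := fun a => sS_nonneg _ _ _ _
  have hpi : ∀ a, IntervalIntegrable (ctf (S a) (pf η (S a))) volume 0 1 := fun a =>
    (pf_int (hS0 a) ((hS1 a).trans (by linarith))).1
  have hli := lf_int (S := T0) hT00.le (by linarith) hu0
  have hsum : IntervalIntegrable (fun T => ∑ a, ctf (S a) (pf η (S a)) T) volume 0 1 := by
    have := IntervalIntegrable.sum (μ := volume) (a := (0 : ℝ)) (b := 1) Finset.univ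
      (f := fun a => ctf (S a) (pf η (S a))) fun a _ => hpi a
    exact this.congr fun T _ => by simp only [Finset.sum_apply]
  refine ⟨fun T => ∑ a, ctf (S a) (pf η (S a)) T - ctf T0 (lf u) T, hsum.sub hli.1,
    fun T hT => ?_, ?_⟩
  · have hk : 0 < 1 - T ^ 2 := by nlinarith [hT.1, hT.2]
    -- the two point mean
    have e1 : m * eM m T * E2 (volM V F) F N (fun k => SM2.ker T (m + 1) k.1 * Ck k)
        = (volM V F).real univ ^ 2 * (eh m T * ∫ q : M × M, sk m (m + 1) T ⟪F q.1, F q.2⟫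
          * (⟪N q.1, N q.2⟫ - ⟪F q.1, F q.2⟫) ^ 2
            ∂((nrm (volM V F)).prod (nrm (volM V F)))) := by
      rw [E2_nrm, eM_eq hT]
      have e2 : ∫ q : M × M, sk m (m + 1) T ⟪F q.1, F q.2⟫
          * (⟪N q.1, N q.2⟫ - ⟪F q.1, F q.2⟫) ^ 2 ∂((nrm (volM V F)).prod (nrm (volM V F)))
          = (1 - T ^ 2) ^ ((m : ℝ) / 2)
            * ∫ q : M × M, SM2.ker T (m + 1) (SM2.pr F N q).1 * Ck (SM2.pr F N q)
            ∂((nrm (volM V F)).prod (nrm (volM V F))) := by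
        rw [← integral_const_mul]
        refine integral_congr_ae (Eventually.of_forall fun q => ?_)
        simp only [sk, SM2.ker, Ck, SM2.pr]
        have e3 : ((m + 1 : ℕ) : ℝ) - m / 2 - 1 = (m : ℝ) / 2 := by push_cast; ring
        rw [e3]
        ring
      rw [e2]
      ring
    have hD : 0 ≤ ∫ q : M × M, sk m (m + 1) T ⟪F q.1, F q.2⟫
          * (⟪N q.1, N q.2⟫ - ⟪F q.1, F q.2⟫) ^ 2
            ∂((nrm (volM V F)).prod (nrm (volM V F))) := by
      refine integral_nonneg fun q => mul_nonneg ?_ (sq_nonneg _)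
      have hv := H460.one_sub_pos hT.1.le hT.2 (hone.np q.1) (hone.np q.2)
      unfold sk
      positivity
    have heh : 0 ≤ eh m T := by
      have hb := bds2_M (m := m) (T := T) hm hT
      have := hb.E0
      have := hT.1
      unfold eh
      positivity
    rw [e1]
    beta_reduce
    rcases lt_or_ge T T0 with hTS | hTS
    · rw [ctf_lt _ hTS]
      have h3 := macS_pt (μ := nrm (volM V F)) hone.cp.measurable hone.np hone.cn.measurable
        hone.nn b hW (lb_of_T0 b (by positivity : (0 : ℝ) ≤ (m : ℝ)) hT0')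
        (qb_of_T0 b (by positivity : (0 : ℝ) ≤ (m : ℝ)) hT0')
        (fun x => sk_m1_le hone hm1 (by norm_num) (by norm_num) x) hT.1 hTS hT0 hA hη hη0
      rw [← hu1] at h3
      have h4 := eh_ge hm hT.1 (by linarith : T ≤ 3 / 10)
      have h7 := mul_le_mul_of_nonneg_right h4 hD
      rw [mul_comm]
      exact mul_le_mul_of_nonneg_left (h3.trans h7) (by positivity)
    · rw [ctf_ge _ hTS]
      have h5 : ∑ a, ctf (S a) (pf η (S a)) T = 0 :=
        Finset.sum_eq_zero fun a _ => ctf_ge _ ((hS1 a).trans hTS)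
      rw [h5, sub_zero, zero_mul]
      positivity
  · rw [intervalIntegral.integral_sub hsum hli.1, intervalIntegral.integral_finsetSum fun a _ => hpi a]
    refine sub_le_sub ?_ hli.2
    rw [Finset.sum_div, Finset.sum_mul]
    refine Finset.sum_le_sum fun a _ => ?_
    rw [(pf_int (hS0 a) ((hS1 a).trans (by linarith))).2]
    exact sS_pow hη0

end

end Vale.Agent.P224.R2.H662
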