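import Vale.Agent.P224.R2.H662.MacS
import Vale.Agent.P224.R2.H662.EigN
import Vale.Agent.P224.R2.H728.T0q

/-!
The integrated lower bound of the square in terms of the second moments of the normal.
-/

namespace Vale.Agent.P224.R2.H662

open MeasureTheory Set Filter Function Real Module Matrix Vale.Agent.P224 Vale.Agent.P224.FV
open Vale.Agent.P224.SM2 Vale.Agent.P224.R2.H820 Vale.Agent.P224.R2.H728
open Vale.Agent.P224.R2.H627 Vale.Agent.P224.R2.H582 Vale.Agent.P224.R2.H470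
open scoped Topology RealInnerProductSpace ContDiff Manifold

set_option linter.unusedSectionVars false

section

variable {ι Ω : Type*} [Fintype ι] [DecidableEq ι] [MeasurableSpace Ω] {μ : Measure Ω}
  {m : ℝ} {x N : ι → Ω → ℝ}

/-- the square norm of the second moments in terms of the deviation -/
theorem fro_De_eq (h : T0Data μ m x N) (hm : 0 ≤ m) :
    (m + 1) ^ 2 * fro (De μ x N) + (m + 2) = (m + 2) ^ 2 * ∑ a, ∑ c, m2 μ N N a c ^ 2 := by
  have := h.prob
  have hcard : (Fintype.card ι : ℝ) = m + 2 := h.card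
  have hm1 : m + 1 ≠ 0 := by positivity
  have e1 : ∀ a c, (m + 1) * De μ x N a c = (m + 2) * m2 μ N N a c - (if a = c then 1 else 0) := by
    intro a c
    have h2 := h.r2 a c
    unfold De
    rw [Matrix.of_apply]
    unfold m2
    linarith
  have e2 : (m + 1) ^ 2 * fro (De μ x N)
      = ∑ a, ∑ c, ((m + 2) * m2 μ N N a c - (if a = c then 1 else 0)) ^ 2 := by
    unfold fro
    rw [Finset.mul_sum]
    refine Finset.sum_congr rfl fun a _ => ?_
    rw [Finset.mul_sum]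
    refine Finset.sum_congr rfl fun c _ => ?_
    rw [← e1, mul_pow]
  have e3 : ∀ a, ∑ c, ((m + 2) * m2 μ N N a c - (if a = c then 1 else 0)) ^ 2
      = (m + 2) ^ 2 * ∑ c, m2 μ N N a c ^ 2 - 2 * (m + 2) * m2 μ N N a a + 1 := by
    intro a
    have e4 : ∀ c, ((m + 2) * m2 μ N N a c - (if a = c then (1 : ℝ) else 0)) ^ 2
        = (m + 2) ^ 2 * m2 μ N N a c ^ 2
          - (if a = c then 2 * (m + 2) * m2 μ N N a c else 0) + (if a = c then 1 else 0) := by
      intro c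
      split_ifs <;> ring
    simp only [e4]
    rw [Finset.sum_add_distrib, Finset.sum_sub_distrib, ← Finset.mul_sum, Finset.sum_ite_eq,
      Finset.sum_ite_eq]
    simp
  have e5 : ∑ a, m2 μ N N a a = 1 := by
    have h6 : ∀ y, ∑ a, N a y * N a y = 1 := by
      intro y
      rw [← h.uN y]
      exact Finset.sum_congr rfl fun a _ => (sq _).symm
    unfold m2
    rw [← integral_finsetSum _ fun a _ => ((h.bN a).mul (h.bN a)).int]
    simp only [h6]
    simp
  rw [e2]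
  simp only [e3]
  rw [Finset.sum_add_distrib, Finset.sum_sub_distrib, ← Finset.mul_sum, ← Finset.mul_sum, e5,
    Finset.sum_const, Finset.card_univ, nsmul_eq_mul, hcard]
  ring

/-- the square norm of the second moments is at least the one of the deviation -/
theorem fro_De_le (h : T0Data μ m x N) (hm : 0 ≤ m) {f : ℝ} (hf : f ≤ 1 / 2)
    (hf1 : f ≤ fro (De μ x N)) : f ≤ ∑ a, ∑ c, m2 μ N N a c ^ 2 := by
  have h1 := fro_De_eq h hm
  have h3 := mul_le_mul_of_nonneg_left hf1 (by positivity : 0 ≤ (m + 1) ^ 2)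
  have h2 : (m + 2) ^ 2 * f ≤ (m + 2) ^ 2 * ∑ a, ∑ c, m2 μ N N a c ^ 2 := by
    rw [← h1]
    nlinarith
  exact le_of_mul_le_mul_left h2 (by positivity)

end

section

variable {V W M : Type*} [NormedAddCommGroup V] [InnerProductSpace ℝ V] [FiniteDimensional ℝ V]
  [NormedAddCommGroup W] [InnerProductSpace ℝ W] [FiniteDimensional ℝ W]
  [TopologicalSpace M] [ChartedSpace V M]
  [MeasurableSpace V] [BorelSpace V] [MeasurableSpace M] [BorelSpace M]
  [MeasurableSpace W] [BorelSpace W] [IsManifold 𝓘(ℝ, V) ∞ M]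
  [CompactSpace M] [T2Space M]

/-- **the integrated lower bound of the square**, in terms of the square norm of the second
moments of the normal and of any direction -/
theorem macS [Nonempty M] (hm : 17 ≤ finrank ℝ V) (hW : finrank ℝ W = finrank ℝ V + 2)
    {F : M → W} (hF : SphImm V F) (hmin : ∀ x n, IsUnitNormal V F x n → meanCurv V F x n = 0)
    {N : M → W} (hNs : ContMDiff 𝓘(ℝ, V) 𝓘(ℝ, W) ∞ N) (hN : ∀ x, IsUnitNormal V F x (N x))
    {ι : Type*} [Fintype ι] [DecidableEq ι] (b : OrthonormalBasis ι ℝ W) (a : ι)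
    {m : ℕ} (hmm : m = finrank ℝ V) {T0 A η : ℝ} (hT00 : 0 < T0) (hT0 : T0 ≤ 3 / 10)
    (hA : 1 / ((m : ℝ) + 1) + 8 * T0 / (7 * m + 23) ≤ A)
    (hη : 1 / (2 * ((m : ℝ) + 1)) + 8 / ((7 * m + 23) * T0) + 8 * (m + 2) / (7 * m + 23)
      + 27 / 5 * T0 ≤ η) :
    ∃ Bc : ℝ → ℝ, IntervalIntegrable Bc volume 0 1 ∧
      (∀ T ∈ Ioo (0 : ℝ) 1, Bc T * (volM V F).real univ ^ 2
        ≤ m * eM m T * E2 (volM V F) F N (fun k => SM2.ker T (m + 1) k.1 * Ck k)) ∧
      min ((η * T0 ^ 2) ^ 3)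
          (max ((∑ c, ∑ d, m2 (nrm (volM V F)) (co b N) (co b N) c d ^ 2) ^ 2
              - 3 * A * ∑ c, ∑ d, m2 (nrm (volM V F)) (co b N) (co b N) c d ^ 2)
            (max (m2 (nrm (volM V F)) (co b N) (co b N) a a - A) 0 ^ 3))
          / (6 * η) * (1 - 7 / 8 * T0 ^ 2)
        - 2 / 3 * T0 ^ 3 * uu (nrm (volM V F)) (co b N)
        ≤ ∫ T in (0 : ℝ)..1, Bc T := by
  subst hmm
  set m := finrank ℝ V with hmdef
  have hfin : IsFiniteMeasure (volM V F) := isFiniteMeasure_volM hF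
  have hm1 : 1 ≤ m := by omega
  have hvpos : 0 < volM V F univ := volM_pos_of_isOpen hW hF isOpen_univ univ_nonempty
  have hA0 : 0 < (volM V F).real univ := ENNReal.toReal_pos hvpos.ne' (measure_ne_top _ _)
  have hT0' : T0Data (nrm (volM V F)) m (co b F) (co b N) :=
    t0Data_of_min hm1 hW hF hmin hNs hN b
  have hprob : IsProbabilityMeasure (nrm (volM V F)) := hT0'.prob
  have hone : OneP (nrm (volM V F)) m F N := oneP_nrm hW hF hmin hNs hN
  have hη0 : 0 < η := lt_of_lt_of_le (by positivity) hη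
  have hAp : 0 ≤ A := le_trans (by positivity) hA
  obtain ⟨e, h1, h2, h3⟩ := exists_eigN (μ := nrm (volM V F)) hone.cn.measurable hone.nn b
  obtain ⟨Bc, k1, k2, k3⟩ := macS_law hm hW hF hmin hNs hN e (m := m) hmdef hT00 hT0 hA hη
  refine ⟨Bc, k1, k2, le_trans ?_ k3⟩
  have em : ∀ c d, m2 (nrm (volM V F)) (co b N) (co b N) c d
      = Bn (nrm (volM V F)) N (b c) (b d) := fun c d => rfl
  have em' : ∀ c d, m2 (nrm (volM V F)) (co e N) (co e N) c d
      = Bn (nrm (volM V F)) N (e c) (e d) := fun c d => rfl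
  obtain ⟨i, hi⟩ := h3 (b a) (b.orthonormal.1 a)
  have hy : ∀ i, 0 ≤ Bn (nrm (volM V F)) N (e i) (e i) := fun i =>
    integral_nonneg fun x => mul_self_nonneg _
  have hcs := cube_sum (B := η * T0 ^ 2) hy h1 hAp (by positivity) h2 hi
  have hnz : NeZero (volM V F) := ⟨fun h => by rw [h] at hvpos; simp at hvpos⟩
  have hu : uu (nrm (volM V F)) (co b N) = ∑ i, m1 (nrm (volM V F)) (co e N) i ^ 2 := by
    have hi : Integrable N (volM V F) :=
      hNs.continuous.integrable_of_hasCompactSupport (HasCompactSupport.of_compactSpace N)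
    have g1 := sum_m1_sq (μ := volM V F) b hi
    have g2 := sum_m1_sq (μ := volM V F) e hi
    rw [g1] at g2
    exact mul_left_cancel₀ (by positivity) g2
  rw [hu]
  have hfac : 0 ≤ 1 / (6 * η) * (1 - 7 / 8 * T0 ^ 2) := by
    have : T0 ^ 2 ≤ 9 / 100 := by nlinarith
    exact mul_nonneg (by positivity) (by linarith)
  have h5 := mul_le_mul_of_nonneg_right hcs hfac
  refine sub_le_sub ?_ le_rfl
  refine le_trans (le_of_eq ?_) (h5.trans (le_of_eq ?_))
  · simp only [em]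
    ring
  · simp only [em']
    ring

/-- the threshold -/
noncomputable def mA (m0 T0 : ℝ) : ℝ := (1 + 8 / 7 * T0) / m0

/-- the slope -/
noncomputable def mE (m0 T0 : ℝ) : ℝ :=
  1 / (2 * (m0 + 1)) + 8 / ((7 * m0 + 23) * T0) + 8 / 7 + 27 / 5 * T0

/-- **the integrated lower bound of the square, numerical form** -/
theorem macS_num [Nonempty M] (hm : 17 ≤ finrank ℝ V) (hW : finrank ℝ W = finrank ℝ V + 2)
    {F : M → W} (hF : SphImm V F) (hmin : ∀ x n, IsUnitNormal V F x n → meanCurv V F x n = 0)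
    {N : M → W} (hNs : ContMDiff 𝓘(ℝ, V) 𝓘(ℝ, W) ∞ N) (hN : ∀ x, IsUnitNormal V F x (N x))
    {ι : Type*} [Fintype ι] [DecidableEq ι] (b : OrthonormalBasis ι ℝ W) (a : ι)
    {m : ℕ} (hmm : m = finrank ℝ V) {m0 T0 ν1 f1 cu X : ℝ} (hm0 : 0 < m0) (hm0m : m0 ≤ m)
    (hT00 : 0 < T0) (hT0 : T0 ≤ 3 / 10)
    (hX : X ≤ min ((mE m0 T0 * T0 ^ 2) ^ 3)
      (max (f1 ^ 2 - 3 * mA m0 T0 * f1) (max (ν1 - mA m0 T0) 0 ^ 3))
        / (6 * mE m0 T0) * (1 - 7 / 8 * T0 ^ 2))
    (hcu : 2 / 3 * T0 ^ 3 ≤ cu)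
    (hν : ν1 ≤ m2 (nrm (volM V F)) (co b N) (co b N) a a)
    (hf : f1 = 0 ∨ (3 / 2 * mA m0 T0 ≤ f1 ∧ f1 ≤ 1 / 2
      ∧ f1 ≤ fro (De (nrm (volM V F)) (co b F) (co b N)))) :
    ∃ Bc : ℝ → ℝ, IntervalIntegrable Bc volume 0 1 ∧
      (∀ T ∈ Ioo (0 : ℝ) 1, Bc T * (volM V F).real univ ^ 2
        ≤ m * eM m T * E2 (volM V F) F N (fun k => SM2.ker T (m + 1) k.1 * Ck k)) ∧
      X - cu * uu (nrm (volM V F)) (co b N) ≤ ∫ T in (0 : ℝ)..1, Bc T := by
  have hmR : (0 : ℝ) < m := hm0.trans_le hm0m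
  have hm1 : 1 ≤ finrank ℝ V := by omega
  have hT0' : T0Data (nrm (volM V F)) (finrank ℝ V) (co b F) (co b N) :=
    t0Data_of_min hm1 hW hF hmin hNs hN b
  have g1 : 1 / ((m : ℝ) + 1) + 8 * T0 / (7 * m + 23) ≤ mA m0 T0 := by
    have e1 : mA m0 T0 = 1 / m0 + 8 * T0 / (7 * m0) := by
      unfold mA
      field_simp
    rw [e1]
    refine add_le_add ?_ ?_
    · exact one_div_le_one_div_of_le hm0 (by linarith)
    · exact div_le_div_of_nonneg_left (by positivity) (by positivity) (by linarith)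
  have g2 : 1 / (2 * ((m : ℝ) + 1)) + 8 / ((7 * m + 23) * T0) + 8 * (m + 2) / (7 * m + 23)
      + 27 / 5 * T0 ≤ mE m0 T0 := by
    unfold mE
    have h1 : 1 / (2 * ((m : ℝ) + 1)) ≤ 1 / (2 * (m0 + 1)) :=
      one_div_le_one_div_of_le (by positivity) (by linarith)
    have h2 : 8 / ((7 * (m : ℝ) + 23) * T0) ≤ 8 / ((7 * m0 + 23) * T0) :=
      div_le_div_of_nonneg_left (by norm_num) (by positivity)
        (mul_le_mul_of_nonneg_right (by linarith) hT00.le)
    have h3 : 8 * ((m : ℝ) + 2) / (7 * m + 23) ≤ 8 / 7 := by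
      rw [div_le_div_iff₀ (by positivity) (by norm_num)]
      linarith
    linarith
  have hE : 0 < mE m0 T0 := by
    unfold mE
    positivity
  have hA : 0 ≤ mA m0 T0 := by
    unfold mA
    positivity
  obtain ⟨Bc, k1, k2, k3⟩ := macS hm hW hF hmin hNs hN b a hmm hT00 hT0 g1 g2
  refine ⟨Bc, k1, k2, le_trans ?_ k3⟩
  have hu : 0 ≤ uu (nrm (volM V F)) (co b N) := Finset.sum_nonneg fun i _ => sq_nonneg _
  refine sub_le_sub (hX.trans ?_) (mul_le_mul_of_nonneg_right hcu hu)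
  have hfac : 0 ≤ 1 / (6 * mE m0 T0) * (1 - 7 / 8 * T0 ^ 2) := by
    have : T0 ^ 2 ≤ 9 / 100 := by nlinarith
    exact mul_nonneg (by positivity) (by linarith)
  set D := ∑ c, ∑ d, m2 (nrm (volM V F)) (co b N) (co b N) c d ^ 2 with hDd
  have h6 : max (f1 ^ 2 - 3 * mA m0 T0 * f1) (max (ν1 - mA m0 T0) 0 ^ 3)
      ≤ max (D ^ 2 - 3 * mA m0 T0 * D)
        (max (m2 (nrm (volM V F)) (co b N) (co b N) a a - mA m0 T0) 0 ^ 3) := by
    have h7 : max (ν1 - mA m0 T0) 0 ^ 3
        ≤ max (m2 (nrm (volM V F)) (co b N) (co b N) a a - mA m0 T0) 0 ^ 3 :=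
      pow_le_pow_left₀ (le_max_right _ _) (max_le_max (by linarith) le_rfl) 3
    rcases hf with hf | ⟨hf1, hf2, hf3⟩
    · refine max_le ?_ (h7.trans (le_max_right _ _))
      rw [hf]
      have : (0 : ℝ) ≤ max (m2 (nrm (volM V F)) (co b N) (co b N) a a - mA m0 T0) 0 ^ 3 :=
        pow_nonneg (le_max_right _ _) 3
      refine le_trans (by norm_num) (this.trans (le_max_right _ _))
    · refine max_le_max ?_ h7
      have h8 : f1 ≤ D := fro_De_le hT0' (by positivity) hf2 hf3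
      nlinarith
  have h9 := mul_le_mul_of_nonneg_right (min_le_min (le_refl ((mE m0 T0 * T0 ^ 2) ^ 3)) h6) hfac
  refine le_trans (le_of_eq ?_) (h9.trans (le_of_eq ?_))
  · ring
  · ring

end

end Vale.Agent.P224.R2.H662
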