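import Vale.Agent.P224.R2.H470.Brg

/-!
The second moment of the centred product at level `T` from the conformal volume bound.
-/

namespace Vale.Agent.P224.R2.H662

open MeasureTheory Module Function Set Vale.Agent.P224.R2.H470 Vale.Agent.P224.R2.H460
  Vale.Agent.P224.R2.H869 Vale.Agent.P224.R2.H484
open scoped RealInnerProductSpace Topology

set_option linter.unusedSectionVars false

/-- `m Mo m 2 ≤ 4/e ≤ 147152/100000` -/
lemma mo_two_le {m : ℕ} (hm : 1 ≤ m) : m * Mo m 2 ≤ 147152 / 100000 := by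
  have hm0 : (0 : ℝ) < m := by exact_mod_cast hm
  unfold Mo
  have e1 : √(((2 : ℕ) : ℝ) / (m + (2 : ℕ))) ^ 2 = 2 / (m + 2) := by
    rw [Real.sq_sqrt (by positivity)]
    norm_num
  rw [e1]
  set r := √((m : ℝ) / (m + (2 : ℕ))) ^ m with hr
  have hr0 : 0 ≤ r := by positivity
  -- `r² (m/(m+2))² ≤ e⁻²`
  have h1 : r ^ 2 = ((m : ℝ) / (m + 2)) ^ m := by
    rw [hr, ← pow_mul, mul_comm m 2, pow_mul, Real.sq_sqrt (by positivity)]
    norm_num
  have h2 : (((m : ℝ) / (m + 2)) ^ (m + 2)) ≤ Real.exp (-2) := by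
    have k1 : (m : ℝ) / (m + 2) = 1 - 2 / (m + 2) := by field_simp; ring
    have k2 : (m : ℝ) / (m + 2) ≤ Real.exp (-(2 / (m + 2))) := by
      rw [k1]
      have := Real.add_one_le_exp (-(2 / ((m : ℝ) + 2)))
      linarith
    calc ((m : ℝ) / (m + 2)) ^ (m + 2) ≤ Real.exp (-(2 / (m + 2))) ^ (m + 2) :=
          pow_le_pow_left₀ (by positivity) k2 _
      _ = Real.exp (-2) := by
          rw [← Real.exp_nat_mul]
          congr 1
          push_cast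
          field_simp
  have h3 : (m / (m + 2) * r) ^ 2 ≤ Real.exp (-1) ^ 2 := by
    have e : (m / (m + 2) * r) ^ 2 = ((m : ℝ) / (m + 2)) ^ (m + 2) := by
      rw [mul_pow, h1, ← pow_add, add_comm 2 m]
    rw [e, ← Real.exp_nat_mul]
    refine h2.trans (le_of_eq ?_)
    congr 1
    push_cast
    ring
  have h4 : m / (m + 2) * r ≤ Real.exp (-1) :=
    (pow_le_pow_iff_left₀ (by positivity) (Real.exp_pos _).le (by norm_num)).1 h3
  have h5 : Real.exp (-1) ≤ 36788 / 100000 := by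
    have := Real.exp_neg_one_lt_d9
    linarith
  have e2 : (m : ℝ) * (2 * (2 / (m + 2) * r)) = 4 * (m / (m + 2) * r) := by
    field_simp
    ring
  rw [e2]
  linarith

section

variable {X : Type*} {E : Type*} [NormedAddCommGroup E] [InnerProductSpace ℝ E]
  [FiniteDimensional ℝ E] [MeasurableSpace E] [BorelSpace E]
variable [TopologicalSpace X] [MeasurableSpace X] [SecondCountableTopology X]
variable [CompactSpace X] [BorelSpace X] {μ : Measure X} {m : ℕ} {p n : X → E}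
  {z : X → E} {T : ℝ}

lemma cw_eq_sqrt (h0 : 0 ≤ T) (h1 : T < 1) : cw m T = √(1 - T ^ 2) ^ m := by
  unfold cw
  exact rpow_half_eq (by nlinarith) m

/-- the centred product is the Moebius coordinate times the denominator -/
lemma beta_eq {x y b : E} (h0 : 0 ≤ T) (h1 : T < 1) (hx : ‖x‖ = 1) (hy : ‖y‖ = 1) :
    ⟪y - T • x, b⟫ = (1 - T * ⟪y, x⟫)
      * ⟪(1 / √(1 - T ^ 2)) • (b - ⟪b, x⟫ • x) + ⟪b, x⟫ • x, mob T x y⟫ := by
  have hv := (v_pos ⟨h0, h1⟩ hy hx).ne'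
  have hk : 0 < 1 - T ^ 2 := by nlinarith
  have hs : √(1 - T ^ 2) ≠ 0 := (Real.sqrt_pos.2 hk).ne'
  have hxx : ⟪x, x⟫ = 1 := by rw [real_inner_self_eq_norm_sq, hx]; norm_num
  unfold mob
  rw [real_inner_smul_right, mul_inv_cancel_left₀ hv]
  simp only [inner_add_left, inner_add_right, inner_sub_left, inner_sub_right,
    real_inner_smul_left, real_inner_smul_right, hxx]
  rw [real_inner_comm x y, real_inner_comm b x, real_inner_comm b y]
  field_simp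
  ring

lemma norm_bp_sq_le {x b : E} (h0 : 0 ≤ T) (h1 : T < 1) (hx : ‖x‖ = 1) :
    ‖(1 / √(1 - T ^ 2)) • (b - ⟪b, x⟫ • x) + ⟪b, x⟫ • x‖ ^ 2 ≤ ‖b‖ ^ 2 / (1 - T ^ 2) := by
  have hk : 0 < 1 - T ^ 2 := by nlinarith
  rw [norm_comb_sq hx (inner_perp hx), norm_perp_sq hx, div_pow, Real.sq_sqrt hk.le, one_pow,
    le_div_iff₀ hk]
  have h3 : (1 / (1 - T ^ 2) * (‖b‖ ^ 2 - ⟪b, x⟫ ^ 2) + ⟪b, x⟫ ^ 2) * (1 - T ^ 2)
      = ‖b‖ ^ 2 - T ^ 2 * ⟪b, x⟫ ^ 2 := by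
    field_simp
    ring
  rw [h3]
  nlinarith [mul_nonneg (sq_nonneg T) (sq_nonneg ⟪b, x⟫)]

variable [IsProbabilityMeasure μ]

/-- the second moment at a fixed point -/
theorem beta_sq_le [Nontrivial E] (h : OneP μ m p n) (hm : 1 ≤ m) (h0 : 0 ≤ T) (h1 : T < 1)
    {x : E} (hx : ‖x‖ = 1) (b : E) :
    cw m T * (m * ∫ y, kr T (m + 1) ⟪x, p y⟫ * ⟪p y - T • x, b⟫ ^ 2 ∂μ)
      ≤ 147152 / 100000 / (1 - T) * ‖b‖ ^ 2 := by
  have hk : 0 < 1 - T ^ 2 := by nlinarith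
  have hT1 : 0 < 1 - T := by linarith
  have hm0 : (0 : ℝ) ≤ m := by positivity
  have hp := h.cp
  set b' := (1 / √(1 - T ^ 2)) • (b - ⟪b, x⟫ • x) + ⟪b, x⟫ • x with hb'
  have h2 := mom_one (cv_of_oneP h hm) (by omega) ⟨h0, h1⟩ hx b' 2
  rw [probReal_univ, one_mul, ← cw_eq_sqrt (m := m) h0 h1] at h2
  have h3 := norm_bp_sq_le (b := b) h0 h1 hx
  rw [← hb'] at h3
  have hc := (cw_pos (m := m) h0 h1).le
  have h4 : ∫ y, kr T (m + 1) ⟪x, p y⟫ * ⟪p y - T • x, b⟫ ^ 2 ∂μ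
      ≤ ∫ y, (1 + T) * (((1 - T * ⟪p y, x⟫) ^ m)⁻¹ * |⟪b', mob T x (p y)⟫| ^ 2) ∂μ := by
    have hi : Integrable (fun y => (1 + T)
        * (((1 - T * ⟪p y, x⟫) ^ m)⁻¹ * |⟪b', mob T x (p y)⟫| ^ 2)) μ := by
      refine Integrable.const_mul (int_mom (C := ‖b'‖ ^ 2) (cv_of_oneP h hm) ⟨h0, h1⟩ hx ?_ ?_) _
      · have hmb := measurable_mob hp.measurable T x
        have hmc : Measurable fun y => |⟪b', mob T x (p y)⟫| := by
          have := (Measurable.inner (𝕜 := ℝ) (measurable_const (a := b')) hmb)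
          exact this.norm
        exact hmc.pow_const 2
      · intro y
        rw [abs_of_nonneg (by positivity)]
        exact pow_le_pow_left₀ (abs_nonneg _) (inner_mob_le ⟨h0, h1⟩ (h.np y) hx b') 2
    have hj : Integrable (fun y => kr T (m + 1) ⟪x, p y⟫ * ⟪p y - T • x, b⟫ ^ 2) μ :=
      int_of_cont ((continuous_kr h0 h1 (m + 1) hx hp h.np).mul (by fun_prop))
    refine integral_mono hj hi fun y => ?_
    simp only
    have hv : 0 < 1 - T * ⟪p y, x⟫ := v_pos ⟨h0, h1⟩ (h.np y) hx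
    have hv2 : 1 - T * ⟪p y, x⟫ ≤ 1 + T := by
      have h5 := (abs_le.1 (abs_real_inner_le_norm (p y) x)).1
      rw [h.np, hx, one_mul] at h5
      nlinarith
    rw [beta_eq h0 h1 hx (h.np y), ← hb', mul_pow, sq_abs, real_inner_comm (p y) x]
    unfold kr
    have e : ((1 - T * ⟪p y, x⟫) ^ (m + 1))⁻¹ * ((1 - T * ⟪p y, x⟫) ^ 2 * ⟪b', mob T x (p y)⟫ ^ 2)
        = (1 - T * ⟪p y, x⟫) * (((1 - T * ⟪p y, x⟫) ^ m)⁻¹ * ⟪b', mob T x (p y)⟫ ^ 2) := by
      have := hv.ne'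
      rw [pow_succ]
      field_simp
    rw [e]
    exact mul_le_mul_of_nonneg_right hv2 (by positivity)
  rw [integral_const_mul] at h4
  have h5 : cw m T * (m * ∫ y, kr T (m + 1) ⟪x, p y⟫ * ⟪p y - T • x, b⟫ ^ 2 ∂μ)
      ≤ m * ((1 + T) * (‖b'‖ ^ 2 * Mo m 2)) := by
    calc cw m T * (m * ∫ y, kr T (m + 1) ⟪x, p y⟫ * ⟪p y - T • x, b⟫ ^ 2 ∂μ)
        ≤ cw m T * (m * ((1 + T) * ∫ y, ((1 - T * ⟪p y, x⟫) ^ m)⁻¹
          * |⟪b', mob T x (p y)⟫| ^ 2 ∂μ)) :=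
          mul_le_mul_of_nonneg_left (mul_le_mul_of_nonneg_left h4 hm0) hc
      _ = m * ((1 + T) * (cw m T * ∫ y, ((1 - T * ⟪p y, x⟫) ^ m)⁻¹
          * |⟪b', mob T x (p y)⟫| ^ 2 ∂μ)) := by ring
      _ ≤ m * ((1 + T) * (‖b'‖ ^ 2 * Mo m 2)) :=
          mul_le_mul_of_nonneg_left (mul_le_mul_of_nonneg_left h2 (by linarith)) hm0
  refine h5.trans ?_
  have h6 : m * ((1 + T) * (‖b'‖ ^ 2 * Mo m 2)) = (1 + T) * ‖b'‖ ^ 2 * (m * Mo m 2) := by ring
  rw [h6]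
  calc (1 + T) * ‖b'‖ ^ 2 * (m * Mo m 2)
      ≤ (1 + T) * (‖b‖ ^ 2 / (1 - T ^ 2)) * (147152 / 100000) := by
        refine mul_le_mul (mul_le_mul_of_nonneg_left h3 (by linarith)) (mo_two_le hm)
          (mul_nonneg hm0 (Mo_nonneg _ _)) (by positivity)
    _ = 147152 / 100000 / (1 - T) * ‖b‖ ^ 2 := by
        have e : 1 - T ^ 2 = (1 - T) * (1 + T) := by ring
        have : 1 + T ≠ 0 := by linarith
        rw [e]
        field_simp

/-- the mean square of the centred product at level `T` -/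
theorem MM_cv [Nontrivial E] (h : OneP μ m p n) (hm : 1 ≤ m) (h0 : 0 ≤ T) (h1 : T < 1)
    (hz : Continuous z) :
    cw m T * MM μ m p z T ≤ 147152 / 100000 / (1 - T) * ∫ x, ‖z x‖ ^ 2 ∂μ := by
  have hp := h.cp
  have cY := cont_Y2 (T := T) hp hz
  unfold MM PI
  rw [integral_prod _ (int_PI h0 h1 (m + 1) hp h.np (by fun_prop)), ← mul_assoc,
    ← integral_const_mul, ← integral_const_mul]
  refine integral_mono ?_ ?_ fun x => ?_
  · exact (Integrable.integral_prod_left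
      (int_PI (μ := μ) h0 h1 (m + 1) hp h.np (G := fun u => Y2 p z T u ^ 2)
        (by fun_prop))).const_mul _
  · exact int_of_cont (by fun_prop)
  · simp only
    have h2 := beta_sq_le h hm h0 h1 (h.np x) (z x)
    rw [mul_assoc]
    exact h2

/-- the case `T = 1/2` -/
theorem MM_half [Nontrivial E] (h : OneP μ m p n) (hm : 1 ≤ m) (hz : Continuous z) :
    cw m (1 / 2) * MM μ m p z (1 / 2) ≤ 3 * ∫ x, ‖z x‖ ^ 2 ∂μ := by
  have h2 := MM_cv (T := 1 / 2) h hm (by norm_num) (by norm_num) hz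
  have h3 : 0 ≤ ∫ x, ‖z x‖ ^ 2 ∂μ := integral_nonneg fun x => by positivity
  norm_num at h2 ⊢
  linarith

end

end Vale.Agent.P224.R2.H662
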