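import Vale.Agent.P224.R2.H470.Bess

/-!
The row of the field `φ V` with `φ = ∑ q_k²`, `V = ∑ q_k A_k x`, `q_k = ⟨x, A_k x⟩`.
-/

namespace Vale.Agent.P224.R2.H662

open MeasureTheory Module Function Set Vale.Agent.P224.R2.H470
open scoped RealInnerProductSpace Topology ContDiff

set_option linter.unusedSectionVars false

section

variable {X : Type*} {E : Type*} [NormedAddCommGroup E] [InnerProductSpace ℝ E]
  [FiniteDimensional ℝ E] [TopologicalSpace X] [MeasurableSpace X] [CompactSpace X] [BorelSpace X]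
  {μ : Measure X} [IsFiniteMeasure μ] {m : ℕ} {p n : X → E} {κ : Type*} [Fintype κ]

/-- the sum of squares of the quadratic forms -/
noncomputable def fi (A : κ → E →L[ℝ] E) (u : E) : ℝ := ∑ k, ⟪u, A k u⟫ ^ 2

/-- the vector field -/
noncomputable def vf (A : κ → E →L[ℝ] E) (u : E) : E := ∑ k, ⟪u, A k u⟫ • A k u

/-- the sum of the squared norms -/
noncomputable def gg (A : κ → E →L[ℝ] E) (u : E) : ℝ := ∑ k, ‖A k u‖ ^ 2

lemma cont_fi (A : κ → E →L[ℝ] E) : Continuous (fi A) := by unfold fi; fun_prop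

lemma cont_vf (A : κ → E →L[ℝ] E) : Continuous (vf A) := by unfold vf; fun_prop

lemma cont_gg (A : κ → E →L[ℝ] E) : Continuous (gg A) := by unfold gg; fun_prop

lemma fi_nonneg (A : κ → E →L[ℝ] E) (u : E) : 0 ≤ fi A u := Finset.sum_nonneg fun _ _ => sq_nonneg _

lemma gg_nonneg (A : κ → E →L[ℝ] E) (u : E) : 0 ≤ gg A u := Finset.sum_nonneg fun _ _ => sq_nonneg _

lemma inner_vf (A : κ → E →L[ℝ] E) (u : E) : ⟪u, vf A u⟫ = fi A u := by
  unfold vf fi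
  rw [inner_sum]
  exact Finset.sum_congr rfl fun k _ => by rw [inner_smul_right, sq]

/-- derivative of the vector field -/
noncomputable def vf' (A : κ → E →L[ℝ] E) (u : E) : E →L[ℝ] E :=
  ∑ k, (⟪u, A k u⟫ • A k + ((2 : ℝ) • innerSL ℝ (A k u)).smulRight (A k u))

lemma vf'_apply (A : κ → E →L[ℝ] E) (u v : E) :
    vf' A u v = ∑ k, (⟪u, A k u⟫ • A k v + (2 * ⟪A k u, v⟫) • A k u) := by
  unfold vf'
  simp only [_root_.sum_apply, _root_.add_apply, _root_.smul_apply,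
    ContinuousLinearMap.smulRight_apply, innerSL_apply_apply, smul_eq_mul]

lemma hasFD_vf {A : κ → E →L[ℝ] E} (hA : ∀ k u v, ⟪A k u, v⟫ = ⟪u, A k v⟫) (u : E) :
    HasFDerivAt (vf A) (vf' A u) u := by
  unfold vf vf'
  exact HasFDerivAt.fun_sum fun k _ => (hasFD_quad (hA k) u).smul ((A k).hasFDerivAt (x := u))

lemma hasFD_fi {A : κ → E →L[ℝ] E} (hA : ∀ k u v, ⟪A k u, v⟫ = ⟪u, A k v⟫) (u : E) :
    HasFDerivAt (fi A) ((4 : ℝ) • innerSL ℝ (vf A u)) u := by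
  have h1 : HasFDerivAt (fi A)
      (∑ k, ((2 : ℕ) • ⟪u, A k u⟫ ^ (2 - 1)) • ((2 : ℝ) • innerSL ℝ (A k u))) u := by
    unfold fi
    exact HasFDerivAt.fun_sum fun k _ => (hasFD_quad (hA k) u).pow 2
  refine h1.congr_fderiv ?_
  ext v
  simp only [_root_.sum_apply, _root_.smul_apply, innerSL_apply_apply, smul_eq_mul, vf, sum_inner,
    inner_smul_left, RCLike.conj_to_real, Finset.mul_sum]
  refine Finset.sum_congr rfl fun k _ => ?_
  simp only [nsmul_eq_mul]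
  push_cast
  ring

lemma contDiff_vf (A : κ → E →L[ℝ] E) : ContDiff ℝ ∞ (vf A) := by
  unfold vf
  exact ContDiff.sum fun k _ => (contDiff_id.inner ℝ (A k).contDiff).smul (A k).contDiff

lemma contDiff_fi (A : κ → E →L[ℝ] E) : ContDiff ℝ ∞ (fi A) := by
  unfold fi
  exact ContDiff.sum fun k _ => (contDiff_id.inner ℝ (A k).contDiff).pow 2

/-- the row -/
theorem quart_row (h : OneP μ m p n) {A : κ → E →L[ℝ] E}
    (hA : ∀ k u v, ⟪A k u, v⟫ = ⟪u, A k v⟫)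
    (htr : ∀ k, LinearMap.trace ℝ E (A k : E →ₗ[ℝ] E) = 0) :
    (m + 7) * ∫ x, fi A (p x) ^ 2 ∂μ
      = ∫ x, (4 * ‖vf A (p x)‖ ^ 2 + 2 * fi A (p x) * gg A (p x) - 4 * ⟪vf A (p x), n x⟫ ^ 2
        - 2 * fi A (p x) * ∑ k, ⟪A k (p x), n x⟫ ^ 2
        - fi A (p x) * ∑ k, ⟪p x, A k (p x)⟫ * ⟪n x, A k (n x)⟫) ∂μ := by
  have cp := h.cp
  have cn := h.cn
  set e := stdOrthonormalBasis ℝ E with he
  have hW : ContDiff ℝ ∞ (fun u : E => fi A u • vf A u) := (contDiff_fi A).smul (contDiff_vf A)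
  have hd : ∀ u, HasFDerivAt (fun u : E => fi A u • vf A u)
      (fi A u • vf' A u + ((4 : ℝ) • innerSL ℝ (vf A u)).smulRight (vf A u)) u := fun u =>
    (hasFD_fi hA u).smul (hasFD_vf hA u)
  have cfi := cont_fi A
  have cvf := cont_vf A
  have cgg := cont_gg A
  have hc : Continuous fun u : E =>
      (fi A u • vf' A u + ((4 : ℝ) • innerSL ℝ (vf A u)).smulRight (vf A u)) := by
    refine continuous_clm_apply.2 fun y => ?_
    simp only [_root_.add_apply, _root_.smul_apply, ContinuousLinearMap.smulRight_apply,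
      innerSL_apply_apply, smul_eq_mul, vf'_apply]
    fun_prop
  have h1 := h.rv hW hd hc
  have htr' : ∀ u : E, LinearMap.trace ℝ E
      ((fi A u • vf' A u + ((4 : ℝ) • innerSL ℝ (vf A u)).smulRight (vf A u) : E →L[ℝ] E)
        : E →ₗ[ℝ] E) = 2 * fi A u * gg A u + 4 * ‖vf A u‖ ^ 2 := by
    intro u
    have t1 : ∀ k, ∑ i, ⟪e i, A k (e i)⟫ = 0 := fun k => by
      rw [← htr k, LinearMap.trace_eq_sum_inner _ e]
      rfl
    have t2 : ∀ w : E, ∑ i, ⟪w, e i⟫ * ⟪e i, w⟫ = ‖w‖ ^ 2 := fun w => by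
      rw [e.sum_inner_mul_inner, real_inner_self_eq_norm_sq]
    rw [LinearMap.trace_eq_sum_inner _ e]
    simp only [ContinuousLinearMap.coe_coe, _root_.add_apply, _root_.smul_apply,
      ContinuousLinearMap.smulRight_apply, innerSL_apply_apply, smul_eq_mul, inner_add_right,
      inner_smul_right, vf'_apply, inner_sum]
    rw [Finset.sum_add_distrib]
    have s1 : ∑ i, fi A u * ∑ k, (⟪u, A k u⟫ * ⟪e i, A k (e i)⟫
        + 2 * ⟪A k u, e i⟫ * ⟪e i, A k u⟫) = 2 * fi A u * gg A u := by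
      rw [← Finset.mul_sum, Finset.sum_comm]
      have s2 : ∀ k, ∑ i, (⟪u, A k u⟫ * ⟪e i, A k (e i)⟫ + 2 * ⟪A k u, e i⟫ * ⟪e i, A k u⟫)
          = 2 * ‖A k u‖ ^ 2 := by
        intro k
        rw [Finset.sum_add_distrib, ← Finset.mul_sum, t1 k, mul_zero, zero_add, ← t2 (A k u),
          Finset.mul_sum]
        exact Finset.sum_congr rfl fun i _ => by ring
      simp_rw [s2]
      unfold gg
      rw [← Finset.mul_sum]
      ring
    have s3 : ∑ i, 4 * ⟪vf A u, e i⟫ * ⟪e i, vf A u⟫ = 4 * ‖vf A u‖ ^ 2 := by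
      rw [← t2 (vf A u), Finset.mul_sum]
      exact Finset.sum_congr rfl fun i _ => by ring
    rw [s1, s3]
  simp only [htr'] at h1
  have e1 : ∀ u v : E, ⟪(fi A u • vf' A u + ((4 : ℝ) • innerSL ℝ (vf A u)).smulRight (vf A u)) v, v⟫
      = fi A u * (∑ k, ⟪u, A k u⟫ * ⟪v, A k v⟫) + 2 * fi A u * ∑ k, ⟪A k u, v⟫ ^ 2
        + 4 * ⟪vf A u, v⟫ ^ 2 := by
    intro u v
    simp only [_root_.add_apply, _root_.smul_apply, ContinuousLinearMap.smulRight_apply,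
      innerSL_apply_apply, smul_eq_mul, inner_add_left, inner_smul_left, RCLike.conj_to_real,
      vf'_apply, sum_inner]
    rw [Finset.sum_add_distrib, mul_add, Finset.mul_sum, Finset.mul_sum, Finset.mul_sum,
      Finset.mul_sum]
    congr 1
    · congr 1
      · refine Finset.sum_congr rfl fun k _ => ?_
        rw [hA k v v]
      · refine Finset.sum_congr rfl fun k _ => ?_
        ring
    · ring
  have e2 : ∀ x, (2 * fi A (p x) * gg A (p x) + 4 * ‖vf A (p x)‖ ^ 2)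
      - (fi A (p x) * (∑ k, ⟪p x, A k (p x)⟫ * ⟪p x, A k (p x)⟫)
        + 2 * fi A (p x) * ∑ k, ⟪A k (p x), p x⟫ ^ 2 + 4 * ⟪vf A (p x), p x⟫ ^ 2)
      - (fi A (p x) * (∑ k, ⟪p x, A k (p x)⟫ * ⟪n x, A k (n x)⟫)
        + 2 * fi A (p x) * ∑ k, ⟪A k (p x), n x⟫ ^ 2 + 4 * ⟪vf A (p x), n x⟫ ^ 2)
      = (4 * ‖vf A (p x)‖ ^ 2 + 2 * fi A (p x) * gg A (p x) - 4 * ⟪vf A (p x), n x⟫ ^ 2
        - 2 * fi A (p x) * ∑ k, ⟪A k (p x), n x⟫ ^ 2
        - fi A (p x) * ∑ k, ⟪p x, A k (p x)⟫ * ⟪n x, A k (n x)⟫) - 7 * fi A (p x) ^ 2 := by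
    intro x
    have f1 : ∑ k, ⟪p x, A k (p x)⟫ * ⟪p x, A k (p x)⟫ = fi A (p x) :=
      Finset.sum_congr rfl fun k _ => (sq _).symm
    have f2 : ∑ k, ⟪A k (p x), p x⟫ ^ 2 = fi A (p x) :=
      Finset.sum_congr rfl fun k _ => by rw [hA k]
    have f3 : ⟪vf A (p x), p x⟫ = fi A (p x) := by rw [real_inner_comm, inner_vf]
    rw [f1, f2, f3]
    ring
  simp only [e1, e2] at h1
  have e3 : ∫ x, ⟪p x, fi A (p x) • vf A (p x)⟫ ∂μ = ∫ x, fi A (p x) ^ 2 ∂μ := by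
    refine integral_congr_ae (Filter.Eventually.of_forall fun x => ?_)
    simp only
    rw [inner_smul_right, inner_vf, sq]
  have c3 : Continuous fun x => (4 * ‖vf A (p x)‖ ^ 2 + 2 * fi A (p x) * gg A (p x)
        - 4 * ⟪vf A (p x), n x⟫ ^ 2 - 2 * fi A (p x) * ∑ k, ⟪A k (p x), n x⟫ ^ 2
        - fi A (p x) * ∑ k, ⟪p x, A k (p x)⟫ * ⟪n x, A k (n x)⟫) := by fun_prop
  rw [integral_sub (int_of_cont c3) (int_of_cont (by fun_prop)), integral_const_mul, e3] at h1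
  linarith

lemma norm_vf_sq (A : κ → E →L[ℝ] E) (u : E) : ‖vf A u‖ ^ 2 ≤ fi A u * gg A u := by
  have h1 : ‖vf A u‖ ≤ ∑ k, |⟪u, A k u⟫| * ‖A k u‖ := by
    unfold vf
    refine (norm_sum_le _ _).trans (le_of_eq ?_)
    exact Finset.sum_congr rfl fun k _ => by rw [norm_smul, Real.norm_eq_abs]
  have h2 : (∑ k, |⟪u, A k u⟫| * ‖A k u‖) ^ 2
      ≤ (∑ k, |⟪u, A k u⟫| ^ 2) * ∑ k, ‖A k u‖ ^ 2 := Finset.sum_mul_sq_le_sq_mul_sq _ _ _
  simp only [sq_abs] at h2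
  exact (pow_le_pow_left₀ (norm_nonneg _) h1 2).trans h2

/-- the inequality from the row -/
theorem quart_le (h : OneP μ m p n) {A : κ → E →L[ℝ] E}
    (hA : ∀ k u v, ⟪A k u, v⟫ = ⟪u, A k v⟫)
    (htr : ∀ k, LinearMap.trace ℝ E (A k : E →ₗ[ℝ] E) = 0) {θ : ℝ} (hθ : 0 < θ) :
    (m + 7 - 3 / 4 * θ) * ∫ x, fi A (p x) ^ 2 ∂μ
      ≤ 6 * ∫ x, fi A (p x) * gg A (p x) ∂μ
        + 1 / (4 * θ ^ 3) * ∫ x, (fi A (n x)) ^ 2 ∂μ := by
  have cp := h.cp
  have cn := h.cn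
  have cfi := cont_fi A
  have cvf := cont_vf A
  have cgg := cont_gg A
  have h1 := quart_row h hA htr
  have h2 : ∫ x, (4 * ‖vf A (p x)‖ ^ 2 + 2 * fi A (p x) * gg A (p x) - 4 * ⟪vf A (p x), n x⟫ ^ 2
        - 2 * fi A (p x) * ∑ k, ⟪A k (p x), n x⟫ ^ 2
        - fi A (p x) * ∑ k, ⟪p x, A k (p x)⟫ * ⟪n x, A k (n x)⟫) ∂μ
      ≤ ∫ x, (6 * (fi A (p x) * gg A (p x)) + 3 / 4 * θ * fi A (p x) ^ 2
        + 1 / (4 * θ ^ 3) * (fi A (n x)) ^ 2) ∂μ := by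
    refine integral_mono (int_of_cont (by fun_prop)) (int_of_cont (by fun_prop)) fun x => ?_
    simp only
    have f0 := fi_nonneg A (p x)
    have r0 := fi_nonneg A (n x)
    have g0 := gg_nonneg A (p x)
    have k1 := norm_vf_sq A (p x)
    have k2 : 0 ≤ fi A (p x) * ∑ k, ⟪A k (p x), n x⟫ ^ 2 :=
      mul_nonneg f0 (Finset.sum_nonneg fun _ _ => sq_nonneg _)
    have k3 : (∑ k, ⟪p x, A k (p x)⟫ * ⟪n x, A k (n x)⟫) ^ 2 ≤ fi A (p x) * fi A (n x) :=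
      Finset.sum_mul_sq_le_sq_mul_sq _ _ _
    set s := ∑ k, ⟪p x, A k (p x)⟫ * ⟪n x, A k (n x)⟫
    set f := fi A (p x)
    set r := fi A (n x)
    have k4 : -(f * s) ≤ 3 / 4 * θ * f ^ 2 + 1 / (4 * θ ^ 3) * r ^ 2 := by
      have j1 : -(f * s) ≤ θ / 2 * f ^ 2 + 1 / (2 * θ) * s ^ 2 := by
        have : 0 ≤ 1 / (2 * θ) * (θ * f + s) ^ 2 := by positivity
        have e : 1 / (2 * θ) * (θ * f + s) ^ 2 = θ / 2 * f ^ 2 + f * s + 1 / (2 * θ) * s ^ 2 := by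
          field_simp
          ring
        linarith
      have j2 : 1 / (2 * θ) * s ^ 2 ≤ 1 / (2 * θ) * (f * r) :=
        mul_le_mul_of_nonneg_left k3 (by positivity)
      have j3 : 1 / (2 * θ) * (f * r) ≤ θ / 4 * f ^ 2 + 1 / (4 * θ ^ 3) * r ^ 2 := by
        have : 0 ≤ 1 / (4 * θ ^ 3) * (θ ^ 2 * f - r) ^ 2 := by positivity
        have e : 1 / (4 * θ ^ 3) * (θ ^ 2 * f - r) ^ 2
            = θ / 4 * f ^ 2 - 1 / (2 * θ) * (f * r) + 1 / (4 * θ ^ 3) * r ^ 2 := by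
          field_simp
          ring
        linarith
      linarith
    nlinarith [sq_nonneg ⟪vf A (p x), n x⟫]
  have h3 : ∫ x, (6 * (fi A (p x) * gg A (p x)) + 3 / 4 * θ * fi A (p x) ^ 2
        + 1 / (4 * θ ^ 3) * (fi A (n x)) ^ 2) ∂μ
      = 6 * ∫ x, fi A (p x) * gg A (p x) ∂μ + 3 / 4 * θ * ∫ x, fi A (p x) ^ 2 ∂μ
        + 1 / (4 * θ ^ 3) * ∫ x, (fi A (n x)) ^ 2 ∂μ := by
    rw [integral_add (int_of_cont (by fun_prop)) (int_of_cont (by fun_prop)),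
      integral_add (int_of_cont (by fun_prop)) (int_of_cont (by fun_prop)),
      integral_const_mul, integral_const_mul, integral_const_mul]
  rw [h3] at h2
  linarith

end

end Vale.Agent.P224.R2.H662
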