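import Vale.Agent.P224.R2.H662.C4b

/-!
The rare part: large values of the defect, with a free exponent.
-/

namespace Vale.Agent.P224.R2.H662

open MeasureTheory Module Function Set Vale.Agent.P224.R2.H470
open scoped RealInnerProductSpace Topology ContDiff

set_option linter.unusedSectionVars false

lemma sq_le_exp {u : ℝ} (hu : 0 ≤ u) : 9 * u ^ 2 ≤ Real.exp (6 * u - 2) := by
  have h1 := Real.add_one_le_exp (3 * u - 1)
  have h2 : 3 * u ≤ Real.exp (3 * u - 1) := by linarith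
  calc 9 * u ^ 2 = (3 * u) ^ 2 := by ring
    _ ≤ Real.exp (3 * u - 1) ^ 2 := pow_le_pow_left₀ (by linarith) h2 2
    _ = Real.exp (6 * u - 2) := by rw [← Real.exp_nat_mul]; congr 1; push_cast; ring

lemma lin_le_exp (u : ℝ) : 6 * u ≤ Real.exp (6 * u - 1) := by
  have h1 := Real.add_one_le_exp (6 * u - 1)
  linarith

/-- the exponential weight beyond `9` -/
lemma exp_beyond {l d : ℝ} (hl : 1 ≤ l) (hd : 0 ≤ d) :
    Real.exp (6 * (l * d)) * (1 + d ^ 2) ≤ Real.exp (-(9 * l)) * Real.exp (l * (3 + d) ^ 2) := by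
  rw [← Real.exp_add]
  have e : -(9 * l) + l * (3 + d) ^ 2 = 6 * (l * d) + l * d ^ 2 := by ring
  rw [e, Real.exp_add]
  refine mul_le_mul_of_nonneg_left ?_ (Real.exp_pos _).le
  have h1 := Real.add_one_le_exp (l * d ^ 2)
  nlinarith [sq_nonneg d, mul_nonneg (sub_nonneg.2 hl) (sq_nonneg d)]

/-- scalar inequality for `((a - 16)₊)²` -/
lemma numA {l s0 : ℝ} (hl : 1 ≤ l) (hs : s0 ≤ 7 / 2) (t : ℝ) (ht : 3 ≤ t) :
    ((1 + t) ^ 2 - 16) ^ 2
      ≤ (128 / 99 * Real.exp (-2) / l ^ 2 * Real.exp (-(9 * l)))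
        * (Real.exp (l * t ^ 2) * (t ^ 2 - s0)) := by
  obtain ⟨d, hd, rfl⟩ : ∃ d : ℝ, 0 ≤ d ∧ t = 3 + d := ⟨t - 3, by linarith, by ring⟩
  have l0 : 0 < l := by linarith
  have h1 := exp_beyond hl hd
  have h2 := sq_le_exp (mul_nonneg l0.le hd)
  have h3 : (11 / 2 + 6 * d) ≤ (3 + d) ^ 2 - s0 := by nlinarith
  have e1 : (128 / 99 * Real.exp (-2) / l ^ 2 * Real.exp (-(9 * l)))
        * (Real.exp (l * (3 + d) ^ 2) * ((3 + d) ^ 2 - s0))
      = (128 / 99 * Real.exp (-2) / l ^ 2)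
        * ((Real.exp (-(9 * l)) * Real.exp (l * (3 + d) ^ 2)) * ((3 + d) ^ 2 - s0)) := by ring
  rw [e1]
  have h4 : (Real.exp (6 * (l * d)) * (1 + d ^ 2)) * (11 / 2 + 6 * d)
      ≤ (Real.exp (-(9 * l)) * Real.exp (l * (3 + d) ^ 2)) * ((3 + d) ^ 2 - s0) :=
    mul_le_mul h1 h3 (by positivity) (by positivity)
  refine le_trans ?_ (mul_le_mul_of_nonneg_left h4 (by positivity))
  have h5 : 9 * (l * d) ^ 2 ≤ Real.exp (-2) * Real.exp (6 * (l * d)) := by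
    rw [← Real.exp_add]
    have : -2 + 6 * (l * d) = 6 * (l * d) - 2 := by ring
    rw [this]
    exact h2
  have e2 : (128 / 99 * Real.exp (-2) / l ^ 2)
      * ((Real.exp (6 * (l * d)) * (1 + d ^ 2)) * (11 / 2 + 6 * d))
      = (Real.exp (-2) * Real.exp (6 * (l * d))) * (128 / 99 / l ^ 2
        * ((1 + d ^ 2) * (11 / 2 + 6 * d))) := by ring
  rw [e2]
  have h6 : 0 ≤ 128 / 99 / l ^ 2 * ((1 + d ^ 2) * (11 / 2 + 6 * d)) := by positivity
  refine le_trans ?_ (mul_le_mul_of_nonneg_right h5 h6)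
  have e3 : 9 * (l * d) ^ 2 * (128 / 99 / l ^ 2 * ((1 + d ^ 2) * (11 / 2 + 6 * d)))
      = d ^ 2 * (128 / 11 * ((1 + d ^ 2) * (11 / 2 + 6 * d))) := by
    field_simp
    ring
  rw [e3]
  have e4 : ((1 + (3 + d)) ^ 2 - 16) ^ 2 = d ^ 2 * (8 + d) ^ 2 := by ring
  rw [e4]
  refine mul_le_mul_of_nonneg_left ?_ (sq_nonneg d)
  nlinarith [mul_nonneg hd (sq_nonneg d), sq_nonneg d]

/-- scalar inequality for `a (a - 16)₊` -/
lemma numB {l s0 : ℝ} (hl : 1 ≤ l) (hs : s0 ≤ 7 / 2) (t : ℝ) (ht : 3 ≤ t) :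
    (1 + t) ^ 2 * ((1 + t) ^ 2 - (1 + 3) ^ 2)
      ≤ (128 / 33 * Real.exp (-1) / l * Real.exp (-(9 * l)))
        * (Real.exp (l * t ^ 2) * (t ^ 2 - s0)) := by
  obtain ⟨d, hd, rfl⟩ : ∃ d : ℝ, 0 ≤ d ∧ t = 3 + d := ⟨t - 3, by linarith, by ring⟩
  have l0 : 0 < l := by linarith
  have h1 := exp_beyond hl hd
  have h2 := lin_le_exp (l * d)
  have h3 : (11 / 2 + 6 * d) ≤ (3 + d) ^ 2 - s0 := by nlinarith
  have e1 : (128 / 33 * Real.exp (-1) / l * Real.exp (-(9 * l)))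
        * (Real.exp (l * (3 + d) ^ 2) * ((3 + d) ^ 2 - s0))
      = (128 / 33 * Real.exp (-1) / l)
        * ((Real.exp (-(9 * l)) * Real.exp (l * (3 + d) ^ 2)) * ((3 + d) ^ 2 - s0)) := by ring
  rw [e1]
  have h4 : (Real.exp (6 * (l * d)) * (1 + d ^ 2)) * (11 / 2 + 6 * d)
      ≤ (Real.exp (-(9 * l)) * Real.exp (l * (3 + d) ^ 2)) * ((3 + d) ^ 2 - s0) :=
    mul_le_mul h1 h3 (by positivity) (by positivity)
  refine le_trans ?_ (mul_le_mul_of_nonneg_left h4 (by positivity))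
  have h5 : 6 * (l * d) ≤ Real.exp (-1) * Real.exp (6 * (l * d)) := by
    rw [← Real.exp_add]
    have : -1 + 6 * (l * d) = 6 * (l * d) - 1 := by ring
    rw [this]
    exact h2
  have e2 : (128 / 33 * Real.exp (-1) / l)
      * ((Real.exp (6 * (l * d)) * (1 + d ^ 2)) * (11 / 2 + 6 * d))
      = (Real.exp (-1) * Real.exp (6 * (l * d))) * (128 / 33 / l
        * ((1 + d ^ 2) * (11 / 2 + 6 * d))) := by ring
  rw [e2]
  have h6 : 0 ≤ 128 / 33 / l * ((1 + d ^ 2) * (11 / 2 + 6 * d)) := by positivity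
  refine le_trans ?_ (mul_le_mul_of_nonneg_right h5 h6)
  have e3 : 6 * (l * d) * (128 / 33 / l * ((1 + d ^ 2) * (11 / 2 + 6 * d)))
      = d * (256 / 11 * ((1 + d ^ 2) * (11 / 2 + 6 * d))) := by
    field_simp
    ring
  rw [e3]
  have e4 : (1 + (3 + d)) ^ 2 * ((1 + (3 + d)) ^ 2 - (1 + 3) ^ 2) = d * ((4 + d) ^ 2 * (8 + d)) := by
    ring
  rw [e4]
  refine mul_le_mul_of_nonneg_left ?_ hd
  nlinarith [mul_nonneg hd (sq_nonneg d), sq_nonneg d]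

/-- scalar inequality for `(|Jx|² - 9)₊ a` -/
lemma numC {l s0 : ℝ} (hl : 1 ≤ l) (hs : s0 ≤ 7 / 2) (t : ℝ) (ht : 3 ≤ t) :
    (t ^ 2 - 9) * (1 + t) ^ 2
      ≤ (128 / 33 * Real.exp (-1) / l * Real.exp (-(9 * l)))
        * (Real.exp (l * t ^ 2) * (t ^ 2 - s0)) := by
  refine le_trans ?_ (numB hl hs t ht)
  have : (1 + t) ^ 2 - (1 + 3) ^ 2 ≥ t ^ 2 - 9 := by nlinarith
  nlinarith [sq_nonneg (1 + t)]

end Vale.Agent.P224.R2.H662
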