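import Vale.Agent.P224.R2.H662.Rare
import Vale.Agent.P224.R2.H662.C4d

/-!
The rare part: tails of the defect with a free exponent.
-/

namespace Vale.Agent.P224.R2.H662

open MeasureTheory Module Function Set Vale.Agent.P224.R2.H470 Vale.Agent.P224.R2.H728
open scoped RealInnerProductSpace Topology

set_option linter.unusedSectionVars false

lemma expA_const {l s0 : ℝ} (hl : 1 ≤ l) (hs : s0 ≤ 7 / 2) :
    (128 / 99 * Real.exp (-2) / l ^ 2 * Real.exp (-(9 * l))) * (Real.exp (l * s0 - 1) / l)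
      ≤ 1 / 15 * Real.exp (-(11 / 2 * l)) / l ^ 3 := by
  have l0 : 0 < l := by linarith
  have e1 : (128 / 99 * Real.exp (-2) / l ^ 2 * Real.exp (-(9 * l))) * (Real.exp (l * s0 - 1) / l)
      = 128 / 99 * (Real.exp (-2) * Real.exp (-(9 * l)) * Real.exp (l * s0 - 1)) / l ^ 3 := by
    field_simp
  rw [e1, ← Real.exp_add, ← Real.exp_add]
  have h1 : Real.exp (-2 + -(9 * l) + (l * s0 - 1)) ≤ Real.exp (-3) * Real.exp (-(11 / 2 * l)) := by
    rw [← Real.exp_add]
    refine Real.exp_le_exp.2 ?_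
    nlinarith
  have h2 : Real.exp (-3) ≤ 5 / 100 := by
    have : Real.exp (-3) = (Real.exp 1 ^ 3)⁻¹ := by
      rw [← Real.exp_nat_mul, ← Real.exp_neg]; norm_num
    rw [this, inv_le_comm₀ (by positivity) (by norm_num)]
    have h3 := Real.exp_one_gt_d9
    calc ((5 : ℝ) / 100)⁻¹ ≤ (27182818283 / 10000000000) ^ 3 := by norm_num
      _ ≤ Real.exp 1 ^ 3 := pow_le_pow_left₀ (by norm_num) (by linarith) 3
  refine div_le_div_of_nonneg_right ?_ (by positivity)
  have h4 : 0 ≤ Real.exp (-(11 / 2 * l)) := (Real.exp_pos _).le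
  nlinarith [mul_le_mul_of_nonneg_right h2 h4]

lemma expB_const {l s0 : ℝ} (hl : 1 ≤ l) (hs : s0 ≤ 7 / 2) :
    (128 / 33 * Real.exp (-1) / l * Real.exp (-(9 * l))) * (Real.exp (l * s0 - 1) / l)
      ≤ 21 / 40 * Real.exp (-(11 / 2 * l)) / l ^ 2 := by
  have l0 : 0 < l := by linarith
  have e1 : (128 / 33 * Real.exp (-1) / l * Real.exp (-(9 * l))) * (Real.exp (l * s0 - 1) / l)
      = 128 / 33 * (Real.exp (-1) * Real.exp (-(9 * l)) * Real.exp (l * s0 - 1)) / l ^ 2 := by
    field_simp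
  rw [e1, ← Real.exp_add, ← Real.exp_add]
  have h1 : Real.exp (-1 + -(9 * l) + (l * s0 - 1)) ≤ Real.exp (-2) * Real.exp (-(11 / 2 * l)) := by
    rw [← Real.exp_add]
    refine Real.exp_le_exp.2 ?_
    nlinarith
  have h2 : Real.exp (-2) ≤ 13534 / 100000 := by
    have : Real.exp (-2) = (Real.exp 1 ^ 2)⁻¹ := by
      rw [← Real.exp_nat_mul, ← Real.exp_neg]; norm_num
    rw [this, inv_le_comm₀ (by positivity) (by norm_num)]
    have h3 := Real.exp_one_gt_d9
    calc ((13534 : ℝ) / 100000)⁻¹ ≤ (27182818283 / 10000000000) ^ 2 := by norm_num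
      _ ≤ Real.exp 1 ^ 2 := pow_le_pow_left₀ (by norm_num) (by linarith) 2
  refine div_le_div_of_nonneg_right ?_ (by positivity)
  have h4 : 0 ≤ Real.exp (-(11 / 2 * l)) := (Real.exp_pos _).le
  nlinarith [mul_le_mul_of_nonneg_right h2 h4]

section

variable {X : Type*} {E : Type*} [NormedAddCommGroup E] [InnerProductSpace ℝ E]
  [FiniteDimensional ℝ E] [TopologicalSpace X] [MeasurableSpace X] [CompactSpace X] [BorelSpace X]
  {μ : Measure X} {m : ℕ} {p n : X → E} {ι : Type*} [Fintype ι]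

/-- the three tails for `a = |N - Jx|²`, `q = |Jx|²` (diagonal `J`) -/
theorem rare_diag [IsProbabilityMeasure μ] (h : OneP μ m p n) (b : OrthonormalBasis ι ℝ E)
    {j : ι → ℝ} {κ S l : ℝ} (hj : ∀ a, j a ^ 2 ≤ κ * (m + 1)) (hS : ∑ a, j a ^ 2 ≤ S * (m + 1))
    (hl : 1 ≤ l) (hlk : 2 * l * κ < 1) (hs : S / (1 - 2 * l * κ) ≤ 7 / 2) :
    ∫ x, max (ad b j p n x - 16) 0 ^ 2 ∂μ ≤ 1 / 15 * Real.exp (-(11 / 2 * l)) / l ^ 3
    ∧ ∫ x, ad b j p n x ^ 2 ∂μ
      ≤ 16 * ∫ x, ad b j p n x ∂μ + 21 / 40 * Real.exp (-(11 / 2 * l)) / l ^ 2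
    ∧ ∫ x, qd b j p x * ad b j p n x ∂μ
      ≤ 9 * ∫ x, ad b j p n x ∂μ + 21 / 40 * Real.exp (-(11 / 2 * l)) / l ^ 2 := by
  have l0 : 0 < l := by linarith
  have cp := h.cp
  have cn := h.cn
  have cq : Continuous fun x => qd b j p x := by
    unfold qd
    fun_prop
  have ca : Continuous fun x => ad b j p n x := by
    unfold ad
    fun_prop
  have hrow := exp_row_diag h b hj hS l0.le hlk
  set s0 := S / (1 - 2 * l * κ) with hs0
  have hi : Integrable (fun x => Real.exp (l * qd b j p x) * (qd b j p x - s0)) μ :=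
    int_of_cont (by fun_prop)
  have s1 : ∀ x, 0 ≤ √(qd b j p x) := fun x => Real.sqrt_nonneg _
  have s2 : ∀ x, √(qd b j p x) ^ 2 = qd b j p x := fun x => Real.sq_sqrt (qd_nonneg b j x)
  have ha0 : ∀ x, 0 ≤ ad b j p n x := fun x => ad_nonneg b j x
  refine ⟨?_, ?_, ?_⟩
  · have hK : 0 ≤ 128 / 99 * Real.exp (-2) / l ^ 2 * Real.exp (-(9 * l)) := by positivity
    refine (tail_of_row l0 hK hi hrow (w := fun x => max (ad b j p n x - 16) 0 ^ 2)
      (int_of_cont (by fun_prop)) fun x => ?_).trans (expA_const hl hs)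
    have e0 : 0 ≤ (128 / 99 * Real.exp (-2) / l ^ 2 * Real.exp (-(9 * l)))
        * (Real.exp (l * qd b j p x) * max (qd b j p x - s0) 0) :=
      mul_nonneg hK (mul_nonneg (Real.exp_pos _).le (le_max_right _ _))
    rcases le_total (ad b j p n x) 16 with hc | hc
    · rw [max_eq_right (a := ad b j p n x - 16) (by linarith)]
      simpa using e0
    · rw [max_eq_left (a := ad b j p n x - 16) (by linarith)]
      have h2 : (16 : ℝ) ≤ (1 + √(qd b j p x)) ^ 2 := hc.trans (ad_le h b j x)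
      have h3 : 3 ≤ √(qd b j p x) := by nlinarith [s1 x]
      have h4 := numA hl hs _ h3
      rw [s2] at h4
      refine (pow_le_pow_left₀ (by linarith) ?_ 2).trans (h4.trans
        (mul_le_mul_of_nonneg_left ?_ hK))
      · linarith [ad_le h b j x]
      · exact mul_le_mul_of_nonneg_left (le_max_left _ _) (Real.exp_pos _).le
  · have hK : 0 ≤ 128 / 33 * Real.exp (-1) / l * Real.exp (-(9 * l)) := by positivity
    have h1 := four_of_row l0 hK (by norm_num : (0 : ℝ) ≤ 3) hi hrow ha0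
      (fun x => qd_nonneg b j x) (ad_le h b j) (int_of_cont ca) (int_of_cont (by fun_prop))
      (numB hl hs)
    have h2 := expB_const hl hs
    norm_num at h1 h2 ⊢
    linarith
  · have hK : 0 ≤ 128 / 33 * Real.exp (-1) / l * Real.exp (-(9 * l)) := by positivity
    have h1 := tail_of_row l0 hK hi hrow
      (w := fun x => qd b j p x * ad b j p n x - 9 * ad b j p n x)
      (int_of_cont (by fun_prop)) fun x => ?_
    · rw [integral_sub (int_of_cont (by fun_prop)) (int_of_cont (by fun_prop)),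
        integral_const_mul] at h1
      have h2 := expB_const hl hs
      linarith
    · have e0 : 0 ≤ (128 / 33 * Real.exp (-1) / l * Real.exp (-(9 * l)))
          * (Real.exp (l * qd b j p x) * max (qd b j p x - s0) 0) :=
        mul_nonneg hK (mul_nonneg (Real.exp_pos _).le (le_max_right _ _))
      rcases le_total (qd b j p x) 9 with hc | hc
      · have : qd b j p x * ad b j p n x - 9 * ad b j p n x ≤ 0 := by
          nlinarith [ha0 x]
        linarith
      · have h3 : 3 ≤ √(qd b j p x) := by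
          rw [← Real.sqrt_sq (by norm_num : (0 : ℝ) ≤ 3)]
          exact Real.sqrt_le_sqrt (by linarith)
        have h4 := numC hl hs _ h3
        rw [s2] at h4
        have h5 : qd b j p x * ad b j p n x - 9 * ad b j p n x
            ≤ (qd b j p x - 9) * (1 + √(qd b j p x)) ^ 2 := by
          have k1 : qd b j p x * ad b j p n x - 9 * ad b j p n x
              = (qd b j p x - 9) * ad b j p n x := by ring
          rw [k1]
          exact mul_le_mul_of_nonneg_left (ad_le h b j x) (by linarith)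
        refine h5.trans (h4.trans (mul_le_mul_of_nonneg_left ?_ hK))
        exact mul_le_mul_of_nonneg_left (le_max_left _ _) (Real.exp_pos _).le

variable [DecidableEq ι]

/-- the three tails for the least squares matrix with `E N ⊗ N ≤ ν`:
`a = |z|²`, `q = |Jx|²` -/
theorem rare_le (h : OneP μ m p n) (b : OrthonormalBasis ι ℝ E) {j : ι → ℝ}
    (hT : T0Data μ m (cob b p) (cob b n))
    (hL : LSq μ (Matrix.diagonal j) (cob b p) (cob b n)) {ν l : ℝ} (hν0 : 0 ≤ ν)
    (hν : ∀ a, m2 μ (cob b n) (cob b n) a a ≤ ν) (hl : 1 ≤ l) (hlν : (2 * l + 1) * ν ≤ 5 / 7) :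
    ∫ x, max (ad b j p n x - 16) 0 ^ 2 ∂μ ≤ 1 / 15 * Real.exp (-(11 / 2 * l)) / l ^ 3
    ∧ ∫ x, ad b j p n x ^ 2 ∂μ
      ≤ 16 * hh μ (Matrix.diagonal j) (cob b p) (cob b n)
        + 21 / 40 * Real.exp (-(11 / 2 * l)) / l ^ 2
    ∧ ∫ x, qd b j p x * ad b j p n x ∂μ
      ≤ 9 * hh μ (Matrix.diagonal j) (cob b p) (cob b n)
        + 21 / 40 * Real.exp (-(11 / 2 * l)) / l ^ 2 := by
  have := hT.prob
  have hm : (0 : ℝ) ≤ m := Nat.cast_nonneg m
  have hh0 : 0 ≤ hh μ (Matrix.diagonal j) (cob b p) (cob b n) := hT.hh_nonneg _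
  have hν1 : ν < 1 := by nlinarith
  have h1ν : 0 < 1 - ν := by linarith
  have hj : ∀ a, j a ^ 2 ≤ ν / (1 - ν) * (m + 1) := by
    intro a
    have h1 := hT.GP a a
    rw [if_pos rfl] at h1
    have hG : 0 < m2 μ (cob b p) (cob b p) a a := by
      by_contra hc
      push Not at hc
      have := hν a
      nlinarith
    have h2 := j_sq_le hT hm hL a (hν a) hG
    rw [div_mul_eq_mul_div, le_div_iff₀ h1ν]
    linarith
  have hS : ∑ a, j a ^ 2 ≤ 1 / (1 - ν) * (m + 1) := by
    have h1 := j_sum_sq hT hL hν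
    have h2 : (m + 1 : ℝ) * (1 - hh μ (Matrix.diagonal j) (cob b p) (cob b n)) ≤ m + 1 := by
      nlinarith
    rw [div_mul_eq_mul_div, le_div_iff₀ h1ν]
    linarith
  have e1 : 1 - 2 * l * (ν / (1 - ν)) = (1 - (2 * l + 1) * ν) / (1 - ν) := by
    field_simp
    ring
  have hp : 0 < 1 - (2 * l + 1) * ν := by linarith
  have hlk : 2 * l * (ν / (1 - ν)) < 1 := by
    have : 0 < 1 - 2 * l * (ν / (1 - ν)) := by
      rw [e1]
      exact div_pos hp h1ν
    linarith
  have hs : 1 / (1 - ν) / (1 - 2 * l * (ν / (1 - ν))) ≤ 7 / 2 := by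
    rw [e1, div_div_div_cancel_right₀ h1ν.ne', div_le_iff₀ hp]
    linarith
  have h1 := rare_diag h b hj hS hl hlk hs
  have e2 : ∫ x, ad b j p n x ∂μ = hh μ (Matrix.diagonal j) (cob b p) (cob b n) := by
    simp only [ad_eq]
    rfl
  rw [e2] at h1
  exact h1

end

end Vale.Agent.P224.R2.H662
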