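import Vale.Agent.P224.R2.H662.RareF

/-!
The rare part from the exponential moments: `E exp (l |Jx|²) ≤ (1 - 2 l κ)^(-S/(2κ))`.
-/

namespace Vale.Agent.P224.R2.H662

open MeasureTheory Module Function Set Vale.Agent.P224.R2.H470 Vale.Agent.P224.R2.H728
open scoped RealInnerProductSpace Topology

set_option linter.unusedSectionVars false

/-- scalar inequality for `((a - (1+R)²)₊)²` -/
lemma numA' {l R : ℝ} (hl : 1 ≤ l) (hR : 0 < R) (t : ℝ) (ht : R ≤ t) :
    ((1 + t) ^ 2 - (1 + R) ^ 2) ^ 2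
      ≤ ((1 + 4 * (1 + R) ^ 2) / (R ^ 2 * l ^ 2) * Real.exp (-2) * Real.exp (-(l * R ^ 2)))
        * Real.exp (l * t ^ 2) := by
  obtain ⟨d, hd, rfl⟩ : ∃ d : ℝ, 0 ≤ d ∧ t = R + d := ⟨t - R, by linarith, by ring⟩
  have l0 : 0 < l := by linarith
  have h1 := exp_beyondR (R := R) (d := d) hl
  have h2 := sq_le_expR (mul_nonneg (mul_nonneg l0.le hR.le) hd)
  set C := (1 + 4 * (1 + R) ^ 2) / (R ^ 2 * l ^ 2) with hC
  have hC0 : 0 ≤ C := by positivity
  have e1 : (C * Real.exp (-2) * Real.exp (-(l * R ^ 2))) * Real.exp (l * (R + d) ^ 2)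
      = (C * Real.exp (-2)) * (Real.exp (-(l * R ^ 2)) * Real.exp (l * (R + d) ^ 2)) := by ring
  rw [e1]
  refine le_trans ?_ (mul_le_mul_of_nonneg_left h1 (by positivity))
  have e2 : (C * Real.exp (-2)) * (Real.exp (2 * (l * R * d)) * (1 + d ^ 2))
      = (Real.exp (-2) * Real.exp (2 * (l * R * d))) * (C * (1 + d ^ 2)) := by ring
  rw [e2]
  refine le_trans ?_ (mul_le_mul_of_nonneg_right h2 (by positivity))
  have e3 : (l * R * d) ^ 2 * (C * (1 + d ^ 2))
      = d ^ 2 * ((1 + 4 * (1 + R) ^ 2) * (1 + d ^ 2)) := by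
    rw [hC]
    field_simp
  rw [e3]
  have e4 : ((1 + (R + d)) ^ 2 - (1 + R) ^ 2) ^ 2 = d ^ 2 * (2 * (1 + R) + d) ^ 2 := by ring
  rw [e4]
  refine mul_le_mul_of_nonneg_left ?_ (sq_nonneg d)
  nlinarith [sq_nonneg (2 * (1 + R) * d - 1)]

/-- the exponential weight beyond `R²`, second form -/
lemma exp_beyond2 {l d R : ℝ} (hl : 2 ≤ l) :
    Real.exp (2 * (l * R * d)) * (1 + d ^ 2) ^ 2
      ≤ Real.exp (-(l * R ^ 2)) * Real.exp (l * (R + d) ^ 2) := by
  rw [← Real.exp_add]
  have e : -(l * R ^ 2) + l * (R + d) ^ 2 = 2 * (l * R * d) + l * d ^ 2 := by ring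
  rw [e, Real.exp_add]
  refine mul_le_mul_of_nonneg_left ?_ (Real.exp_pos _).le
  have h1 := Real.add_one_le_exp (d ^ 2)
  have h2 : Real.exp (2 * d ^ 2) ≤ Real.exp (l * d ^ 2) :=
    Real.exp_le_exp.2 (mul_le_mul_of_nonneg_right hl (sq_nonneg d))
  refine le_trans ?_ h2
  have e2 : Real.exp (2 * d ^ 2) = Real.exp (d ^ 2) ^ 2 := by
    rw [← Real.exp_nat_mul]
    norm_num
  rw [e2]
  refine pow_le_pow_left₀ (by positivity) (by linarith) 2

/-- scalar inequality for `(t - R) (2 c + t - R) (1 + t)²` -/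
lemma numB' {l R c : ℝ} (hl : 2 ≤ l) (hR : 0 < R) (hc : 0 ≤ c) (t : ℝ) (ht : R ≤ t) :
    (t - R) * (2 * c + (t - R)) * (1 + t) ^ 2
      ≤ ((1 + (1 + R) ^ 2) * (c + 1 / 4) / (R * l) * Real.exp (-1) * Real.exp (-(l * R ^ 2)))
        * Real.exp (l * t ^ 2) := by
  obtain ⟨d, hd, rfl⟩ : ∃ d : ℝ, 0 ≤ d ∧ t = R + d := ⟨t - R, by linarith, by ring⟩
  have l0 : 0 < l := by linarith
  have h1 := exp_beyond2 (R := R) (d := d) hl
  have h2 := lin_le_expR (l * R * d)
  set C := (1 + (1 + R) ^ 2) * (c + 1 / 4) / (R * l) with hC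
  have hC0 : 0 ≤ C := by positivity
  have e1 : (C * Real.exp (-1) * Real.exp (-(l * R ^ 2))) * Real.exp (l * (R + d) ^ 2)
      = (C * Real.exp (-1)) * (Real.exp (-(l * R ^ 2)) * Real.exp (l * (R + d) ^ 2)) := by ring
  rw [e1]
  refine le_trans ?_ (mul_le_mul_of_nonneg_left h1 (by positivity))
  have e2 : (C * Real.exp (-1)) * (Real.exp (2 * (l * R * d)) * (1 + d ^ 2) ^ 2)
      = (Real.exp (-1) * Real.exp (2 * (l * R * d))) * (C * (1 + d ^ 2) ^ 2) := by ring
  rw [e2]
  refine le_trans ?_ (mul_le_mul_of_nonneg_right h2 (by positivity))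
  have e3 : 2 * (l * R * d) * (C * (1 + d ^ 2) ^ 2)
      = d * ((2 * c + 1 / 2) * (1 + d ^ 2) * ((1 + (1 + R) ^ 2) * (1 + d ^ 2))) := by
    rw [hC]
    field_simp
    ring
  have e4 : (R + d - R) * (2 * c + (R + d - R)) * (1 + (R + d)) ^ 2
      = d * ((2 * c + d) * (1 + R + d) ^ 2) := by ring
  rw [e3, e4]
  refine mul_le_mul_of_nonneg_left ?_ hd
  have k1 : (1 + R + d) ^ 2 ≤ (1 + (1 + R) ^ 2) * (1 + d ^ 2) := by
    nlinarith [sq_nonneg ((1 + R) * d - 1)]
  have k2 : 2 * c + d ≤ (2 * c + 1 / 2) * (1 + d ^ 2) := by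
    nlinarith [sq_nonneg (d - 1), mul_nonneg hc (sq_nonneg d)]
  exact mul_le_mul k2 k1 (by positivity) (by positivity)

section

variable {X : Type*} {E : Type*} [NormedAddCommGroup E] [InnerProductSpace ℝ E]
  [FiniteDimensional ℝ E] [TopologicalSpace X] [MeasurableSpace X] [CompactSpace X] [BorelSpace X]
  {μ : Measure X} {m : ℕ} {p n : X → E} {ι : Type*} [Fintype ι]

/-- the derivative of the exponential moment -/
lemma mgf_deriv [IsProbabilityMeasure μ] {q : X → ℝ} (hq : Continuous q) {Q : ℝ}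
    (hQ : ∀ x, |q x| ≤ Q) (t : ℝ) :
    HasDerivAt (fun t => ∫ x, Real.exp (t * q x) ∂μ) (∫ x, q x * Real.exp (t * q x) ∂μ) t := by
  have hQ0 : 0 ≤ Q := by
    obtain ⟨x⟩ : Nonempty X := by
      by_contra hne
      rw [not_nonempty_iff] at hne
      have h1 : μ univ = 1 := measure_univ
      have h2 : (univ : Set X) = ∅ := Set.eq_empty_of_isEmpty _
      rw [h2, measure_empty] at h1
      exact zero_ne_one h1
    exact (abs_nonneg _).trans (hQ x)
  refine (hasDerivAt_integral_of_dominated_loc_of_deriv_le (s := Metric.ball t 1)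
    (F := fun t x => Real.exp (t * q x)) (F' := fun t x => q x * Real.exp (t * q x))
    (bound := fun _ => Q * Real.exp ((|t| + 1) * Q)) (Metric.ball_mem_nhds t one_pos)
    (Filter.Eventually.of_forall fun s => (by fun_prop : Continuous fun x => Real.exp (s * q x)).aestronglyMeasurable)
    (int_of_cont (by fun_prop)) (by fun_prop : Continuous fun x => q x * Real.exp (t * q x)).aestronglyMeasurable
    ?_ (integrable_const _) ?_).2
  · refine Filter.Eventually.of_forall fun x s hs => ?_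
    rw [Real.norm_eq_abs, abs_mul, abs_of_pos (Real.exp_pos _)]
    refine mul_le_mul (hQ x) (Real.exp_le_exp.2 ?_) (Real.exp_pos _).le hQ0
    have h1 : |s| ≤ |t| + 1 := by
      rw [Metric.mem_ball, Real.dist_eq] at hs
      have := abs_sub_abs_le_abs_sub s t
      linarith
    calc s * q x ≤ |s * q x| := le_abs_self _
      _ = |s| * |q x| := abs_mul _ _
      _ ≤ (|t| + 1) * Q := mul_le_mul h1 (hQ x) (abs_nonneg _) (by positivity)
  · refine Filter.Eventually.of_forall fun x s _ => ?_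
    have h1 := ((hasDerivAt_id s).mul_const (q x)).exp
    simp only [id, one_mul] at h1
    rw [mul_comm] at h1
    exact h1

/-- **the exponential moments of `|J x|²`** -/
theorem mgf_le [IsProbabilityMeasure μ] (h : OneP μ m p n) (b : OrthonormalBasis ι ℝ E)
    {j : ι → ℝ} {κ S l : ℝ} (hκ : 0 < κ) (hj : ∀ a, j a ^ 2 ≤ κ * (m + 1))
    (hS : ∑ a, j a ^ 2 ≤ S * (m + 1)) (hl : 0 ≤ l) (hlk : 2 * l * κ < 1) :
    ∫ x, Real.exp (l * qd b j p x) ∂μ ≤ Real.exp (-(S / (2 * κ) * Real.log (1 - 2 * l * κ))) := by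
  have cp := h.cp
  have cq : Continuous fun x => qd b j p x := by
    unfold qd
    fun_prop
  have hQ : ∀ x, |qd b j p x| ≤ κ * (m + 1) := by
    intro x
    rw [abs_of_nonneg (qd_nonneg b j x)]
    have h1 : ∑ a, ⟪p x, b a⟫ ^ 2 = 1 := by
      have h2 := b.sum_sq_inner_left (p x)
      rw [h.np, one_pow] at h2
      exact h2
    calc qd b j p x = ∑ a, j a ^ 2 * ⟪p x, b a⟫ ^ 2 := rfl
      _ ≤ ∑ a, κ * (m + 1) * ⟪p x, b a⟫ ^ 2 :=
        Finset.sum_le_sum fun a _ => mul_le_mul_of_nonneg_right (hj a) (sq_nonneg _)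
      _ = κ * (m + 1) := by rw [← Finset.mul_sum, h1, mul_one]
  set c := S / (2 * κ) with hc
  set G : ℝ → ℝ := fun t => ∫ x, Real.exp (t * qd b j p x) ∂μ with hG
  set w : ℝ → ℝ := fun t => Real.exp (c * Real.log (1 - 2 * t * κ)) with hw
  have hx : ∀ t ∈ Icc 0 l, 0 < 1 - 2 * t * κ := by
    intro t ht
    have : 2 * t * κ ≤ 2 * l * κ := by nlinarith [ht.2]
    linarith
  have hdw : ∀ t ∈ Icc 0 l, HasDerivAt w (w t * (c * (-(2 * κ) / (1 - 2 * t * κ)))) t := by
    intro t ht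
    have h1 : HasDerivAt (fun t : ℝ => 1 - 2 * t * κ) (-(2 * κ)) t := by
      have h2 := (((hasDerivAt_id t).const_mul 2).mul_const κ).const_sub 1
      refine h2.congr_deriv ?_
      ring
    exact ((h1.log (hx t ht).ne').const_mul c).exp
  have hdG : ∀ t, HasDerivAt G (∫ x, qd b j p x * Real.exp (t * qd b j p x) ∂μ) t := fun t =>
    mgf_deriv cq hQ t
  have hd : ∀ t ∈ Icc 0 l, HasDerivAt (fun t => G t * w t)
      ((∫ x, qd b j p x * Real.exp (t * qd b j p x) ∂μ) * w t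
        + G t * (w t * (c * (-(2 * κ) / (1 - 2 * t * κ))))) t := fun t ht =>
    (hdG t).mul (hdw t ht)
  have hanti : AntitoneOn (fun t => G t * w t) (Icc 0 l) := by
    refine antitoneOn_of_deriv_nonpos (convex_Icc 0 l)
      (fun t ht => (hd t ht).continuousAt.continuousWithinAt)
      (fun t ht => ((hd t (interior_subset ht)).differentiableAt).differentiableWithinAt)
      fun t ht => ?_
    have ht' := interior_subset ht
    rw [(hd t ht').deriv]
    have h1 := exp_row_diag h b hj hS (l := t) ht'.1 (by linarith [hx t ht'])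
    have e1 : ∫ x, Real.exp (t * qd b j p x) * (qd b j p x - S / (1 - 2 * t * κ)) ∂μ
        = (∫ x, qd b j p x * Real.exp (t * qd b j p x) ∂μ) - S / (1 - 2 * t * κ) * G t := by
      rw [hG]
      simp only
      rw [← integral_const_mul, ← integral_sub (int_of_cont (by fun_prop)) (int_of_cont (by fun_prop))]
      exact integral_congr_ae (Filter.Eventually.of_forall fun x => by simp only; ring)
    rw [e1] at h1
    have e2 : (∫ x, qd b j p x * Real.exp (t * qd b j p x) ∂μ) * w t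
        + G t * (w t * (c * (-(2 * κ) / (1 - 2 * t * κ))))
        = w t * ((∫ x, qd b j p x * Real.exp (t * qd b j p x) ∂μ) - S / (1 - 2 * t * κ) * G t) := by
      have h3 := (hx t ht').ne'
      have h4 : c * (-(2 * κ) / (1 - 2 * t * κ)) = -(S / (1 - 2 * t * κ)) := by
        rw [hc]
        field_simp
      rw [h4]
      ring
    rw [e2]
    exact mul_nonpos_of_nonneg_of_nonpos (Real.exp_pos _).le h1
  have h1 := hanti (left_mem_Icc.2 hl) (right_mem_Icc.2 hl) hl
  have e0 : G 0 * w 0 = 1 := by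
    rw [hG, hw]
    simp
  simp only at h1
  rw [e0] at h1
  have hwl : 0 < w l := Real.exp_pos _
  have h2 : G l ≤ 1 / w l := by
    rw [le_div_iff₀ hwl]
    exact h1
  refine h2.trans (le_of_eq ?_)
  rw [hw]
  simp only
  rw [Real.exp_neg, one_div]

end

end Vale.Agent.P224.R2.H662
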