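import Vale.Agent.P224.R2.H662.RareG

/-!
The rare part from the exponential moments: three tails with independent radii, closed forms.
-/

namespace Vale.Agent.P224.R2.H662

open MeasureTheory Module Function Set Vale.Agent.P224.R2.H470 Vale.Agent.P224.R2.H728
open scoped RealInnerProductSpace Topology

set_option linter.unusedSectionVars false

/-- the exponent as a function of `ν` -/
noncomputable def lG (x ν : ℝ) : ℝ := (1 - x) * (1 - ν) / (2 * ν)

/-- the tails decay like powers of `ν` -/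
lemma tailG {C g δ x ν ν1 : ℝ} (i k : ℕ) (hC : 0 ≤ C) (h0 : 0 < ν) (h1 : ν ≤ ν1) (hν1 : ν1 < 1)
    (hx : x < 1) (hk : k * ν1 ≤ g) :
    C / lG x ν ^ i * Real.exp (-(g / ν) + δ)
      ≤ (C / lG x ν1 ^ i * Real.exp (-(g / ν1) + δ)) * (ν / ν1) ^ (i + k) := by
  have h1' : 0 < ν1 := h0.trans_le h1
  have hx' : 0 < 1 - x := by linarith
  have l1 : 0 < lG x ν1 := by
    unfold lG
    exact div_pos (mul_pos hx' (by linarith)) (by linarith)
  have l2 : lG x ν1 * (ν1 / ν) ≤ lG x ν := by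
    have e : lG x ν1 * (ν1 / ν) = (1 - x) * (1 - ν1) / (2 * ν) := by
      unfold lG
      field_simp
    rw [e]
    unfold lG
    exact div_le_div_of_nonneg_right (mul_le_mul_of_nonneg_left (by linarith) hx'.le) (by linarith)
  have l3 : 0 < lG x ν1 * (ν1 / ν) := by positivity
  have h4 : C / lG x ν ^ i ≤ C / lG x ν1 ^ i * (ν / ν1) ^ i := by
    have k1 : C / lG x ν ^ i ≤ C / (lG x ν1 * (ν1 / ν)) ^ i :=
      div_le_div_of_nonneg_left hC (by positivity) (pow_le_pow_left₀ l3.le l2 i)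
    refine k1.trans (le_of_eq ?_)
    have e2 : (ν / ν1) ^ i = ((ν1 / ν) ^ i)⁻¹ := by
      rw [← inv_pow, inv_div]
    rw [e2, mul_pow]
    field_simp
  have h5 := exp_inv_le (g := g) k h0 h1 hk
  rw [Real.exp_add, Real.exp_add]
  calc C / lG x ν ^ i * (Real.exp (-(g / ν)) * Real.exp δ)
      ≤ (C / lG x ν1 ^ i * (ν / ν1) ^ i)
        * ((Real.exp (-(g / ν1)) * (ν / ν1) ^ k) * Real.exp δ) := by
        refine mul_le_mul h4 (mul_le_mul_of_nonneg_right h5 (Real.exp_pos _).le)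
          (by positivity) (by positivity)
    _ = _ := by rw [pow_add]; ring

lemma lG_ge {x ν ν1 : ℝ} (h0 : 0 < ν) (h1 : ν ≤ ν1) (hν1 : ν1 < 1) (hx : x < 1) :
    lG x ν1 ≤ lG x ν := by
  have h1' : 0 < ν1 := h0.trans_le h1
  unfold lG
  exact div_le_div₀ (mul_nonneg (by linarith) (by linarith))
    (mul_le_mul_of_nonneg_left (by linarith) (by linarith)) (by linarith) (by linarith)

section

variable {X : Type*} {E : Type*} [NormedAddCommGroup E] [InnerProductSpace ℝ E]
  [FiniteDimensional ℝ E] [TopologicalSpace X] [MeasurableSpace X] [CompactSpace X] [BorelSpace X]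
  {μ : Measure X} {m : ℕ} {p n : X → E} {ι : Type*} [Fintype ι] [DecidableEq ι]

/-- the exponential moment with the exponent `lG x ν` -/
theorem mgf_nu (h : OneP μ m p n) (b : OrthonormalBasis ι ℝ E) {j : ι → ℝ}
    (hT : T0Data μ m (cob b p) (cob b n))
    (hL : LSq μ (Matrix.diagonal j) (cob b p) (cob b n)) {ν x lam R : ℝ} (hν0 : 0 < ν)
    (hν1 : ν < 1) (hν : ∀ a, m2 μ (cob b n) (cob b n) a a ≤ ν) (hx0 : 0 < x) (hx1 : x < 1)
    (hlam : 1 / x ≤ Real.exp lam) :
    Real.exp (-(lG x ν * R ^ 2)) * ∫ y, Real.exp (lG x ν * qd b j p y) ∂μ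
      ≤ Real.exp (-((((1 - x) * R ^ 2 - lam) / 2) / ν) + (1 - x) * R ^ 2 / 2) := by
  have := hT.prob
  have h1ν : 0 < 1 - ν := by linarith
  obtain ⟨hj, hS⟩ := jj_bounds b hT hL hν1 hν
  have hκ : 0 < ν / (1 - ν) := div_pos hν0 h1ν
  have hl : 0 ≤ lG x ν := by
    unfold lG
    exact div_nonneg (mul_nonneg (by linarith) h1ν.le) (by linarith)
  have e1 : 2 * lG x ν * (ν / (1 - ν)) = 1 - x := by
    unfold lG
    field_simp
  have h1 := mgf_le h b hκ hj hS hl (by rw [e1]; linarith)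
  rw [e1] at h1
  have e2 : 1 / (1 - ν) / (2 * (ν / (1 - ν))) = 1 / (2 * ν) := by
    field_simp
  have e3 : 1 - (1 - x) = x := by ring
  rw [e2, e3] at h1
  have h2 : -Real.log x ≤ lam := by
    rw [← Real.log_inv, ← one_div]
    rw [← Real.log_exp lam]
    exact Real.log_le_log (by positivity) hlam
  refine (mul_le_mul_of_nonneg_left h1 (Real.exp_pos _).le).trans ?_
  rw [← Real.exp_add]
  refine Real.exp_le_exp.2 ?_
  have h3 : -(1 / (2 * ν) * Real.log x) ≤ lam / (2 * ν) := by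
    have h4 := mul_le_mul_of_nonneg_left h2 (by positivity : 0 ≤ 1 / (2 * ν))
    calc -(1 / (2 * ν) * Real.log x) = 1 / (2 * ν) * -Real.log x := by ring
      _ ≤ 1 / (2 * ν) * lam := h4
      _ = lam / (2 * ν) := by ring
  have e4 : -(lG x ν * R ^ 2) + lam / (2 * ν)
      = -((((1 - x) * R ^ 2 - lam) / 2) / ν) + (1 - x) * R ^ 2 / 2 := by
    unfold lG
    field_simp
    ring
  linarith

/-- the tail of `ad` above `(1+R)²`, squared -/
theorem rareA_nu (h : OneP μ m p n) (b : OrthonormalBasis ι ℝ E) {j : ι → ℝ}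
    (hT : T0Data μ m (cob b p) (cob b n))
    (hL : LSq μ (Matrix.diagonal j) (cob b p) (cob b n)) {ν x lam R : ℝ} (hν0 : 0 < ν)
    (hν1 : ν < 1) (hν : ∀ a, m2 μ (cob b n) (cob b n) a a ≤ ν) (hx0 : 0 < x) (hx1 : x < 1)
    (hlam : 1 / x ≤ Real.exp lam) (hR : 0 < R) (hl : 1 ≤ lG x ν) :
    ∫ y, max (ad b j p n y - (1 + R) ^ 2) 0 ^ 2 ∂μ
      ≤ (1 + 4 * (1 + R) ^ 2) / R ^ 2 / lG x ν ^ 2
        * Real.exp (-((((1 - x) * R ^ 2 - lam) / 2) / ν) + ((1 - x) * R ^ 2 / 2 - 2)) := by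
  have := hT.prob
  have cp := h.cp
  have cn := h.cn
  have cq : Continuous fun x => qd b j p x := by
    unfold qd
    fun_prop
  have ca : Continuous fun x => ad b j p n x := by
    unfold ad
    fun_prop
  have h1 := mgf_nu h b hT hL (R := R) hν0 hν1 hν hx0 hx1 hlam
  set l := lG x ν with hld
  have l0 : 0 < l := by linarith
  set K := (1 + 4 * (1 + R) ^ 2) / (R ^ 2 * l ^ 2) * Real.exp (-2) * Real.exp (-(l * R ^ 2)) with hK
  have hK0 : 0 ≤ K := by positivity
  have hpt : ∀ y, max (ad b j p n y - (1 + R) ^ 2) 0 ^ 2 ≤ K * Real.exp (l * qd b j p y) := by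
    intro y
    have s1 : 0 ≤ √(qd b j p y) := Real.sqrt_nonneg _
    have s2 : √(qd b j p y) ^ 2 = qd b j p y := Real.sq_sqrt (qd_nonneg b j y)
    rcases le_total (ad b j p n y) ((1 + R) ^ 2) with hc | hc
    · rw [max_eq_right (by linarith)]
      calc (0 : ℝ) ^ 2 = 0 := by norm_num
        _ ≤ _ := by positivity
    · rw [max_eq_left (by linarith)]
      have h2 : (1 + R) ^ 2 ≤ (1 + √(qd b j p y)) ^ 2 := hc.trans (ad_le h b j y)
      have h3 : R ≤ √(qd b j p y) := by
        by_contra hcc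
        push Not at hcc
        nlinarith
      have h4 := numA' hl hR _ h3
      rw [s2] at h4
      refine (pow_le_pow_left₀ (by linarith) ?_ 2).trans h4
      linarith [ad_le h b j y]
  have h2 : ∫ y, max (ad b j p n y - (1 + R) ^ 2) 0 ^ 2 ∂μ
      ≤ ∫ y, K * Real.exp (l * qd b j p y) ∂μ :=
    integral_mono (int_of_cont (by fun_prop)) (int_of_cont (by fun_prop)) hpt
  rw [integral_const_mul] at h2
  refine h2.trans ?_
  have h3 := mul_le_mul_of_nonneg_left h1
    (by positivity : 0 ≤ (1 + 4 * (1 + R) ^ 2) / (R ^ 2 * l ^ 2) * Real.exp (-2))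
  refine le_trans (le_of_eq ?_) (h3.trans (le_of_eq ?_))
  · rw [hK]
    ring
  · have e : ∀ u v : ℝ, Real.exp (u + (v - 2)) = Real.exp (-2) * Real.exp (u + v) := by
      intro u v
      rw [← Real.exp_add]
      congr 1
      ring
    rw [e, div_div]
    ring

/-- the tail of `ad²` -/
theorem rareB_nu (h : OneP μ m p n) (b : OrthonormalBasis ι ℝ E) {j : ι → ℝ}
    (hT : T0Data μ m (cob b p) (cob b n))
    (hL : LSq μ (Matrix.diagonal j) (cob b p) (cob b n)) {ν x lam R : ℝ} (hν0 : 0 < ν)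
    (hν1 : ν < 1) (hν : ∀ a, m2 μ (cob b n) (cob b n) a a ≤ ν) (hx0 : 0 < x) (hx1 : x < 1)
    (hlam : 1 / x ≤ Real.exp lam) (hR : 0 < R) (hl : 2 ≤ lG x ν) :
    ∫ y, ad b j p n y ^ 2 ∂μ
      ≤ (1 + R) ^ 2 * ∫ y, ad b j p n y ∂μ + (1 + (1 + R) ^ 2) * (R + 5 / 4) / R / lG x ν ^ 1
        * Real.exp (-((((1 - x) * R ^ 2 - lam) / 2) / ν) + ((1 - x) * R ^ 2 / 2 - 1)) := by
  have := hT.prob
  have cp := h.cp
  have cn := h.cn
  have cq : Continuous fun x => qd b j p x := by
    unfold qd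
    fun_prop
  have ca : Continuous fun x => ad b j p n x := by
    unfold ad
    fun_prop
  have h1 := mgf_nu h b hT hL (R := R) hν0 hν1 hν hx0 hx1 hlam
  set l := lG x ν with hld
  have l0 : 0 < l := by linarith
  set K := (1 + (1 + R) ^ 2) * ((1 + R) + 1 / 4) / (R * l) * Real.exp (-1)
    * Real.exp (-(l * R ^ 2)) with hK
  have hK0 : 0 ≤ K := by positivity
  have hpt : ∀ y, ad b j p n y ^ 2 ≤ (1 + R) ^ 2 * ad b j p n y + K * Real.exp (l * qd b j p y) := by
    intro y
    have s1 : 0 ≤ √(qd b j p y) := Real.sqrt_nonneg _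
    have s2 : √(qd b j p y) ^ 2 = qd b j p y := Real.sq_sqrt (qd_nonneg b j y)
    have ha0 : 0 ≤ ad b j p n y := ad_nonneg b j y
    have e0 : 0 ≤ K * Real.exp (l * qd b j p y) := by positivity
    rcases le_total (ad b j p n y) ((1 + R) ^ 2) with hc | hc
    · nlinarith
    · have h2 : (1 + R) ^ 2 ≤ (1 + √(qd b j p y)) ^ 2 := hc.trans (ad_le h b j y)
      have h3 : R ≤ √(qd b j p y) := by
        by_contra hcc
        push Not at hcc
        nlinarith
      have h4 := numB' (c := 1 + R) hl hR (by linarith) _ h3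
      rw [s2] at h4
      have h5 : ad b j p n y * (ad b j p n y - (1 + R) ^ 2)
          ≤ (1 + √(qd b j p y)) ^ 2 * ((1 + √(qd b j p y)) ^ 2 - (1 + R) ^ 2) :=
        mul_le_mul (ad_le h b j y) (by linarith [ad_le h b j y]) (by linarith) (by positivity)
      have e1 : (1 + √(qd b j p y)) ^ 2 * ((1 + √(qd b j p y)) ^ 2 - (1 + R) ^ 2)
          = (√(qd b j p y) - R) * (2 * (1 + R) + (√(qd b j p y) - R)) * (1 + √(qd b j p y)) ^ 2 := by
        ring
      rw [e1] at h5
      nlinarith [h5.trans h4]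
  have h2 : ∫ y, ad b j p n y ^ 2 ∂μ
      ≤ ∫ y, ((1 + R) ^ 2 * ad b j p n y + K * Real.exp (l * qd b j p y)) ∂μ :=
    integral_mono (int_of_cont (by fun_prop)) (int_of_cont (by fun_prop)) hpt
  rw [integral_add (int_of_cont (by fun_prop)) (int_of_cont (by fun_prop)), integral_const_mul,
    integral_const_mul] at h2
  refine h2.trans (add_le_add le_rfl ?_)
  have h3 := mul_le_mul_of_nonneg_left h1
    (by positivity : 0 ≤ (1 + (1 + R) ^ 2) * ((1 + R) + 1 / 4) / (R * l) * Real.exp (-1))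
  refine le_trans (le_of_eq ?_) (h3.trans (le_of_eq ?_))
  · rw [hK]
    ring
  · have e : ∀ u v : ℝ, Real.exp (u + (v - 1)) = Real.exp (-1) * Real.exp (u + v) := by
      intro u v
      rw [← Real.exp_add]
      congr 1
      ring
    rw [e, div_div, pow_one]
    ring

/-- the tail of `qd ad` -/
theorem rareC_nu (h : OneP μ m p n) (b : OrthonormalBasis ι ℝ E) {j : ι → ℝ}
    (hT : T0Data μ m (cob b p) (cob b n))
    (hL : LSq μ (Matrix.diagonal j) (cob b p) (cob b n)) {ν x lam R : ℝ} (hν0 : 0 < ν)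
    (hν1 : ν < 1) (hν : ∀ a, m2 μ (cob b n) (cob b n) a a ≤ ν) (hx0 : 0 < x) (hx1 : x < 1)
    (hlam : 1 / x ≤ Real.exp lam) (hR : 0 < R) (hl : 2 ≤ lG x ν) :
    ∫ y, qd b j p y * ad b j p n y ∂μ
      ≤ R ^ 2 * ∫ y, ad b j p n y ∂μ + (1 + (1 + R) ^ 2) * (R + 1 / 4) / R / lG x ν ^ 1
        * Real.exp (-((((1 - x) * R ^ 2 - lam) / 2) / ν) + ((1 - x) * R ^ 2 / 2 - 1)) := by
  have := hT.prob
  have cp := h.cp
  have cn := h.cn
  have cq : Continuous fun x => qd b j p x := by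
    unfold qd
    fun_prop
  have ca : Continuous fun x => ad b j p n x := by
    unfold ad
    fun_prop
  have h1 := mgf_nu h b hT hL (R := R) hν0 hν1 hν hx0 hx1 hlam
  set l := lG x ν with hld
  have l0 : 0 < l := by linarith
  set K := (1 + (1 + R) ^ 2) * (R + 1 / 4) / (R * l) * Real.exp (-1)
    * Real.exp (-(l * R ^ 2)) with hK
  have hK0 : 0 ≤ K := by positivity
  have hpt : ∀ y, qd b j p y * ad b j p n y
      ≤ R ^ 2 * ad b j p n y + K * Real.exp (l * qd b j p y) := by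
    intro y
    have s1 : 0 ≤ √(qd b j p y) := Real.sqrt_nonneg _
    have s2 : √(qd b j p y) ^ 2 = qd b j p y := Real.sq_sqrt (qd_nonneg b j y)
    have ha0 : 0 ≤ ad b j p n y := ad_nonneg b j y
    have e0 : 0 ≤ K * Real.exp (l * qd b j p y) := by positivity
    rcases le_total (qd b j p y) (R ^ 2) with hc | hc
    · nlinarith
    · have h3 : R ≤ √(qd b j p y) := by
        rw [← Real.sqrt_sq hR.le]
        exact Real.sqrt_le_sqrt hc
      have h4 := numB' (c := R) hl hR hR.le _ h3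
      rw [s2] at h4
      have h5 : (qd b j p y - R ^ 2) * ad b j p n y
          ≤ (qd b j p y - R ^ 2) * (1 + √(qd b j p y)) ^ 2 :=
        mul_le_mul_of_nonneg_left (ad_le h b j y) (by linarith)
      have e1 : (qd b j p y - R ^ 2) * (1 + √(qd b j p y)) ^ 2
          = (√(qd b j p y) - R) * (2 * R + (√(qd b j p y) - R)) * (1 + √(qd b j p y)) ^ 2 := by
        have : (√(qd b j p y) - R) * (2 * R + (√(qd b j p y) - R)) = √(qd b j p y) ^ 2 - R ^ 2 := by
          ring
        rw [this, s2]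
      rw [e1] at h5
      have h6 := h5.trans h4
      linarith
  have h2 : ∫ y, qd b j p y * ad b j p n y ∂μ
      ≤ ∫ y, (R ^ 2 * ad b j p n y + K * Real.exp (l * qd b j p y)) ∂μ :=
    integral_mono (int_of_cont (by fun_prop)) (int_of_cont (by fun_prop)) hpt
  rw [integral_add (int_of_cont (by fun_prop)) (int_of_cont (by fun_prop)), integral_const_mul,
    integral_const_mul] at h2
  refine h2.trans (add_le_add le_rfl ?_)
  have h3 := mul_le_mul_of_nonneg_left h1
    (by positivity : 0 ≤ (1 + (1 + R) ^ 2) * (R + 1 / 4) / (R * l) * Real.exp (-1))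
  refine le_trans (le_of_eq ?_) (h3.trans (le_of_eq ?_))
  · rw [hK]
    ring
  · have e : ∀ u v : ℝ, Real.exp (u + (v - 1)) = Real.exp (-1) * Real.exp (u + v) := by
      intro u v
      rw [← Real.exp_add]
      congr 1
      ring
    rw [e, div_div, pow_one]
    ring

end

end Vale.Agent.P224.R2.H662
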