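import Vale.Agent.P224.R2.H662.RareH
import Vale.Agent.P224.R2.H662.Nrm

/-!
The rare part: a rational checker of closed scale-free instances with three radii.
-/

namespace Vale.Agent.P224.R2.H662

open MeasureTheory Module Function Set Vale.Agent.P224.R2.H470 Vale.Agent.P224.R2.H728
open scoped RealInnerProductSpace Topology

set_option linter.unusedSectionVars false

/-- a lower bound of the exponential function on the nonnegative axis -/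
def expL (y : ℚ) : ℚ :=
  1 + y * (1 + y / 2 * (1 + y / 3 * (1 + y / 4 * (1 + y / 5 * (1 + y / 6 * (1 + y / 7
    * (1 + y / 8 * (1 + y / 9 * (1 + y / 10 * (1 + y / 11 * (1 + y / 12)))))))))))

lemma expL_le {y : ℚ} (hy : 0 ≤ y) : ((expL y : ℚ) : ℝ) ≤ Real.exp y := by
  have hy' : (0 : ℝ) ≤ y := by exact_mod_cast hy
  refine le_trans (le_of_eq ?_) (Real.sum_le_exp_of_nonneg hy' 13)
  unfold expL
  push_cast
  simp only [Finset.sum_range_succ, Finset.sum_range_zero, Nat.factorial]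
  push_cast
  ring

/-- one tail: the radius, the parameter `x`, a bound of `log (1/x)`, the integer part of the
exponent -/
structure Tl where
  R : ℚ
  x : ℚ
  lam : ℚ
  n : ℕ
  deriving DecidableEq

namespace Tl

def g (t : Tl) : ℚ := ((1 - t.x) * t.R ^ 2 - t.lam) / 2

def l (t : Tl) (nu : ℚ) : ℚ := (1 - t.x) * (1 - nu) / (2 * nu)

def f (t : Tl) (nu d : ℚ) : ℚ := t.g / nu - ((1 - t.x) * t.R ^ 2 / 2 - d) - t.n

/-- the check of one tail -/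
def ok (t : Tl) (nu C B d lmin : ℚ) (i k : ℕ) : Bool :=
  decide (0 < nu) && decide (nu < 1) && decide (0 < t.R) && decide (0 < t.x) && decide (t.x < 1)
    && decide (0 ≤ t.lam)
    && decide (1 / t.x ≤ expL t.lam) && decide (k * nu ≤ t.g) && decide (lmin ≤ t.l nu)
    && decide (0 ≤ t.f nu d) && decide (0 ≤ C)
    && decide (C / t.l nu ^ i * ((500 / 1359) ^ t.n / (1 + t.f nu d + t.f nu d ^ 2 / 2)) ≤ B)

/-- the real content -/
structure Ok (t : Tl) (nu C B d lmin : ℚ) (i k : ℕ) : Prop where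
  nu0 : (0 : ℝ) < nu
  nu1 : (nu : ℝ) < 1
  R : (0 : ℝ) < t.R
  x0 : (0 : ℝ) < t.x
  x1 : (t.x : ℝ) < 1
  lam : 1 / (t.x : ℝ) ≤ Real.exp t.lam
  lmin : (lmin : ℝ) ≤ lG t.x nu
  C0 : (0 : ℝ) ≤ C
  main : ∀ ν : ℝ, 0 < ν → ν ≤ nu →
    (C : ℝ) / lG t.x ν ^ i * Real.exp (-((((1 - (t.x : ℝ)) * t.R ^ 2 - t.lam) / 2) / ν)
      + ((1 - t.x) * t.R ^ 2 / 2 - d)) ≤ B * (ν / nu) ^ (i + k)

theorem ok_real {t : Tl} {nu C B d lmin : ℚ} {i k : ℕ} (h : t.ok nu C B d lmin i k = true) :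
    t.Ok nu C B d lmin i k := by
  unfold Tl.ok at h
  simp only [Bool.and_eq_true, decide_eq_true_eq] at h
  obtain ⟨⟨⟨⟨⟨⟨⟨⟨⟨⟨⟨k1, k2⟩, k3⟩, k4⟩, k5⟩, k6⟩, k7⟩, k8⟩, k9⟩, k10⟩, k11⟩, k12⟩ := h
  have q1 : (0 : ℝ) < nu := by exact_mod_cast k1
  have q2 : (nu : ℝ) < 1 := by exact_mod_cast k2
  have q3 : (0 : ℝ) < t.R := by exact_mod_cast k3
  have q4 : (0 : ℝ) < t.x := by exact_mod_cast k4
  have q5 : (t.x : ℝ) < 1 := by exact_mod_cast k5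
  have q7 : 1 / (t.x : ℝ) ≤ Real.exp t.lam := by
    refine le_trans ?_ (expL_le k6)
    exact_mod_cast k7
  have el : ((t.l nu : ℚ) : ℝ) = lG t.x nu := by
    unfold Tl.l lG
    push_cast
    rfl
  have q8 : ((k : ℕ) : ℝ) * nu ≤ ((1 - (t.x : ℝ)) * t.R ^ 2 - t.lam) / 2 := by
    have := (Rat.cast_le (K := ℝ)).2 k8
    unfold Tl.g at this
    push_cast at this
    exact this
  have q9 : (lmin : ℝ) ≤ lG t.x nu := by
    rw [← el]
    exact_mod_cast k9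
  have q10 : (0 : ℝ) ≤ t.f nu d := by exact_mod_cast k10
  have q11 : (0 : ℝ) ≤ C := by exact_mod_cast k11
  have hl : 0 < lG t.x nu := by
    unfold lG
    exact div_pos (mul_pos (by linarith) (by linarith)) (by linarith)
  have q12 : (C : ℝ) / lG t.x nu ^ i
      * ((500 / 1359) ^ t.n / (1 + t.f nu d + (t.f nu d : ℝ) ^ 2 / 2)) ≤ B := by
    rw [← el]
    have := (Rat.cast_le (K := ℝ)).2 k12
    push_cast at this
    exact this
  have ef : ((t.f nu d : ℚ) : ℝ) = (((1 - (t.x : ℝ)) * t.R ^ 2 - t.lam) / 2) / nu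
      - ((1 - t.x) * t.R ^ 2 / 2 - d) - t.n := by
    unfold Tl.f Tl.g
    push_cast
    rfl
  refine ⟨q1, q2, q3, q4, q5, q7, q9, q11, fun ν hν0 hν => ?_⟩
  refine (tailG i k q11 hν0 hν q2 q5 q8).trans ?_
  refine mul_le_mul_of_nonneg_right ?_ (by positivity)
  refine exp_fac_le t.n (f := t.f nu d) q10 ?_ (by positivity) q12
  rw [ef]
  apply le_of_eq
  ring

end Tl

/-- a rare instance: for `ν ≤ nu`, `ν³ ≤ cf h`: the level `A0` with the error `e`, the constant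
`A` of `a²`, the constant `Q` of `q a` -/
structure RJ where
  nu : ℚ
  A0 : ℚ
  A : ℚ
  Q : ℚ
  e : ℚ
  cf : ℚ
  deriving DecidableEq

/-- a certificate -/
structure RG where
  nu : ℚ
  cf : ℚ
  e : ℚ
  a : Tl
  b : Tl
  eB : ℚ
  c : Tl
  eC : ℚ

namespace RG

def toRJ (r : RG) : RJ :=
  ⟨r.nu, (1 + r.a.R) ^ 2, (1 + r.b.R) ^ 2 + r.eB, r.c.R ^ 2 + r.eC, r.e, r.cf⟩

/-- the kernel check -/
def ok (r : RG) : Bool :=
  decide (0 < r.cf) && decide (0 ≤ r.e) && decide (0 ≤ r.eB) && decide (0 ≤ r.eC)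
  && r.a.ok r.nu ((1 + 4 * (1 + r.a.R) ^ 2) / r.a.R ^ 2) ((r.e * (r.nu ^ 3 / r.cf)) ^ 2) 2 1 2 4
  && r.b.ok r.nu ((1 + (1 + r.b.R) ^ 2) * (r.b.R + 5 / 4) / r.b.R)
    (r.eB * (r.nu ^ 3 / r.cf)) 1 2 1 2
  && r.c.ok r.nu ((1 + (1 + r.c.R) ^ 2) * (r.c.R + 1 / 4) / r.c.R)
    (r.eC * (r.nu ^ 3 / r.cf)) 1 2 1 2

end RG

section

variable {X : Type*} {E : Type*} [NormedAddCommGroup E] [InnerProductSpace ℝ E]
  [FiniteDimensional ℝ E] [TopologicalSpace X] [MeasurableSpace X] [CompactSpace X] [BorelSpace X]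
  {μ : Measure X} {m : ℕ} {p n : X → E} {ι : Type*} [Fintype ι] [DecidableEq ι]

/-- soundness of the check -/
theorem RG.sound {r : RG} (hr : r.ok = true) (h : OneP μ m p n) (b : OrthonormalBasis ι ℝ E)
    {j : ι → ℝ} (hT : T0Data μ m (cob b p) (cob b n))
    (hL : LSq μ (Matrix.diagonal j) (cob b p) (cob b n)) {ν : ℝ} (hν0 : 0 < ν)
    (hν : ∀ a, m2 μ (cob b n) (cob b n) a a ≤ ν) (h1 : ν ≤ r.nu)
    (hc : ν ^ 3 ≤ r.cf * hh μ (Matrix.diagonal j) (cob b p) (cob b n)) :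
    ∫ x, max (ad b j p n x - (r.toRJ.A0 : ℝ)) 0 ^ 2 ∂μ
      ≤ ((r.toRJ.e : ℝ) * hh μ (Matrix.diagonal j) (cob b p) (cob b n)) ^ 2
    ∧ ∫ x, ad b j p n x ^ 2 ∂μ
      ≤ (r.toRJ.A : ℝ) * hh μ (Matrix.diagonal j) (cob b p) (cob b n)
    ∧ ∫ x, qd b j p x * ad b j p n x ∂μ
      ≤ (r.toRJ.Q : ℝ) * hh μ (Matrix.diagonal j) (cob b p) (cob b n) := by
  unfold RG.ok at hr
  simp only [Bool.and_eq_true, decide_eq_true_eq] at hr
  obtain ⟨⟨⟨⟨⟨⟨k1, k2⟩, k3⟩, k4⟩, kA⟩, kB⟩, kC⟩ := hr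
  have q1 : (0 : ℝ) < r.cf := by exact_mod_cast k1
  have q2 : (0 : ℝ) ≤ r.e := by exact_mod_cast k2
  have q3 : (0 : ℝ) ≤ r.eB := by exact_mod_cast k3
  have q4 : (0 : ℝ) ≤ r.eC := by exact_mod_cast k4
  have oA := Tl.ok_real kA
  have oB := Tl.ok_real kB
  have oC := Tl.ok_real kC
  set H := hh μ (Matrix.diagonal j) (cob b p) (cob b n) with hH
  have e2 : ∫ x, ad b j p n x ∂μ = H := by
    rw [hH, hh_norm b j]
    exact integral_congr_ae (Filter.Eventually.of_forall fun x => ad_norm b j x)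
  have hν1 : ν < 1 := h1.trans_lt oA.nu1
  have hH0 : ν ^ 3 / r.cf ≤ H := by
    rw [div_le_iff₀ q1]
    linarith
  have hn : (r.nu : ℝ) ≠ 0 := oA.nu0.ne'
  have hg : ∀ {x : ℝ}, x < 1 → lG x r.nu ≤ lG x ν := fun {x} hx => lG_ge hν0 h1 oA.nu1 hx
  have w1 := rareA_nu h b hT hL (R := r.a.R) hν0 hν1 hν oA.x0 oA.x1 oA.lam oA.R (by
    have := oA.lmin
    push_cast at this
    exact this.trans (hg oA.x1))
  have w2 := rareB_nu h b hT hL (R := r.b.R) hν0 hν1 hν oB.x0 oB.x1 oB.lam oB.R (by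
    have := oB.lmin
    push_cast at this
    exact this.trans (hg oB.x1))
  have w3 := rareC_nu h b hT hL (R := r.c.R) hν0 hν1 hν oC.x0 oC.x1 oC.lam oC.R (by
    have := oC.lmin
    push_cast at this
    exact this.trans (hg oC.x1))
  have mA := oA.main ν hν0 h1
  have mB := oB.main ν hν0 h1
  have mC := oC.main ν hν0 h1
  push_cast at mA mB mC
  rw [e2] at w2 w3
  have s : ∀ y : ℝ, 0 ≤ y → y * ((r.nu : ℝ) ^ 3 / r.cf) * (ν / r.nu) ^ (1 + 2) ≤ y * H := by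
    intro y hy
    have e : y * ((r.nu : ℝ) ^ 3 / r.cf) * (ν / r.nu) ^ (1 + 2) = y * (ν ^ 3 / r.cf) := by
      have : (ν / (r.nu : ℝ)) ^ (1 + 2) = ν ^ 3 / (r.nu : ℝ) ^ 3 := by rw [div_pow]
      rw [this]
      field_simp
    rw [e]
    exact mul_le_mul_of_nonneg_left hH0 hy
  have sA : ((r.e : ℝ) * ((r.nu : ℝ) ^ 3 / r.cf)) ^ 2 * (ν / r.nu) ^ (2 + 4) ≤ (r.e * H) ^ 2 := by
    have e : ((r.e : ℝ) * ((r.nu : ℝ) ^ 3 / r.cf)) ^ 2 * (ν / r.nu) ^ (2 + 4)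
        = (r.e * (ν ^ 3 / r.cf)) ^ 2 := by
      have : (ν / (r.nu : ℝ)) ^ (2 + 4) = ν ^ 6 / (r.nu : ℝ) ^ 6 := by rw [div_pow]
      rw [this]
      field_simp
    rw [e]
    exact pow_le_pow_left₀ (by positivity) (mul_le_mul_of_nonneg_left hH0 q2) 2
  have t1 : ((r.toRJ.A0 : ℚ) : ℝ) = (1 + (r.a.R : ℝ)) ^ 2 := by
    unfold RG.toRJ
    push_cast
    rfl
  have t2 : ((r.toRJ.A : ℚ) : ℝ) = (1 + (r.b.R : ℝ)) ^ 2 + r.eB := by
    unfold RG.toRJ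
    push_cast
    rfl
  have t3 : ((r.toRJ.Q : ℚ) : ℝ) = (r.c.R : ℝ) ^ 2 + r.eC := by
    unfold RG.toRJ
    push_cast
    rfl
  have t4 : r.toRJ.e = r.e := rfl
  rw [t1, t2, t3, t4]
  refine ⟨w1.trans (mA.trans sA), ?_, ?_⟩
  · have := mB.trans (s r.eB q3)
    linarith [w2.trans (add_le_add le_rfl this)]
  · have := mC.trans (s r.eC q4)
    linarith [w3.trans (add_le_add le_rfl this)]

end

end Vale.Agent.P224.R2.H662
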