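import Vale.Agent.P224.R2.H470.CrB
import Vale.Agent.P224.R2.H662.Nrm

/-!
The normal part at level `T` with the exact cross term.
-/

namespace Vale.Agent.P224.R2.H662

open MeasureTheory Module Function Set Filter Vale.Agent.P224.R2.H470 Vale.Agent.P224.R2.H460
open Vale.Agent.P224.R2.H728 (BM)
open scoped RealInnerProductSpace Topology

set_option linter.unusedSectionVars false

section

variable {X : Type*} {E : Type*} [NormedAddCommGroup E] [InnerProductSpace ℝ E]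
  [FiniteDimensional ℝ E] [MeasurableSpace E] [BorelSpace E]
variable [TopologicalSpace X] [MeasurableSpace X] [SecondCountableTopology X]
variable [CompactSpace X] [BorelSpace X] {μ : Measure X} [IsProbabilityMeasure μ] {m : ℕ}
  {p n : X → E} {z : X → E} {T T1 : ℝ} {ι : Type*} [Fintype ι]

/-- the mixed products -/
noncomputable def Fc (b : OrthonormalBasis ι ℝ E) (j : ι → ℝ) (p z : X → E) (k : ι × ι) (x : X) :
    ℝ := j k.1 * ⟪p x, b k.1⟫ * ⟪z x, b k.2⟫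

/-- the pure products -/
noncomputable def Gc (b : OrthonormalBasis ι ℝ E) (z : X → E) (k : ι × ι) (x : X) : ℝ :=
  ⟪z x, b k.1⟫ * ⟪z x, b k.2⟫

lemma cont_Fc (b : OrthonormalBasis ι ℝ E) (j : ι → ℝ) (hp : Continuous p) (hz : Continuous z)
    (k : ι × ι) : Continuous (Fc b j p z k) := by
  unfold Fc
  fun_prop

lemma cont_Gc (b : OrthonormalBasis ι ℝ E) (hz : Continuous z) (k : ι × ι) :
    Continuous (Gc b z k) := by
  unfold Gc
  fun_prop

/-- the second moments: the mixed ones and the ones of the defect -/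
lemma mixed (h : OneP μ m p n) (hm : 1 ≤ m) (b : OrthonormalBasis ι ℝ E) {j : ι → ℝ}
    (hz : Continuous z) (hzJ : ∀ x, z x = n x - dop b j (p x))
    (ha : ∀ i k, m1f μ p b (fun x => ⟪z x, b i⟫) k = -m1f μ p b (fun x => ⟪z x, b k⟫) i)
    (i k : ι) :
    2 * m1f μ p b (fun x => ⟪z x, b k⟫) i = (j i - j k) * ∫ x, ⟪p x, b i⟫ * ⟪p x, b k⟫ ∂μ
    ∧ (i ≠ k → ∫ x, ⟪z x, b i⟫ * ⟪z x, b k⟫ ∂μ
      = -((m + 1 + (j i ^ 2 + j k ^ 2) / 2) * ∫ x, ⟪p x, b i⟫ * ⟪p x, b k⟫ ∂μ)) := by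
  have hp := h.cp
  have hn := h.cn
  have hnc : ∀ x a, ⟪n x, b a⟫ = j a * ⟪p x, b a⟫ + ⟪z x, b a⟫ := by
    intro x a
    have e : n x = dop b j (p x) + z x := by rw [hzJ]; abel
    rw [e, inner_add_left, dop_coord]
  have e1 : ∀ a c, ∫ x, ⟪n x, b a⟫ * ⟪p x, b c⟫ ∂μ
      = j a * (∫ x, ⟪p x, b a⟫ * ⟪p x, b c⟫ ∂μ) + m1f μ p b (fun x => ⟪z x, b a⟫) c := by
    intro a c
    unfold m1f
    rw [← integral_const_mul, ← integral_add (int_of_cont (by fun_prop))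
      (int_of_cont (by fun_prop))]
    refine integral_congr_ae (Eventually.of_forall fun x => ?_)
    simp only [hnc]
    ring
  have gs : ∫ x, ⟪p x, b k⟫ * ⟪p x, b i⟫ ∂μ = ∫ x, ⟪p x, b i⟫ * ⟪p x, b k⟫ ∂μ :=
    integral_congr_ae (Eventually.of_forall fun x => mul_comm _ _)
  have h3 := h.alt1 hm (b i) (b k)
  rw [e1, e1, gs, ha i k] at h3
  have h4 : 2 * m1f μ p b (fun x => ⟪z x, b k⟫) i
      = (j i - j k) * ∫ x, ⟪p x, b i⟫ * ⟪p x, b k⟫ ∂μ := by linarith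
  refine ⟨h4, fun hik => ?_⟩
  have e2 : ∫ x, ⟪n x, b i⟫ * ⟪n x, b k⟫ ∂μ
      = j i * j k * (∫ x, ⟪p x, b i⟫ * ⟪p x, b k⟫ ∂μ) + j i * m1f μ p b (fun x => ⟪z x, b k⟫) i
        + j k * m1f μ p b (fun x => ⟪z x, b i⟫) k + ∫ x, ⟪z x, b i⟫ * ⟪z x, b k⟫ ∂μ := by
    unfold m1f
    rw [← integral_const_mul, ← integral_const_mul, ← integral_const_mul,
      ← integral_add (int_of_cont (by fun_prop)) (int_of_cont (by fun_prop)),
      ← integral_add (int_of_cont (by fun_prop)) (int_of_cont (by fun_prop)),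
      ← integral_add (int_of_cont (by fun_prop)) (int_of_cont (by fun_prop))]
    refine integral_congr_ae (Eventually.of_forall fun x => ?_)
    simp only [hnc]
    ring
  have h5 := h.mom2 (b i) (b k)
  rw [b.inner_eq_zero hik, zero_mul, e2, ha i k] at h5
  linear_combination h5 - (j i - j k) / 2 * h4

/-- the constant part of the cross term is not positive -/
theorem cross_const (h : OneP μ m p n) (hm : 1 ≤ m) (b : OrthonormalBasis ι ℝ E) {j : ι → ℝ}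
    (hz : Continuous z) (hzJ : ∀ x, z x = n x - dop b j (p x))
    (ha : ∀ i k, m1f μ p b (fun x => ⟪z x, b i⟫) k = -m1f μ p b (fun x => ⟪z x, b k⟫) i) :
    ∑ k : ι × ι, (∫ x, Gc b z k x ∂μ) * ∫ x, Fc b j p z k x ∂μ ≤ 0 := by
  have hp := h.cp
  have eF : ∀ k : ι × ι, ∫ x, Fc b j p z k x ∂μ
      = j k.1 * m1f μ p b (fun x => ⟪z x, b k.2⟫) k.1 := by
    intro k
    unfold Fc m1f
    rw [← integral_const_mul]
    refine integral_congr_ae (Eventually.of_forall fun x => ?_)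
    simp only
    ring
  have sw : ∑ k : ι × ι, (∫ x, Gc b z k x ∂μ) * ∫ x, Fc b j p z k x ∂μ
      = ∑ k : ι × ι, (∫ x, Gc b z k.swap x ∂μ) * ∫ x, Fc b j p z k.swap x ∂μ :=
    (Equiv.sum_comp (Equiv.prodComm ι ι) fun k : ι × ι =>
      (∫ x, Gc b z k x ∂μ) * ∫ x, Fc b j p z k x ∂μ).symm
  have h2 : ∑ k : ι × ι, (∫ x, Gc b z k x ∂μ) * (∫ x, Fc b j p z k x ∂μ)
      + ∑ k : ι × ι, (∫ x, Gc b z k.swap x ∂μ) * ∫ x, Fc b j p z k.swap x ∂μ ≤ 0 := by
    rw [← Finset.sum_add_distrib]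
    refine Finset.sum_nonpos fun k _ => ?_
    have gz : ∫ x, Gc b z k.swap x ∂μ = ∫ x, Gc b z k x ∂μ :=
      integral_congr_ae (Eventually.of_forall fun x => mul_comm _ _)
    rw [gz, eF, eF]
    simp only [Prod.fst_swap, Prod.snd_swap]
    obtain ⟨h3, h4⟩ := mixed h hm b hz hzJ ha k.1 k.2
    have h5 := ha k.1 k.2
    by_cases hk : k.1 = k.2
    · rw [← hk] at h3 ⊢
      have h6 : m1f μ p b (fun x => ⟪z x, b k.1⟫) k.1 = 0 := by
        rw [sub_self, zero_mul] at h3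
        linarith
      rw [h6]
      simp
    · have h6 := h4 hk
      have h7 : ∫ x, Gc b z k x ∂μ = ∫ x, ⟪z x, b k.1⟫ * ⟪z x, b k.2⟫ ∂μ := rfl
      rw [h7, h6, h5]
      set g := ∫ x, ⟪p x, b k.1⟫ * ⟪p x, b k.2⟫ ∂μ
      set w := m1f μ p b (fun x => ⟪z x, b k.2⟫) k.1
      have h8 : (j k.1 - j k.2) * w = (j k.1 - j k.2) ^ 2 / 2 * g := by
        linear_combination (j k.1 - j k.2) / 2 * h3
      have h9 : 0 ≤ (m + 1 + (j k.1 ^ 2 + j k.2 ^ 2) / 2) * ((j k.1 - j k.2) ^ 2 / 2 * g ^ 2) := by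
        positivity
      have h10 : -((m + 1 + (j k.1 ^ 2 + j k.2 ^ 2) / 2) * g) * (j k.1 * w)
          + -((m + 1 + (j k.1 ^ 2 + j k.2 ^ 2) / 2) * g) * (j k.2 * -w)
          = -((m + 1 + (j k.1 ^ 2 + j k.2 ^ 2) / 2) * ((j k.1 - j k.2) ^ 2 / 2 * g ^ 2)) := by
        linear_combination -((m + 1 + (j k.1 ^ 2 + j k.2 ^ 2) / 2) * g) * h8
      linarith
  rw [← sw] at h2
  linarith

/-- the size of the mean of the mixed products -/
theorem Fc_mean (h : OneP μ m p n) (hm : 1 ≤ m) (b : OrthonormalBasis ι ℝ E) {j : ι → ℝ}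
    (hz : Continuous z) (hzJ : ∀ x, z x = n x - dop b j (p x))
    (ha : ∀ i k, m1f μ p b (fun x => ⟪z x, b i⟫) k = -m1f μ p b (fun x => ⟪z x, b k⟫) i)
    {κ : ℝ} (hκ : 0 ≤ κ) (hj : ∀ a, j a ^ 2 ≤ κ * (m + 1)) :
    ∑ k : ι × ι, (∫ x, Fc b j p z k x ∂μ) ^ 2 ≤ κ ^ 2 * (∫ x, ‖z x‖ ^ 2 ∂μ) ^ 2 := by
  have hp := h.cp
  have hm1 : (0 : ℝ) < m + 1 := by positivity
  have eF : ∀ k : ι × ι, ∫ x, Fc b j p z k x ∂μ
      = j k.1 * m1f μ p b (fun x => ⟪z x, b k.2⟫) k.1 := by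
    intro k
    unfold Fc m1f
    rw [← integral_const_mul]
    refine integral_congr_ae (Eventually.of_forall fun x => ?_)
    simp only
    ring
  have hle : ∀ k : ι × ι, (∫ x, Fc b j p z k x ∂μ) ^ 2
      ≤ κ ^ 2 * ((∫ x, ⟪z x, b k.1⟫ ^ 2 ∂μ) * ∫ x, ⟪z x, b k.2⟫ ^ 2 ∂μ) := by
    intro k
    have cs := cs_int (μ := μ) (f := fun x => ⟪z x, b k.1⟫) (g := fun x => ⟪z x, b k.2⟫)
      (by fun_prop) (by fun_prop)
    refine le_trans ?_ (mul_le_mul_of_nonneg_left cs (sq_nonneg κ))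
    rw [eF]
    obtain ⟨h3, h4⟩ := mixed h hm b hz hzJ ha k.1 k.2
    by_cases hk : k.1 = k.2
    · have h6 : m1f μ p b (fun x => ⟪z x, b k.2⟫) k.1 = 0 := by
        rw [hk, sub_self, zero_mul] at h3
        rw [hk]
        linarith
      rw [h6, mul_zero, zero_pow two_ne_zero]
      exact mul_nonneg (sq_nonneg κ) (sq_nonneg _)
    · rw [h4 hk]
      set g := ∫ x, ⟪p x, b k.1⟫ * ⟪p x, b k.2⟫ ∂μ
      set w := m1f μ p b (fun x => ⟪z x, b k.2⟫) k.1
      have h8 : (j k.1 * w) ^ 2 = j k.1 ^ 2 * ((j k.1 - j k.2) ^ 2 / 4) * g ^ 2 := by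
        have : w = (j k.1 - j k.2) / 2 * g := by linarith
        rw [this]
        ring
      have h9 : j k.1 ^ 2 * ((j k.1 - j k.2) ^ 2 / 4) ≤ (κ * (m + 1)) * (κ * (m + 1)) := by
        refine mul_le_mul (hj _) ?_ (by positivity) (by positivity)
        nlinarith [hj k.1, hj k.2, sq_nonneg (j k.1 + j k.2)]
      have h10 : (m + 1 : ℝ) ^ 2 ≤ (m + 1 + (j k.1 ^ 2 + j k.2 ^ 2) / 2) ^ 2 :=
        pow_le_pow_left₀ hm1.le (by nlinarith [sq_nonneg (j k.1), sq_nonneg (j k.2)]) 2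
      calc (j k.1 * w) ^ 2 = j k.1 ^ 2 * ((j k.1 - j k.2) ^ 2 / 4) * g ^ 2 := h8
        _ ≤ (κ * (m + 1)) * (κ * (m + 1)) * g ^ 2 := mul_le_mul_of_nonneg_right h9 (sq_nonneg g)
        _ = κ ^ 2 * ((m + 1) ^ 2 * g ^ 2) := by ring
        _ ≤ κ ^ 2 * ((m + 1 + (j k.1 ^ 2 + j k.2 ^ 2) / 2) ^ 2 * g ^ 2) :=
            mul_le_mul_of_nonneg_left (mul_le_mul_of_nonneg_right h10 (sq_nonneg g)) (sq_nonneg κ)
        _ = _ := by ring
  refine (Finset.sum_le_sum fun k _ => hle k).trans (le_of_eq ?_)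
  rw [← Finset.mul_sum, Fintype.sum_prod_type, ← sum_int_sq hz b, sq (∑ i, _),
    Finset.sum_mul_sum]

/-- the pair integral of the cross term as a form -/
lemma sum_prod_inner (b : OrthonormalBasis ι ℝ E) (j : ι → ℝ) (u : X × X) :
    ⟪dop b j (p u.2), z u.1⟫ * ⟪z u.2, z u.1⟫ = ∑ k : ι × ι, Gc b z k u.1 * Fc b j p z k u.2 := by
  rw [inner_sum_basis b (dop b j (p u.2)), inner_sum_basis b (z u.2), Finset.sum_mul_sum,
    Fintype.sum_prod_type]
  refine Finset.sum_congr rfl fun i _ => Finset.sum_congr rfl fun k _ => ?_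
  rw [dop_coord]
  unfold Gc Fc
  ring

/-- **the normal part with the exact cross term** -/
theorem SS_cross (h : OneP μ m p n) (hm : 1 ≤ m) (hd : finrank ℝ E = m + 2)
    (b : OrthonormalBasis ι ℝ E) {j : ι → ℝ} (hz : Continuous z)
    (hzJ : ∀ x, z x = n x - dop b j (p x))
    (ha : ∀ i k, m1f μ p b (fun x => ⟪z x, b i⟫) k = -m1f μ p b (fun x => ⟪z x, b k⟫) i)
    (h1 : 0 < T) (hT : T < 1) {FF chi H : ℝ}
    (hχ : cw m T * PI μ p T m (fun u => ‖z u.1‖ ^ 2 * ‖z u.2‖ ^ 2) ≤ chi * H)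
    (hFF : ∑ k : ι × ι, KF (rk m m 1 T) μ p (Fc b j p z k) (Fc b j p z k) ≤ FF * H) :
    cw m T * SS μ m p n z T ≤ cw m T * PI μ p T m (fun u => ⟪dop b j (p u.2), z u.1⟫ ^ 2)
      + (chi * H + 2 * √(FF * H * (chi * H))) := by
  have hk : 0 < 1 - T ^ 2 := by nlinarith
  have hk1 : 1 - T ^ 2 ≤ 1 := sub_le_self 1 (sq_nonneg T)
  have hp := h.cp
  have hn := h.cn
  have hpm := hp.measurable
  have hcw := cw_pos (m := m) h1.le hT
  have cF := fun k => cont_Fc b j hp hz k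
  have cG := fun k => cont_Gc b hz k
  have bF : ∀ k, BM (Fc b j p z k) := fun k => BM_cont (cF k)
  have bG : ∀ k, BM (Gc b z k) := fun k => BM_cont (cG k)
  -- the expansion
  have e0 : (fun u : X × X => ⟪n u.2, z u.1⟫ ^ 2) = fun u => (⟪dop b j (p u.2), z u.1⟫ ^ 2
      + 2 * (⟪dop b j (p u.2), z u.1⟫ * ⟪z u.2, z u.1⟫)) + ⟪z u.2, z u.1⟫ ^ 2 := by
    funext u
    have e : n u.2 = dop b j (p u.2) + z u.2 := by rw [hzJ]; abel
    rw [e, inner_add_left]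
    ring
  have e1 : SS μ m p n z T = PI μ p T m (fun u => ⟪dop b j (p u.2), z u.1⟫ ^ 2)
      + 2 * PI μ p T m (fun u => ⟪dop b j (p u.2), z u.1⟫ * ⟪z u.2, z u.1⟫)
      + PI μ p T m (fun u => ⟪z u.2, z u.1⟫ ^ 2) := by
    unfold SS
    rw [e0, PI_add h1.le hT _ hp h.np (by fun_prop) (by fun_prop),
      PI_add h1.le hT _ hp h.np (by fun_prop) (by fun_prop), PI_mul]
  -- sums of pair integrals
  have eS : ∀ {A B : ι × ι → X → ℝ}, (∀ k, Continuous (A k)) → (∀ k, Continuous (B k)) →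
      cw m T * PI μ p T m (fun u => ∑ k : ι × ι, A k u.1 * B k u.2)
        = (1 - T ^ 2) * ∑ k : ι × ι, KF (sk m m T) μ p (A k) (B k) := by
    intro A B hA hB
    have e3 : PI μ p T m (fun u => ∑ k : ι × ι, A k u.1 * B k u.2)
        = ∑ k : ι × ι, PI μ p T m (fun u => A k u.1 * B k u.2) := by
      unfold PI
      rw [← integral_finsetSum _ fun k _ => ?_]
      · refine integral_congr_ae (Eventually.of_forall fun u => ?_)
        simp only
        rw [Finset.mul_sum]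
      · exact int_PI h1.le hT m hp h.np (G := fun u => A k u.1 * B k u.2)
          (((hA k).comp continuous_fst).mul ((hB k).comp continuous_snd))
    rw [e3, Finset.mul_sum, Finset.mul_sum]
    exact Finset.sum_congr rfl fun k _ => cwPI_m h1.le hT
  -- the square term
  have hsq : (fun u : X × X => ⟪z u.2, z u.1⟫ ^ 2)
      = fun u => ∑ k : ι × ι, Gc b z k u.1 * Gc b z k u.2 := by
    funext u
    rw [inner_sum_basis b, sq, Finset.sum_mul_sum, Fintype.sum_prod_type]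
    refine Finset.sum_congr rfl fun i _ => Finset.sum_congr rfl fun k _ => ?_
    unfold Gc
    ring
  have h3 : cw m T * PI μ p T m (fun u => ⟪z u.2, z u.1⟫ ^ 2) ≤ chi * H := by
    refine le_trans (mul_le_mul_of_nonneg_left ?_ hcw.le) hχ
    refine PI_mono h1.le hT m hp h.np (by fun_prop) (by fun_prop) fun u => ?_
    have := abs_real_inner_le_norm (z u.2) (z u.1)
    rw [← sq_abs, ← mul_pow, mul_comm ‖z u.1‖]
    exact pow_le_pow_left₀ (abs_nonneg _) this 2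
  have hPD := PD_rk (μ := μ) hpm h.np hm hd (by norm_num : 1 ≤ 3) h1 hT
  have hGG : (1 - T ^ 2) * ∑ k : ι × ι, KF (rk m m 1 T) μ p (Gc b z k) (Gc b z k) ≤ chi * H := by
    refine le_trans ?_ h3
    rw [hsq, eS cG cG]
    refine mul_le_mul_of_nonneg_left (Finset.sum_le_sum fun k _ => ?_) hk.le
    rw [KF_sk_one hpm h.np (bG k) (bG k) m h1.le hT]
    nlinarith [mul_self_nonneg (∫ x, Gc b z k x ∂μ)]
  -- the cross term
  have e2 : cw m T * PI μ p T m (fun u => ⟪dop b j (p u.2), z u.1⟫ * ⟪z u.2, z u.1⟫)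
      ≤ (1 - T ^ 2) * ∑ k : ι × ι, KF (rk m m 1 T) μ p (Gc b z k) (Fc b j p z k) := by
    have e3 : (fun u : X × X => ⟪dop b j (p u.2), z u.1⟫ * ⟪z u.2, z u.1⟫)
        = fun u => ∑ k : ι × ι, Gc b z k u.1 * Fc b j p z k u.2 := by
      funext u
      exact sum_prod_inner b j u
    rw [e3, eS cG cF]
    refine mul_le_mul_of_nonneg_left ?_ hk.le
    have e4 : ∀ k, KF (sk m m T) μ p (Gc b z k) (Fc b j p z k)
        = (∫ x, Gc b z k x ∂μ) * (∫ x, Fc b j p z k x ∂μ)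
          + KF (rk m m 1 T) μ p (Gc b z k) (Fc b j p z k) := fun k =>
      KF_sk_one hpm h.np (bG k) (bF k) m h1.le hT
    simp_rw [e4]
    rw [Finset.sum_add_distrib]
    have := cross_const h hm b hz hzJ ha
    linarith
  have cs := hPD.cs hpm h.np (BK_rk m m 1 h1.le hT) (Finset.univ : Finset (ι × ι)) bG bF
  set SG := ∑ k : ι × ι, KF (rk m m 1 T) μ p (Gc b z k) (Gc b z k) with hSG
  set SF := ∑ k : ι × ι, KF (rk m m 1 T) μ p (Fc b j p z k) (Fc b j p z k) with hSF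
  set SX := ∑ k : ι × ι, KF (rk m m 1 T) μ p (Gc b z k) (Fc b j p z k) with hSX
  have nG : 0 ≤ SG := Finset.sum_nonneg fun k _ => hPD _ (bG k)
  have nF : 0 ≤ SF := Finset.sum_nonneg fun k _ => hPD _ (bF k)
  have hchi : 0 ≤ chi * H := le_trans (mul_nonneg hk.le nG) hGG
  have h5 : (1 - T ^ 2) * SX ≤ √(FF * H * (chi * H)) := by
    refine Real.le_sqrt_of_sq_le ?_
    calc ((1 - T ^ 2) * SX) ^ 2 = (1 - T ^ 2) ^ 2 * SX ^ 2 := by ring
      _ ≤ (1 - T ^ 2) ^ 2 * (SG * SF) := mul_le_mul_of_nonneg_left cs (sq_nonneg _)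
      _ = ((1 - T ^ 2) * SF) * ((1 - T ^ 2) * SG) := by ring
      _ ≤ (1 * (FF * H)) * (chi * H) := by
          refine mul_le_mul ?_ hGG (mul_nonneg hk.le nG) ?_
          · exact mul_le_mul hk1 hFF nF zero_le_one
          · rw [one_mul]
            exact nF.trans hFF
      _ = _ := by ring
  rw [e1, mul_add, mul_add]
  linarith

end

end Vale.Agent.P224.R2.H662
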