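import Vale.Agent.P224.R2.H662.SCr

/-!
The size of the mixed products at level `T`: first order exact, second order with the Gram bound.
-/

namespace Vale.Agent.P224.R2.H662

open MeasureTheory Module Function Set Filter Vale.Agent.P224.R2.H470 Vale.Agent.P224.R2.H460
open Vale.Agent.P224.R2.H728 (BM)
open scoped RealInnerProductSpace Topology

set_option linter.unusedSectionVars false

lemma young_sq {s x y : ℝ} (hs : 0 < s) : (x + y) ^ 2 ≤ (1 + s) * x ^ 2 + (1 + 1 / s) * y ^ 2 := by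
  have h1 : 0 ≤ (s * x - y) ^ 2 / s := by positivity
  have h2 : (s * x - y) ^ 2 / s = s * x ^ 2 - 2 * x * y + 1 / s * y ^ 2 := by
    field_simp
    ring
  rw [h2] at h1
  nlinarith

section

variable {V : Type*} [NormedAddCommGroup V] [InnerProductSpace ℝ V] [FiniteDimensional ℝ V]
  [MeasurableSpace V] [BorelSpace V] {Ω : Type*} [MeasurableSpace Ω]
variable {μ : Measure Ω} [IsFiniteMeasure μ] {p : Ω → V} {F : Ω → ℝ}

/-- the weighted second moments: the trace separated -/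
theorem m2f_wt (hp : Measurable p) (hp1 : ∀ x, ‖p x‖ = 1) (hF : BM F) {ι : Type*} [Fintype ι]
    (e : OrthonormalBasis ι ℝ V) {m : ℕ} (hd : Fintype.card ι = m + 2) {K2 : ℝ} (hK : 0 ≤ K2)
    (hq : QB μ p e K2) {w : ι → ℝ} (hw : ∀ a, 0 ≤ w a) {K : ℝ} (hwK : ∀ a, w a ≤ K) {s : ℝ}
    (hs : 0 < s) : ∑ a, ∑ c, w a * m2f μ p e F a c ^ 2
      ≤ (1 + s) * K * (K2 * ∫ x, F x ^ 2 ∂μ)
        + (1 + 1 / s) * ((∑ a, w a) / (m + 2) ^ 2 * (∫ x, F x ∂μ) ^ 2) := by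
  classical
  have h0 := m2f_le (μ := μ) hp hp1 hF e hd hK hq
  set t := ∫ x, F x ∂μ with ht
  set M := m2f μ p e F with hM
  have hm : (0 : ℝ) < m + 2 := by positivity
  have hcard : (Fintype.card ι : ℝ) = m + 2 := by rw [hd]; push_cast; ring
  have hK0 : 0 ≤ K := by
    rcases isEmpty_or_nonempty ι with h | ⟨⟨a⟩⟩
    · exfalso
      rw [Fintype.card_eq_zero] at hd
      omega
    · exact (hw a).trans (hwK a)
  have htr : ∑ i, M i i = t := by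
    simp only [hM, m2f]
    rw [← integral_finsetSum _ fun i _ =>
      (hF.mul ((BM_p hp hp1 (e i)).mul (BM_p hp hp1 (e i)))).int]
    refine integral_congr_ae (Eventually.of_forall fun x => ?_)
    simp only
    rw [← Finset.mul_sum, ← inner_sum_basis e, real_inner_self_eq_norm_sq, hp1]
    ring
  set τ := t / (m + 2) with hτ
  set c : ι → ι → ℝ := fun i k => M i k - (if i = k then τ else 0) with hc
  have hcs : ∑ i, ∑ k, c i k ^ 2 = (∑ i, ∑ k, M i k ^ 2) - t ^ 2 / (m + 2) := by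
    have h1 : ∀ i, ∑ k, c i k ^ 2 = (∑ k, M i k ^ 2) - (2 * τ * M i i - τ ^ 2) := by
      intro i
      have h2 : ∀ k, c i k ^ 2 = M i k ^ 2 - (if i = k then (2 * τ * M i i - τ ^ 2) else 0) := by
        intro k
        by_cases h : i = k
        · subst h
          simp only [hc, if_true]
          ring
        · simp only [hc, h, if_false]
          ring
      simp only [h2]
      rw [Finset.sum_sub_distrib, Finset.sum_ite_eq]
      simp
    simp only [h1]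
    rw [Finset.sum_sub_distrib, Finset.sum_sub_distrib, ← Finset.mul_sum, htr, Finset.sum_const,
      Finset.card_univ, nsmul_eq_mul, hcard, hτ]
    field_simp
    ring
  have hcle : ∑ i, ∑ k, c i k ^ 2 ≤ K2 * ∫ x, F x ^ 2 ∂μ := by
    rw [hcs]
    linarith
  have hpt : ∀ i k, w i * M i k ^ 2 ≤ (1 + s) * K * c i k ^ 2
      + (if i = k then (1 + 1 / s) * (w i * τ ^ 2) else 0) := by
    intro i k
    have h1 : w i * c i k ^ 2 ≤ K * c i k ^ 2 := mul_le_mul_of_nonneg_right (hwK i) (sq_nonneg _)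
    have h2 := mul_le_mul_of_nonneg_left h1 (by positivity : 0 ≤ 1 + s)
    by_cases h : i = k
    · subst h
      rw [if_pos rfl]
      have h3 := young_sq (x := c i i) (y := τ) hs
      have h4 : c i i + τ = M i i := by simp only [hc, if_true]; ring
      rw [h4] at h3
      have h5 := mul_le_mul_of_nonneg_left h3 (hw i)
      linarith
    · rw [if_neg h]
      have h3 : c i k = M i k := by simp only [hc, if_neg h, sub_zero]
      rw [h3] at h2 ⊢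
      have h4 : 0 ≤ s * (w i * M i k ^ 2) := mul_nonneg hs.le (mul_nonneg (hw i) (sq_nonneg _))
      linarith
  calc ∑ a, ∑ k, w a * M a k ^ 2
      ≤ ∑ a, ∑ k, ((1 + s) * K * c a k ^ 2
        + (if a = k then (1 + 1 / s) * (w a * τ ^ 2) else 0)) :=
        Finset.sum_le_sum fun a _ => Finset.sum_le_sum fun k _ => hpt a k
    _ = (1 + s) * K * (∑ a, ∑ k, c a k ^ 2) + (1 + 1 / s) * ((∑ a, w a) * τ ^ 2) := by
        have h1 : ∀ a, ∑ k, ((1 + s) * K * c a k ^ 2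
            + (if a = k then (1 + 1 / s) * (w a * τ ^ 2) else 0))
            = (1 + s) * K * (∑ k, c a k ^ 2) + (1 + 1 / s) * (w a * τ ^ 2) := by
          intro a
          rw [Finset.sum_add_distrib, Finset.sum_ite_eq, ← Finset.mul_sum]
          simp
        simp only [h1]
        rw [Finset.sum_add_distrib, ← Finset.mul_sum, ← Finset.mul_sum, Finset.sum_mul]
    _ ≤ (1 + s) * K * (K2 * ∫ x, F x ^ 2 ∂μ) + (1 + 1 / s) * ((∑ a, w a) * τ ^ 2) := by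
        have := mul_le_mul_of_nonneg_left hcle (by positivity : 0 ≤ (1 + s) * K)
        linarith
    _ = _ := by
        rw [hτ, div_pow]
        ring

end

section

variable {X : Type*} {E : Type*} [NormedAddCommGroup E] [InnerProductSpace ℝ E]
  [FiniteDimensional ℝ E] [MeasurableSpace E] [BorelSpace E]
variable [TopologicalSpace X] [MeasurableSpace X] [SecondCountableTopology X]
variable [CompactSpace X] [BorelSpace X] {μ : Measure X} [IsProbabilityMeasure μ] {m : ℕ}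
  {p n : X → E} {z : X → E} {T T1 : ℝ} {ι : Type*} [Fintype ι]

/-- the squares of the mixed products -/
lemma Fc_sq (b : OrthonormalBasis ι ℝ E) (j : ι → ℝ) (hp : Continuous p) (hz : Continuous z) :
    ∑ k : ι × ι, ∫ x, Fc b j p z k x ^ 2 ∂μ = ∫ x, ‖dop b j (p x)‖ ^ 2 * ‖z x‖ ^ 2 ∂μ := by
  have hi : ∀ k, Integrable (fun x => Fc b j p z k x ^ 2) μ := fun k =>
    int_of_cont ((cont_Fc b j hp hz k).pow 2)
  rw [← integral_finsetSum _ fun k _ => hi k]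
  refine integral_congr_ae (Eventually.of_forall fun x => ?_)
  simp only
  rw [norm_dop_sq, ← b.sum_sq_norm_inner_left (z x), Finset.sum_mul_sum, Fintype.sum_prod_type]
  refine Finset.sum_congr rfl fun i _ => Finset.sum_congr rfl fun k _ => ?_
  rw [Real.norm_eq_abs, sq_abs]
  unfold Fc
  ring

/-- the first order part -/
theorem Fc_lev1 (hp : Continuous p) (np : ∀ x, ‖p x‖ = 1) (hd : finrank ℝ E = m + 2)
    (b : OrthonormalBasis ι ℝ E) {j : ι → ℝ} (hz : Continuous z) {K2 : ℝ} (hK : 0 ≤ K2)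
    (hQ : QB μ p b K2) {κ : ℝ} (hj : ∀ a, j a ^ 2 ≤ κ * (m + 1)) {s : ℝ} (hs : 0 < s) :
    ∑ k : ι × ι, KF (ak m m 1) μ p (Fc b j p z k) (Fc b j p z k)
      ≤ m * ((1 + s) * (κ * (m + 1)) * (K2 * ∫ x, ‖z x‖ ^ 2 ∂μ)
        + (1 + 1 / s) * ((∑ a, j a ^ 2) / (m + 2) ^ 2 * ‖∫ x, z x ∂μ‖ ^ 2)) := by
  have hpm := hp.measurable
  have bF : ∀ k, BM (Fc b j p z k) := fun k => BM_cont (cont_Fc b j hp hz k)
  have hcard : Fintype.card ι = m + 2 := by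
    rw [← hd]
    exact (Module.finrank_eq_card_basis b.toBasis).symm
  have e1 : ∀ k : ι × ι, KF (ak m m 1) μ p (Fc b j p z k) (Fc b j p z k)
      = m * ∑ c, j k.1 ^ 2 * m2f μ p b (fun x => ⟪z x, b k.2⟫) k.1 c ^ 2 := by
    intro k
    rw [KF_a1 hpm np (bF k) (bF k) b]
    congr 1
    refine Finset.sum_congr rfl fun c _ => ?_
    have e2 : ∫ x, Fc b j p z k x * ⟪p x, b c⟫ ∂μ
        = j k.1 * m2f μ p b (fun x => ⟪z x, b k.2⟫) k.1 c := by
      unfold Fc m2f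
      rw [← integral_const_mul]
      refine integral_congr_ae (Eventually.of_forall fun x => ?_)
      simp only
      ring
    rw [e2]
    ring
  simp_rw [e1]
  rw [← Finset.mul_sum, Fintype.sum_prod_type, Finset.sum_comm]
  refine mul_le_mul_of_nonneg_left ?_ (Nat.cast_nonneg m)
  have e3 : ‖∫ x, z x ∂μ‖ ^ 2 = ∑ k, (∫ x, ⟪z x, b k⟫ ∂μ) ^ 2 := by
    rw [← b.sum_sq_norm_inner_left (∫ x, z x ∂μ)]
    refine Finset.sum_congr rfl fun k _ => ?_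
    rw [Real.norm_eq_abs, sq_abs, inner_int hz]
  rw [e3, ← sum_int_sq hz b, Finset.mul_sum, Finset.mul_sum, Finset.mul_sum, Finset.mul_sum,
    ← Finset.sum_add_distrib]
  refine Finset.sum_le_sum fun k _ => ?_
  exact m2f_wt (μ := μ) hpm np (BMi hz (b k)) b hcard hK hQ (w := fun a => j a ^ 2)
    (fun a => sq_nonneg _) hj hs

/-- **the size of the mixed products** -/
theorem Fc_rk1 [Nontrivial E] (h : OneP μ m p n) (hm : 1 ≤ m) (hd : finrank ℝ E = m + 2)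
    (b : OrthonormalBasis ι ℝ E) {j : ι → ℝ} (hz : Continuous z)
    (hzJ : ∀ x, z x = n x - dop b j (p x))
    (ha : ∀ i k, m1f μ p b (fun x => ⟪z x, b i⟫) k = -m1f μ p b (fun x => ⟪z x, b k⟫) i)
    {K2 : ℝ} (hK : 0 ≤ K2) (hQ : QB μ p b K2) {κ : ℝ} (hκ : 0 ≤ κ)
    (hj : ∀ a, j a ^ 2 ≤ κ * (m + 1)) {s : ℝ} (hs : 0 < s)
    (h1 : 0 < T) (h2 : T ≤ T1) (h3 : T1 < 1) :
    ∑ k : ι × ι, KF (rk m m 1 T) μ p (Fc b j p z k) (Fc b j p z k)
      ≤ T * (m * ((1 + s) * (κ * (m + 1)) * (K2 * ∫ x, ‖z x‖ ^ 2 ∂μ)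
        + (1 + 1 / s) * ((∑ a, j a ^ 2) / (m + 2) ^ 2 * ‖∫ x, z x ∂μ‖ ^ 2)))
      + (m * (m + 1) / 2 * K2 * T ^ 2 + 1 / (1 - T1 ^ 2) * (T / T1) ^ 3)
        * (∫ x, ‖dop b j (p x)‖ ^ 2 * ‖z x‖ ^ 2 ∂μ)
      + (m + 4) / (2 * (m + 2)) * T ^ 2 * (κ ^ 2 * (∫ x, ‖z x‖ ^ 2 ∂μ) ^ 2) := by
  have hp := h.cp
  have hT1 : 0 < T1 := h1.trans_le h2
  have hT : T < 1 := h2.trans_lt h3
  have bF : ∀ k, BM (Fc b j p z k) := fun k => BM_cont (cont_Fc b j hp hz k)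
  have e1 : ∀ k, KF (rk m m 1 T) μ p (Fc b j p z k) (Fc b j p z k)
      = KF (rk m m 2 T) μ p (Fc b j p z k) (Fc b j p z k)
        + T * KF (ak m m 1) μ p (Fc b j p z k) (Fc b j p z k) := by
    intro k
    have e2 : rk m m 1 T = fun s => rk m m 2 T s + T ^ 1 * ak m m 1 s := by
      funext s
      exact rk_succ m m 1 T s
    rw [e2, KF_kadd hp.measurable h.np (BK_rk m m 2 h1.le hT) ((BK_ak m m 1).smul _) (bF k) (bF k),
      KF_ksmul, pow_one]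
  simp_rw [e1]
  rw [Finset.sum_add_distrib, ← Finset.mul_sum]
  have h4 := rk2_fam (μ := μ) hp.measurable h.np (Finset.univ : Finset (ι × ι)) bF b hm hd hK hQ
    h1 h2 h3 (c := 1 / (1 - T1 ^ 2)) (fun x => sk_m_le h hm hT1.le h3 x)
  rw [Fc_sq b j hp hz] at h4
  have h5 := mul_le_mul_of_nonneg_left (Fc_lev1 (μ := μ) hp h.np hd b hz hK hQ hj hs) h1.le
  have h6 := Fc_mean h hm b hz hzJ ha hκ hj
  have e3 : (m : ℝ) * (m + 1) / (2 * (m + 2)) - (m - m / 2 - 1) = (m + 4) / (2 * (m + 2)) := by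
    field_simp
    ring
  rw [e3] at h4
  have h7 : ((m : ℝ) + 4) / (2 * (m + 2)) * T ^ 2 * ∑ k : ι × ι, (∫ x, Fc b j p z k x ∂μ) ^ 2
      ≤ (m + 4) / (2 * (m + 2)) * T ^ 2 * (κ ^ 2 * (∫ x, ‖z x‖ ^ 2 ∂μ) ^ 2) :=
    mul_le_mul_of_nonneg_left h6 (by positivity)
  linarith

/-- the numerical form -/
theorem Fc_num [Nontrivial E] (h : OneP μ m p n) (hm : 1 ≤ m) (hd : finrank ℝ E = m + 2)
    (b : OrthonormalBasis ι ℝ E) {j : ι → ℝ} (hz : Continuous z)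
    (hzJ : ∀ x, z x = n x - dop b j (p x))
    (ha : ∀ i k, m1f μ p b (fun x => ⟪z x, b i⟫) k = -m1f μ p b (fun x => ⟪z x, b k⟫) i)
    (hQ : QB μ p b (16 / ((m + 1) * (7 * m + 23)))) {κ : ℝ} (hκ : 0 ≤ κ)
    (hj : ∀ a, j a ^ 2 ≤ κ * (m + 1)) {s L Q ε H : ℝ} (hs : 0 < s)
    (hL : ∑ a, j a ^ 2 ≤ L * (m + 1)) (hH : ∫ x, ‖z x‖ ^ 2 ∂μ ≤ H)
    (hq : ∫ x, ‖dop b j (p x)‖ ^ 2 * ‖z x‖ ^ 2 ∂μ ≤ Q * H)
    (he : ‖∫ x, z x ∂μ‖ ^ 2 ≤ ε * H)
    (h1 : 0 < T) (h2 : T ≤ 31 / 40) :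
    ∑ k : ι × ι, KF (rk m m 1 T) μ p (Fc b j p z k) (Fc b j p z k)
      ≤ (T * ((1 + s) * (16 / 7 * κ) + (1 + 1 / s) * (L * ε)) + 8 / 7 * Q * T ^ 2
        + 269 / 50 * Q * T ^ 3 + 5 / 6 * κ ^ 2 * T ^ 2 * H) * H := by
  have hm1 : (1 : ℝ) ≤ m := by exact_mod_cast hm
  have h4 := Fc_rk1 h hm hd b hz hzJ ha (K2 := 16 / ((m + 1) * (7 * m + 23))) (by positivity) hQ hκ
    hj hs h1 h2 (by norm_num : (31 / 40 : ℝ) < 1)
  set H0 := ∫ x, ‖z x‖ ^ 2 ∂μ with hH0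
  set Q0 := ∫ x, ‖dop b j (p x)‖ ^ 2 * ‖z x‖ ^ 2 ∂μ with hQ0
  set e0 := ‖∫ x, z x ∂μ‖ ^ 2 with he0
  set J := ∑ a, j a ^ 2 with hJ
  have nH : 0 ≤ H0 := integral_nonneg fun x => sq_nonneg _
  have nQ : 0 ≤ Q0 := integral_nonneg fun x => by positivity
  have ne : 0 ≤ e0 := sq_nonneg _
  have nJ : 0 ≤ J := Finset.sum_nonneg fun a _ => sq_nonneg _
  have nH' : 0 ≤ H := nH.trans hH
  have hL0 : 0 ≤ L := by
    by_contra hc
    rw [not_le] at hc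
    nlinarith
  have a1 : (m : ℝ) * ((m + 1) * (16 / ((m + 1) * (7 * m + 23)))) ≤ 16 / 7 := by
    have : (m : ℝ) * ((m + 1) * (16 / ((m + 1) * (7 * m + 23)))) = 16 * m / (7 * m + 23) := by
      field_simp
    rw [this, div_le_div_iff₀ (by positivity) (by norm_num)]
    nlinarith
  have b1 : (m : ℝ) * ((1 + s) * (κ * (m + 1)) * (16 / ((m + 1) * (7 * m + 23)) * H0))
      ≤ (1 + s) * (16 / 7 * κ) * H := by
    calc (m : ℝ) * ((1 + s) * (κ * (m + 1)) * (16 / ((m + 1) * (7 * m + 23)) * H0))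
        = (1 + s) * κ * H0 * (m * ((m + 1) * (16 / ((m + 1) * (7 * m + 23))))) := by ring
      _ ≤ (1 + s) * κ * H * (16 / 7) := by
          refine mul_le_mul ?_ a1 (by positivity) (by positivity)
          exact mul_le_mul_of_nonneg_left hH (by positivity)
      _ = _ := by ring
  have a2 : (m : ℝ) * (J / (m + 2) ^ 2) ≤ L := by
    rw [← mul_div_assoc, div_le_iff₀ (by positivity)]
    calc (m : ℝ) * J ≤ m * (L * (m + 1)) := mul_le_mul_of_nonneg_left hL (by positivity)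
      _ ≤ L * (m + 2) ^ 2 := by nlinarith
  have b2 : (m : ℝ) * ((1 + 1 / s) * (J / (m + 2) ^ 2 * e0)) ≤ (1 + 1 / s) * (L * ε) * H := by
    calc (m : ℝ) * ((1 + 1 / s) * (J / (m + 2) ^ 2 * e0))
        = (1 + 1 / s) * ((m * (J / (m + 2) ^ 2)) * e0) := by ring
      _ ≤ (1 + 1 / s) * (L * (ε * H)) := by
          refine mul_le_mul_of_nonneg_left ?_ (by positivity)
          exact mul_le_mul a2 he ne hL0
      _ = _ := by ring
  have b3 : T * (m * ((1 + s) * (κ * (m + 1)) * (16 / ((m + 1) * (7 * m + 23)) * H0)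
        + (1 + 1 / s) * (J / (m + 2) ^ 2 * e0)))
      ≤ T * ((1 + s) * (16 / 7 * κ) + (1 + 1 / s) * (L * ε)) * H := by
    have := mul_le_mul_of_nonneg_left (add_le_add b1 b2) h1.le
    linarith
  have a4 : (m : ℝ) * (m + 1) / 2 * (16 / ((m + 1) * (7 * m + 23))) * T ^ 2
      + 1 / (1 - (31 / 40) ^ 2) * (T / (31 / 40)) ^ 3 ≤ 8 / 7 * T ^ 2 + 269 / 50 * T ^ 3 := by
    have c1 : (m : ℝ) * (m + 1) / 2 * (16 / ((m + 1) * (7 * m + 23))) * T ^ 2 ≤ 8 / 7 * T ^ 2 := by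
      refine mul_le_mul_of_nonneg_right ?_ (sq_nonneg T)
      linarith
    have c2 : 1 / (1 - (31 / 40 : ℝ) ^ 2) * (T / (31 / 40)) ^ 3 ≤ 269 / 50 * T ^ 3 := by
      have : 1 / (1 - (31 / 40 : ℝ) ^ 2) * (T / (31 / 40)) ^ 3
          = 1 / (1 - (31 / 40 : ℝ) ^ 2) / (31 / 40) ^ 3 * T ^ 3 := by ring
      rw [this]
      refine mul_le_mul_of_nonneg_right ?_ (by positivity)
      norm_num
    linarith
  have b4 : ((m : ℝ) * (m + 1) / 2 * (16 / ((m + 1) * (7 * m + 23))) * T ^ 2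
      + 1 / (1 - (31 / 40) ^ 2) * (T / (31 / 40)) ^ 3) * Q0
      ≤ (8 / 7 * Q * T ^ 2 + 269 / 50 * Q * T ^ 3) * H := by
    calc _ ≤ (8 / 7 * T ^ 2 + 269 / 50 * T ^ 3) * (Q * H) :=
          mul_le_mul a4 hq nQ (by positivity)
      _ = _ := by ring
  have b5 : ((m : ℝ) + 4) / (2 * (m + 2)) * T ^ 2 * (κ ^ 2 * H0 ^ 2)
      ≤ 5 / 6 * κ ^ 2 * T ^ 2 * H * H := by
    have c1 : ((m : ℝ) + 4) / (2 * (m + 2)) ≤ 5 / 6 := by
      rw [div_le_div_iff₀ (by positivity) (by norm_num)]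
      linarith
    have c2 : H0 ^ 2 ≤ H ^ 2 := pow_le_pow_left₀ nH hH 2
    calc ((m : ℝ) + 4) / (2 * (m + 2)) * T ^ 2 * (κ ^ 2 * H0 ^ 2)
        = ((m : ℝ) + 4) / (2 * (m + 2)) * (T ^ 2 * κ ^ 2 * H0 ^ 2) := by ring
      _ ≤ 5 / 6 * (T ^ 2 * κ ^ 2 * H ^ 2) := by
          refine mul_le_mul c1 ?_ (by positivity) (by norm_num)
          exact mul_le_mul_of_nonneg_left c2 (by positivity)
      _ = _ := by ring
  linarith

/-- the normal part, per unit of the defect -/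
theorem SS_cross_H (h : OneP μ m p n) (hm : 1 ≤ m) (hd : finrank ℝ E = m + 2)
    (b : OrthonormalBasis ι ℝ E) {j : ι → ℝ} (hz : Continuous z)
    (hzJ : ∀ x, z x = n x - dop b j (p x))
    (ha : ∀ i k, m1f μ p b (fun x => ⟪z x, b i⟫) k = -m1f μ p b (fun x => ⟪z x, b k⟫) i)
    (h1 : 0 < T) (hT : T < 1) {FF chi H : ℝ} (hH : 0 ≤ H)
    (hχ : cw m T * PI μ p T m (fun u => ‖z u.1‖ ^ 2 * ‖z u.2‖ ^ 2) ≤ chi * H)
    (hFF : ∑ k : ι × ι, KF (rk m m 1 T) μ p (Fc b j p z k) (Fc b j p z k) ≤ FF * H) :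
    cw m T * SS μ m p n z T ≤ cw m T * PI μ p T m (fun u => ⟪dop b j (p u.2), z u.1⟫ ^ 2)
      + (chi + 2 * √(FF * chi)) * H := by
  have h2 := SS_cross h hm hd b hz hzJ ha h1 hT hχ hFF
  have e : √(FF * H * (chi * H)) = √(FF * chi) * H := by
    have e1 : FF * H * (chi * H) = FF * chi * H ^ 2 := by ring
    rw [e1, Real.sqrt_mul' _ (sq_nonneg H), Real.sqrt_sq hH]
  rw [e] at h2
  linarith

/-- **the normal part, closed form** -/
theorem SS_num [Nontrivial E] (h : OneP μ m p n) (hm : 1 ≤ m) (hd : finrank ℝ E = m + 2)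
    (b : OrthonormalBasis ι ℝ E) {j : ι → ℝ} (hz : Continuous z)
    (hzJ : ∀ x, z x = n x - dop b j (p x))
    (ha : ∀ i k, m1f μ p b (fun x => ⟪z x, b i⟫) k = -m1f μ p b (fun x => ⟪z x, b k⟫) i)
    (hQ : QB μ p b (16 / ((m + 1) * (7 * m + 23)))) {κ : ℝ} (hκ : 0 ≤ κ)
    (hj : ∀ a, j a ^ 2 ≤ κ * (m + 1)) {s L Q ε H chi : ℝ} (hs : 0 < s)
    (hL : ∑ a, j a ^ 2 ≤ L * (m + 1)) (hH : ∫ x, ‖z x‖ ^ 2 ∂μ ≤ H)
    (hq : ∫ x, ‖dop b j (p x)‖ ^ 2 * ‖z x‖ ^ 2 ∂μ ≤ Q * H)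
    (he : ‖∫ x, z x ∂μ‖ ^ 2 ≤ ε * H)
    (hχ : cw m T * PI μ p T m (fun u => ‖z u.1‖ ^ 2 * ‖z u.2‖ ^ 2) ≤ chi * H)
    (h1 : 0 < T) (h2 : T ≤ 31 / 40) :
    cw m T * SS μ m p n z T ≤ cw m T * PI μ p T m (fun u => ⟪dop b j (p u.2), z u.1⟫ ^ 2)
      + (chi + 2 * √((T * ((1 + s) * (16 / 7 * κ) + (1 + 1 / s) * (L * ε)) + 8 / 7 * Q * T ^ 2
        + 269 / 50 * Q * T ^ 3 + 5 / 6 * κ ^ 2 * T ^ 2 * H) * chi)) * H :=
  SS_cross_H h hm hd b hz hzJ ha h1 (h2.trans_lt (by norm_num))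
    ((integral_nonneg fun x => sq_nonneg _).trans hH) hχ
    (Fc_num h hm hd b hz hzJ ha hQ hκ hj hs hL hH hq he h1 h2)

end

end Vale.Agent.P224.R2.H662
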