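import Vale.Agent.P224.R2.H662.SCr2
import Vale.Agent.P224.R2.H662.Chi
import Vale.Agent.P224.R2.H470.Qb

/-!
The pure products at level `T` and the normal part in closed form.
-/

namespace Vale.Agent.P224.R2.H662

open MeasureTheory Module Function Set Filter Vale.Agent.P224.R2.H470 Vale.Agent.P224.R2.H460
open Vale.Agent.P224.R2.H728 (BM T0Data m3)
open scoped RealInnerProductSpace Topology

set_option linter.unusedSectionVars false

section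

variable {X : Type*} {E : Type*} [NormedAddCommGroup E] [InnerProductSpace ℝ E]
  [FiniteDimensional ℝ E] [MeasurableSpace E] [BorelSpace E]
variable [TopologicalSpace X] [MeasurableSpace X] [SecondCountableTopology X]
variable [CompactSpace X] [BorelSpace X] {μ : Measure X} [IsProbabilityMeasure μ] {m : ℕ}
  {p n : X → E} {z : X → E} {T T1 : ℝ} {ι : Type*} [Fintype ι]

lemma norm_sq_sum (b : OrthonormalBasis ι ℝ E) (v : E) : ∑ a, ⟪v, b a⟫ ^ 2 = ‖v‖ ^ 2 := by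
  rw [← b.sum_sq_norm_inner_left v]
  exact Finset.sum_congr rfl fun a _ => by rw [Real.norm_eq_abs, sq_abs]

/-- the squares of the pure products -/
lemma Gc_sq (b : OrthonormalBasis ι ℝ E) (hz : Continuous z) :
    ∑ k : ι × ι, ∫ x, Gc b z k x ^ 2 ∂μ = ∫ x, ‖z x‖ ^ 4 ∂μ := by
  have hi : ∀ k, Integrable (fun x => Gc b z k x ^ 2) μ := fun k =>
    int_of_cont ((cont_Gc b hz k).pow 2)
  rw [← integral_finsetSum _ fun k _ => hi k]
  refine integral_congr_ae (Eventually.of_forall fun x => ?_)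
  simp only
  rw [show ‖z x‖ ^ 4 = ‖z x‖ ^ 2 * ‖z x‖ ^ 2 by ring, ← norm_sq_sum b (z x), Finset.sum_mul_sum,
    Fintype.sum_prod_type]
  refine Finset.sum_congr rfl fun i _ => Finset.sum_congr rfl fun k _ => ?_
  unfold Gc
  ring

/-- the means of the pure products -/
lemma Gc_mean (b : OrthonormalBasis ι ℝ E) (hz : Continuous z) :
    ∑ k : ι × ι, (∫ x, Gc b z k x ∂μ) ^ 2 ≤ (∫ x, ‖z x‖ ^ 2 ∂μ) ^ 2 := by
  have h1 : ∀ k : ι × ι, (∫ x, Gc b z k x ∂μ) ^ 2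
      ≤ (∫ x, ⟪z x, b k.1⟫ ^ 2 ∂μ) * ∫ x, ⟪z x, b k.2⟫ ^ 2 ∂μ := fun k =>
    cs_int (μ := μ) (f := fun x => ⟪z x, b k.1⟫) (g := fun x => ⟪z x, b k.2⟫)
      (by fun_prop) (by fun_prop)
  refine (Finset.sum_le_sum fun k _ => h1 k).trans (le_of_eq ?_)
  rw [Fintype.sum_prod_type, ← sum_int_sq hz b, sq (∑ i, _), Finset.sum_mul_sum]

/-- the first order part -/
theorem Gc_lev1 [DecidableEq ι] (hp : Continuous p) (np : ∀ x, ‖p x‖ = 1)
    (b : OrthonormalBasis ι ℝ E) (hT0 : T0Data μ m (cob b p) (cob b n)) (hz : Continuous z) :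
    ∑ k : ι × ι, KF (ak m m 1) μ p (Gc b z k) (Gc b z k)
      ≤ √(3 * ∫ x, ‖z x‖ ^ 4 ∂μ) * ∫ x, ‖z x‖ ^ 2 ∂μ := by
  have hpm := hp.measurable
  have bG : ∀ k, BM (Gc b z k) := fun k => BM_cont (cont_Gc b hz k)
  have hm0 : (0 : ℝ) ≤ m := by positivity
  have bz : ∀ a, BM (fun x => ⟪z x, b a⟫) := fun a => BMi hz (b a)
  have h1 := T0.chi1 hT0 hm0 (z := fun a x => ⟪z x, b a⟫) bz
  have e1 : ∑ k : ι × ι, KF (ak m m 1) μ p (Gc b z k) (Gc b z k)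
      = m * fr3 (m3 μ (fun a x => ⟪z x, b a⟫) (fun a x => ⟪z x, b a⟫) (cob b p)) := by
    unfold fr3
    rw [Fintype.sum_prod_type, Finset.mul_sum]
    refine Finset.sum_congr rfl fun i _ => ?_
    rw [Finset.mul_sum]
    refine Finset.sum_congr rfl fun k _ => ?_
    rw [KF_a1 hpm np (bG _) (bG _) b]
    congr 1
    refine Finset.sum_congr rfl fun c _ => ?_
    have e2 : ∫ x, Gc b z (i, k) x * ⟪p x, b c⟫ ∂μ
        = m3 μ (fun a x => ⟪z x, b a⟫) (fun a x => ⟪z x, b a⟫) (cob b p) i k c := by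
      unfold Gc m3 cob
      refine integral_congr_ae (Eventually.of_forall fun x => ?_)
      simp only
    rw [e2, sq]
  have e3 : ∫ x, ∑ a, ⟪z x, b a⟫ ^ 2 ∂μ = ∫ x, ‖z x‖ ^ 2 ∂μ :=
    integral_congr_ae (Eventually.of_forall fun x => norm_sq_sum b (z x))
  have e4 : ∫ x, (∑ a, ⟪z x, b a⟫ ^ 2) ^ 2 ∂μ = ∫ x, ‖z x‖ ^ 4 ∂μ := by
    refine integral_congr_ae (Eventually.of_forall fun x => ?_)
    simp only
    rw [norm_sq_sum b (z x)]
    ring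
  rw [e3, e4] at h1
  rw [e1]
  set f := fr3 (m3 μ (fun a x => ⟪z x, b a⟫) (fun a x => ⟪z x, b a⟫) (cob b p)) with hf
  set H := ∫ x, ‖z x‖ ^ 2 ∂μ with hH
  set E4 := ∫ x, ‖z x‖ ^ 4 ∂μ with hE4
  have nf : 0 ≤ f := fr3_nonneg _
  have nH : 0 ≤ H := integral_nonneg fun x => sq_nonneg _
  have nE : 0 ≤ E4 := integral_nonneg fun x => by positivity
  refine abs_le_of_sq_le_sq' ?_ (by positivity) |>.2
  rw [mul_pow, mul_pow, Real.sq_sqrt (by positivity)]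
  nlinarith [mul_nonneg hm0 (sq_nonneg f), sq_nonneg f]

/-- the size of the pure products -/
theorem Gc_rk1 [DecidableEq ι] [Nontrivial E] (h : OneP μ m p n) (hm : 1 ≤ m)
    (hd : finrank ℝ E = m + 2) (b : OrthonormalBasis ι ℝ E)
    (hT0 : T0Data μ m (cob b p) (cob b n)) (hz : Continuous z)
    {K2 : ℝ} (hK : 0 ≤ K2) (hQ : QB μ p b K2) (h1 : 0 < T) (h2 : T ≤ T1) (h3 : T1 < 1) :
    ∑ k : ι × ι, KF (rk m m 1 T) μ p (Gc b z k) (Gc b z k)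
      ≤ T * (√(3 * ∫ x, ‖z x‖ ^ 4 ∂μ) * ∫ x, ‖z x‖ ^ 2 ∂μ)
      + (m * (m + 1) / 2 * K2 * T ^ 2 + 1 / (1 - T1 ^ 2) * (T / T1) ^ 3) * (∫ x, ‖z x‖ ^ 4 ∂μ)
      + (m + 4) / (2 * (m + 2)) * T ^ 2 * (∫ x, ‖z x‖ ^ 2 ∂μ) ^ 2 := by
  have hp := h.cp
  have hT1 : 0 < T1 := h1.trans_le h2
  have hT : T < 1 := h2.trans_lt h3
  have bG : ∀ k, BM (Gc b z k) := fun k => BM_cont (cont_Gc b hz k)
  have e1 : ∀ k, KF (rk m m 1 T) μ p (Gc b z k) (Gc b z k)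
      = KF (rk m m 2 T) μ p (Gc b z k) (Gc b z k)
        + T * KF (ak m m 1) μ p (Gc b z k) (Gc b z k) := by
    intro k
    have e2 : rk m m 1 T = fun s => rk m m 2 T s + T ^ 1 * ak m m 1 s := by
      funext s
      exact rk_succ m m 1 T s
    rw [e2, KF_kadd hp.measurable h.np (BK_rk m m 2 h1.le hT) ((BK_ak m m 1).smul _) (bG k) (bG k),
      KF_ksmul, pow_one]
  simp_rw [e1]
  rw [Finset.sum_add_distrib, ← Finset.mul_sum]
  have h4 := rk2_fam (μ := μ) hp.measurable h.np (Finset.univ : Finset (ι × ι)) bG b hm hd hK hQ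
    h1 h2 h3 (c := 1 / (1 - T1 ^ 2)) (fun x => sk_m_le h hm hT1.le h3 x)
  rw [Gc_sq b hz] at h4
  have h5 := mul_le_mul_of_nonneg_left (Gc_lev1 (μ := μ) hp h.np b hT0 hz) h1.le
  have h6 := Gc_mean (μ := μ) b hz
  have e3 : (m : ℝ) * (m + 1) / (2 * (m + 2)) - (m - m / 2 - 1) = (m + 4) / (2 * (m + 2)) := by
    field_simp
    ring
  rw [e3] at h4
  have h7 : ((m : ℝ) + 4) / (2 * (m + 2)) * T ^ 2 * ∑ k : ι × ι, (∫ x, Gc b z k x ∂μ) ^ 2
      ≤ (m + 4) / (2 * (m + 2)) * T ^ 2 * (∫ x, ‖z x‖ ^ 2 ∂μ) ^ 2 :=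
    mul_le_mul_of_nonneg_left h6 (by positivity)
  linarith

/-- the numerical form -/
theorem Gc_num [DecidableEq ι] [Nontrivial E] (h : OneP μ m p n) (hm : 98 ≤ m)
    (hd : finrank ℝ E = m + 2) (b : OrthonormalBasis ι ℝ E)
    (hT0 : T0Data μ m (cob b p) (cob b n)) (hz : Continuous z)
    (hQ : QB μ p b (16 / ((m + 1) * (7 * m + 23)))) {A y1 H : ℝ}
    (hH : ∫ x, ‖z x‖ ^ 2 ∂μ ≤ H) (hA : ∫ x, ‖z x‖ ^ 4 ∂μ ≤ A * H) (hy0 : 0 ≤ y1)
    (hy : 3 * (A * H) ≤ y1 ^ 2) (h1 : 0 < T) (h2 : T ≤ 31 / 40) :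
    ∑ k : ι × ι, KF (rk m m 1 T) μ p (Gc b z k) (Gc b z k)
      ≤ (y1 * T + (8 / 7 * A + 51 / 100 * H) * T ^ 2 + 269 / 50 * A * T ^ 3) * H := by
  have hm1 : (98 : ℝ) ≤ m := by exact_mod_cast hm
  have h4 := Gc_rk1 h (by omega) hd b hT0 hz (K2 := 16 / ((m + 1) * (7 * m + 23))) (by positivity)
    hQ h1 h2 (by norm_num : (31 / 40 : ℝ) < 1)
  set H0 := ∫ x, ‖z x‖ ^ 2 ∂μ with hH0
  set E4 := ∫ x, ‖z x‖ ^ 4 ∂μ with hE4
  have nH : 0 ≤ H0 := integral_nonneg fun x => sq_nonneg _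
  have nE : 0 ≤ E4 := integral_nonneg fun x => by positivity
  have nH' : 0 ≤ H := nH.trans hH
  have a1 : (m : ℝ) * ((m + 1) * (16 / ((m + 1) * (7 * m + 23)))) ≤ 16 / 7 := by
    have : (m : ℝ) * ((m + 1) * (16 / ((m + 1) * (7 * m + 23)))) = 16 * m / (7 * m + 23) := by
      field_simp
    rw [this, div_le_div_iff₀ (by positivity) (by norm_num)]
    nlinarith
  have b1 : T * (√(3 * E4) * H0) ≤ y1 * T * H := by
    have c1 : √(3 * E4) ≤ y1 := by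
      rw [Real.sqrt_le_left hy0]
      linarith
    have c2 : √(3 * E4) * H0 ≤ y1 * H := mul_le_mul c1 hH nH hy0
    have := mul_le_mul_of_nonneg_left c2 h1.le
    linarith
  have a4 : (m : ℝ) * (m + 1) / 2 * (16 / ((m + 1) * (7 * m + 23))) * T ^ 2
      + 1 / (1 - (31 / 40) ^ 2) * (T / (31 / 40)) ^ 3 ≤ 8 / 7 * T ^ 2 + 269 / 50 * T ^ 3 := by
    have c1 : (m : ℝ) * (m + 1) / 2 * (16 / ((m + 1) * (7 * m + 23))) * T ^ 2 ≤ 8 / 7 * T ^ 2 := by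
      refine mul_le_mul_of_nonneg_right ?_ (sq_nonneg T)
      linarith
    have c2 : 1 / (1 - (31 / 40 : ℝ) ^ 2) * (T / (31 / 40)) ^ 3 ≤ 269 / 50 * T ^ 3 := by
      have : 1 / (1 - (31 / 40 : ℝ) ^ 2) * (T / (31 / 40)) ^ 3
          = 1 / (1 - (31 / 40 : ℝ) ^ 2) / (31 / 40) ^ 3 * T ^ 3 := by ring
      rw [this]
      refine mul_le_mul_of_nonneg_right ?_ (by positivity)
      norm_num
    linarith
  have b4 : ((m : ℝ) * (m + 1) / 2 * (16 / ((m + 1) * (7 * m + 23))) * T ^ 2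
      + 1 / (1 - (31 / 40) ^ 2) * (T / (31 / 40)) ^ 3) * E4
      ≤ (8 / 7 * A * T ^ 2 + 269 / 50 * A * T ^ 3) * H := by
    calc _ ≤ (8 / 7 * T ^ 2 + 269 / 50 * T ^ 3) * (A * H) :=
          mul_le_mul a4 hA nE (by positivity)
      _ = _ := by ring
  have b5 : ((m : ℝ) + 4) / (2 * (m + 2)) * T ^ 2 * H0 ^ 2 ≤ 51 / 100 * H * T ^ 2 * H := by
    have c1 : ((m : ℝ) + 4) / (2 * (m + 2)) ≤ 51 / 100 := by
      rw [div_le_div_iff₀ (by positivity) (by norm_num)]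
      linarith
    have c2 : H0 ^ 2 ≤ H ^ 2 := pow_le_pow_left₀ nH hH 2
    calc ((m : ℝ) + 4) / (2 * (m + 2)) * T ^ 2 * H0 ^ 2
        = ((m : ℝ) + 4) / (2 * (m + 2)) * (T ^ 2 * H0 ^ 2) := by ring
      _ ≤ 51 / 100 * (T ^ 2 * H ^ 2) := by
          refine mul_le_mul c1 ?_ (by positivity) (by norm_num)
          exact mul_le_mul_of_nonneg_left c2 (by positivity)
      _ = _ := by ring
  linarith

/-- **the normal part, the pure products separated** -/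
theorem SS_cross2 (h : OneP μ m p n) (hm : 1 ≤ m) (hd : finrank ℝ E = m + 2)
    (b : OrthonormalBasis ι ℝ E) {j : ι → ℝ} (hz : Continuous z)
    (hzJ : ∀ x, z x = n x - dop b j (p x))
    (ha : ∀ i k, m1f μ p b (fun x => ⟪z x, b i⟫) k = -m1f μ p b (fun x => ⟪z x, b k⟫) i)
    (h1 : 0 < T) (hT : T < 1) {FF YY H : ℝ} (hH : ∫ x, ‖z x‖ ^ 2 ∂μ ≤ H)
    (hYY : ∑ k : ι × ι, KF (rk m m 1 T) μ p (Gc b z k) (Gc b z k) ≤ YY * H)
    (hFF : ∑ k : ι × ι, KF (rk m m 1 T) μ p (Fc b j p z k) (Fc b j p z k) ≤ FF * H) :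
    cw m T * SS μ m p n z T ≤ cw m T * PI μ p T m (fun u => ⟪dop b j (p u.2), z u.1⟫ ^ 2)
      + (H + YY + 2 * √(FF * YY)) * H := by
  have hk : 0 < 1 - T ^ 2 := by nlinarith
  have hk1 : 1 - T ^ 2 ≤ 1 := sub_le_self 1 (sq_nonneg T)
  have hp := h.cp
  have hn := h.cn
  have hpm := hp.measurable
  have hcw := cw_pos (m := m) h1.le hT
  have cF := fun k => cont_Fc b j hp hz k
  have cG := fun k => cont_Gc b hz k
  have bF : ∀ k, BM (Fc b j p z k) := fun k => BM_cont (cF k)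
  have bG : ∀ k, BM (Gc b z k) := fun k => BM_cont (cG k)
  have nH0 : 0 ≤ ∫ x, ‖z x‖ ^ 2 ∂μ := integral_nonneg fun x => sq_nonneg _
  have nH : 0 ≤ H := nH0.trans hH
  -- the expansion
  have e0 : (fun u : X × X => ⟪n u.2, z u.1⟫ ^ 2) = fun u => (⟪dop b j (p u.2), z u.1⟫ ^ 2
      + 2 * (⟪dop b j (p u.2), z u.1⟫ * ⟪z u.2, z u.1⟫)) + ⟪z u.2, z u.1⟫ ^ 2 := by
    funext u
    have e : n u.2 = dop b j (p u.2) + z u.2 := by rw [hzJ]; abel
    rw [e, inner_add_left]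
    ring
  have e1 : SS μ m p n z T = PI μ p T m (fun u => ⟪dop b j (p u.2), z u.1⟫ ^ 2)
      + 2 * PI μ p T m (fun u => ⟪dop b j (p u.2), z u.1⟫ * ⟪z u.2, z u.1⟫)
      + PI μ p T m (fun u => ⟪z u.2, z u.1⟫ ^ 2) := by
    unfold SS
    rw [e0, PI_add h1.le hT _ hp h.np (by fun_prop) (by fun_prop),
      PI_add h1.le hT _ hp h.np (by fun_prop) (by fun_prop), PI_mul]
  have eS : ∀ {A B : ι × ι → X → ℝ}, (∀ k, Continuous (A k)) → (∀ k, Continuous (B k)) →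
      cw m T * PI μ p T m (fun u => ∑ k : ι × ι, A k u.1 * B k u.2)
        = (1 - T ^ 2) * ∑ k : ι × ι, KF (sk m m T) μ p (A k) (B k) := by
    intro A B hA hB
    have e3 : PI μ p T m (fun u => ∑ k : ι × ι, A k u.1 * B k u.2)
        = ∑ k : ι × ι, PI μ p T m (fun u => A k u.1 * B k u.2) := by
      unfold PI
      rw [← integral_finsetSum _ fun k _ => ?_]
      · refine integral_congr_ae (Eventually.of_forall fun u => ?_)
        simp only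
        rw [Finset.mul_sum]
      · exact int_PI h1.le hT m hp h.np (G := fun u => A k u.1 * B k u.2)
          (((hA k).comp continuous_fst).mul ((hB k).comp continuous_snd))
    rw [e3, Finset.mul_sum, Finset.mul_sum]
    exact Finset.sum_congr rfl fun k _ => cwPI_m h1.le hT
  have hsq : (fun u : X × X => ⟪z u.2, z u.1⟫ ^ 2)
      = fun u => ∑ k : ι × ι, Gc b z k u.1 * Gc b z k u.2 := by
    funext u
    rw [inner_sum_basis b, sq, Finset.sum_mul_sum, Fintype.sum_prod_type]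
    refine Finset.sum_congr rfl fun i _ => Finset.sum_congr rfl fun k _ => ?_
    unfold Gc
    ring
  have hPD := PD_rk (μ := μ) hpm h.np hm hd (by norm_num : 1 ≤ 3) h1 hT
  set SG := ∑ k : ι × ι, KF (rk m m 1 T) μ p (Gc b z k) (Gc b z k) with hSG
  set SF := ∑ k : ι × ι, KF (rk m m 1 T) μ p (Fc b j p z k) (Fc b j p z k) with hSF
  set SX := ∑ k : ι × ι, KF (rk m m 1 T) μ p (Gc b z k) (Fc b j p z k) with hSX
  have nG : 0 ≤ SG := Finset.sum_nonneg fun k _ => hPD _ (bG k)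
  have nF : 0 ≤ SF := Finset.sum_nonneg fun k _ => hPD _ (bF k)
  have h3 : cw m T * PI μ p T m (fun u => ⟪z u.2, z u.1⟫ ^ 2) ≤ (H + YY) * H := by
    rw [hsq, eS cG cG]
    have e4 : ∀ k, KF (sk m m T) μ p (Gc b z k) (Gc b z k)
        = (∫ x, Gc b z k x ∂μ) ^ 2 + KF (rk m m 1 T) μ p (Gc b z k) (Gc b z k) := fun k => by
      rw [KF_sk_one hpm h.np (bG k) (bG k) m h1.le hT]
      ring
    simp_rw [e4]
    rw [Finset.sum_add_distrib]
    have h6 := Gc_mean (μ := μ) b hz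
    have h7 : (∫ x, ‖z x‖ ^ 2 ∂μ) ^ 2 ≤ H ^ 2 := pow_le_pow_left₀ nH0 hH 2
    have h8 : 0 ≤ ∑ k : ι × ι, (∫ x, Gc b z k x ∂μ) ^ 2 := Finset.sum_nonneg fun k _ => sq_nonneg _
    have h9 : (1 - T ^ 2) * (∑ k : ι × ι, (∫ x, Gc b z k x ∂μ) ^ 2 + SG)
        ≤ 1 * (∑ k : ι × ι, (∫ x, Gc b z k x ∂μ) ^ 2 + SG) :=
      mul_le_mul_of_nonneg_right hk1 (by positivity)
    linarith
  -- the cross term
  have e2 : cw m T * PI μ p T m (fun u => ⟪dop b j (p u.2), z u.1⟫ * ⟪z u.2, z u.1⟫)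
      ≤ (1 - T ^ 2) * SX := by
    have e3 : (fun u : X × X => ⟪dop b j (p u.2), z u.1⟫ * ⟪z u.2, z u.1⟫)
        = fun u => ∑ k : ι × ι, Gc b z k u.1 * Fc b j p z k u.2 := by
      funext u
      exact sum_prod_inner b j u
    rw [e3, eS cG cF]
    refine mul_le_mul_of_nonneg_left ?_ hk.le
    have e4 : ∀ k, KF (sk m m T) μ p (Gc b z k) (Fc b j p z k)
        = (∫ x, Gc b z k x ∂μ) * (∫ x, Fc b j p z k x ∂μ)
          + KF (rk m m 1 T) μ p (Gc b z k) (Fc b j p z k) := fun k =>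
      KF_sk_one hpm h.np (bG k) (bF k) m h1.le hT
    simp_rw [e4]
    rw [Finset.sum_add_distrib]
    have := cross_const h hm b hz hzJ ha
    linarith
  have cs := hPD.cs hpm h.np (BK_rk m m 1 h1.le hT) (Finset.univ : Finset (ι × ι)) bG bF
  have h5 : (1 - T ^ 2) * SX ≤ √(FF * YY) * H := by
    have e6 : √(FF * YY) * H = √(FF * H * (YY * H)) := by
      have e7 : FF * H * (YY * H) = FF * YY * H ^ 2 := by ring
      rw [e7, Real.sqrt_mul' _ (sq_nonneg H), Real.sqrt_sq nH]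
    rw [e6]
    refine Real.le_sqrt_of_sq_le ?_
    calc ((1 - T ^ 2) * SX) ^ 2 = (1 - T ^ 2) ^ 2 * SX ^ 2 := by ring
      _ ≤ 1 * (SG * SF) := by
          refine mul_le_mul ?_ cs (sq_nonneg _) zero_le_one
          exact pow_le_one₀ hk.le hk1
      _ = SF * SG := by ring
      _ ≤ (FF * H) * (YY * H) := mul_le_mul hFF hYY nG (nF.trans hFF)
  rw [e1, mul_add, mul_add]
  linarith

/-- **the normal part, closed form, everything separated** -/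
theorem SS_num2 [DecidableEq ι] [Nontrivial E] (h : OneP μ m p n) (hm : 98 ≤ m)
    (hd : finrank ℝ E = m + 2) (b : OrthonormalBasis ι ℝ E)
    (hT0 : T0Data μ m (cob b p) (cob b n)) {j : ι → ℝ} (hz : Continuous z)
    (hzJ : ∀ x, z x = n x - dop b j (p x))
    (ha : ∀ i k, m1f μ p b (fun x => ⟪z x, b i⟫) k = -m1f μ p b (fun x => ⟪z x, b k⟫) i)
    {κ : ℝ} (hκ : 0 ≤ κ) (hj : ∀ a, j a ^ 2 ≤ κ * (m + 1)) {s L Q A y1 ε H : ℝ} (hs : 0 < s)
    (hL : ∑ a, j a ^ 2 ≤ L * (m + 1)) (hH : ∫ x, ‖z x‖ ^ 2 ∂μ ≤ H)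
    (hq : ∫ x, ‖dop b j (p x)‖ ^ 2 * ‖z x‖ ^ 2 ∂μ ≤ Q * H)
    (he : ‖∫ x, z x ∂μ‖ ^ 2 ≤ ε * H) (hA : ∫ x, ‖z x‖ ^ 4 ∂μ ≤ A * H) (hy0 : 0 ≤ y1)
    (hy : 3 * (A * H) ≤ y1 ^ 2) (h1 : 0 < T) (h2 : T ≤ 31 / 40) :
    cw m T * SS μ m p n z T ≤ cw m T * PI μ p T m (fun u => ⟪dop b j (p u.2), z u.1⟫ ^ 2)
      + (H + (y1 * T + (8 / 7 * A + 51 / 100 * H) * T ^ 2 + 269 / 50 * A * T ^ 3)
        + 2 * √((T * ((1 + s) * (16 / 7 * κ) + (1 + 1 / s) * (L * ε)) + 8 / 7 * Q * T ^ 2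
            + 269 / 50 * Q * T ^ 3 + 5 / 6 * κ ^ 2 * T ^ 2 * H)
          * (y1 * T + (8 / 7 * A + 51 / 100 * H) * T ^ 2 + 269 / 50 * A * T ^ 3))) * H := by
  have hQ : QB μ p b (16 / ((m + 1) * (7 * m + 23))) := qb_of_T0 b (by positivity) hT0
  exact SS_cross2 h (by omega) hd b hz hzJ ha h1 (h2.trans_lt (by norm_num)) hH
    (Gc_num h hm hd b hT0 hz hQ hH hA hy0 hy h1 h2)
    (Fc_num h (by omega) hd b hz hzJ ha hQ hκ hj hs hL hH hq he h1 h2)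

end

end Vale.Agent.P224.R2.H662
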